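import Vale.Agent.P065.H725.Content

/-!
# P065: dyadic cells and the one third trick (helper725)

`dy θ k x` is the cell of `x` in the grid `θ + 2 ^ (-k) ℤ`. Two points at distance at most
`2 ^ (-k) / 3` share a cell in the grid with shift `θ` or in the grid with shift
`θ + 2 ^ (-k₀) / 3`, for all `k ≥ k₀`.
-/

set_option autoImplicit false

namespace Vale.Agent.P065.H725

open Finset Vale.Agent.P065.UB Vale.Agent.P065.UB.RankAux Vale.Agent.P065.H987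
  Vale.Agent.P065.H859 Vale.Agent.P065.Ent

/-- the dyadic cell of scale `k` of the grid shifted by `θ` -/
noncomputable def dy (θ : ℝ) (k : ℤ) (x : ℝ) : ℤ := ⌊(x - θ) * 2 ^ k⌋

theorem dy_succ (θ : ℝ) (k : ℤ) (x : ℝ) : dy θ k x = dy θ (k + 1) x / 2 := by
  unfold dy
  have h : (x - θ) * 2 ^ k = (x - θ) * 2 ^ (k + 1) / ((2 : ℕ) : ℝ) := by
    rw [zpow_add₀ (by norm_num)]
    push_cast
    ring
  rw [h, Int.floor_div_natCast]
  rfl

/-- the cells are nested -/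
theorem dy_nest {θ : ℝ} {k k' : ℤ} (h : k ≤ k') {x y : ℝ} (hxy : dy θ k' x = dy θ k' y) :
    dy θ k x = dy θ k y := by
  obtain ⟨n, rfl⟩ : ∃ n : ℕ, k' = k + n := ⟨(k' - k).toNat, by omega⟩
  clear h
  induction n with
  | zero => simpa using hxy
  | succ n ih =>
    apply ih
    rw [dy_succ θ (k + n) x, dy_succ θ (k + n) y]
    have h2 : k + ((n + 1 : ℕ) : ℤ) = k + n + 1 := by push_cast; ring
    rw [h2] at hxy
    rw [hxy]

/-- a power of two is not divisible by three, with remainders -/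
theorem two_pow_mod_three (n : ℕ) : ∃ m : ℤ, (2 : ℤ) ^ n = 3 * m + 1 ∨ (2 : ℤ) ^ n = 3 * m - 1 := by
  induction n with
  | zero => exact ⟨0, Or.inl (by norm_num)⟩
  | succ n ih =>
    obtain ⟨m, h | h⟩ := ih
    · exact ⟨2 * m + 1, Or.inr (by rw [pow_succ, h]; ring)⟩
    · exact ⟨2 * m - 1, Or.inl (by rw [pow_succ, h]; ring)⟩

/-- separated points: the floors differ by an integer point between them -/
theorem floor_ne_between {a b : ℝ} (hab : a ≤ b) (h : ⌊a⌋ ≠ ⌊b⌋) :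
    ∃ n : ℤ, a < n ∧ (n : ℝ) ≤ b := by
  refine ⟨⌊b⌋, ?_, Int.floor_le b⟩
  have h1 : ⌊a⌋ < ⌊b⌋ := lt_of_le_of_ne (Int.floor_mono hab) h
  exact Int.floor_lt.1 h1

/-- **the one third trick** in one dimension, unit scale -/
theorem third_unit {a b c : ℝ} (hab : |a - b| ≤ 1 / 3) {m : ℤ}
    (hc : c = m + 1 / 3 ∨ c = m - 1 / 3) :
    ⌊a⌋ = ⌊b⌋ ∨ ⌊a - c⌋ = ⌊b - c⌋ := by
  wlog h : a ≤ b generalizing a b with H
  · have h1 := H (a := b) (b := a) (by rwa [abs_sub_comm]) (le_of_not_ge h)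
    rcases h1 with h1 | h1
    · exact Or.inl h1.symm
    · exact Or.inr h1.symm
  by_contra hcon
  push Not at hcon
  obtain ⟨n, n1, n2⟩ := floor_ne_between h hcon.1
  obtain ⟨n', n3, n4⟩ := floor_ne_between (a := a - c) (b := b - c) (by linarith) hcon.2
  rw [abs_sub_comm, abs_of_nonneg (by linarith)] at hab
  rcases hc with rfl | rfl
  · have h1 : ((n - n' - m : ℤ) : ℝ) < 1 := by push_cast; linarith
    have h2 : (-1 : ℝ) < ((n - n' - m : ℤ) : ℝ) := by push_cast; linarith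
    have h3 : n - n' - m = 0 := by
      have h4 : n - n' - m < 1 := by exact_mod_cast h1
      have h5 : -1 < n - n' - m := by exact_mod_cast h2
      omega
    have h4 : (n : ℝ) = n' + m := by
      have : n = n' + m := by omega
      exact_mod_cast this
    linarith
  · have h1 : ((n - n' - m : ℤ) : ℝ) < 1 := by push_cast; linarith
    have h2 : (-1 : ℝ) < ((n - n' - m : ℤ) : ℝ) := by push_cast; linarith
    have h3 : n - n' - m = 0 := by
      have h4 : n - n' - m < 1 := by exact_mod_cast h1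
      have h5 : -1 < n - n' - m := by exact_mod_cast h2
      omega
    have h4 : (n : ℝ) = n' + m := by
      have : n = n' + m := by omega
      exact_mod_cast this
    linarith

/-- **the one third trick** for dyadic cells -/
theorem third {θ : ℝ} {k₀ k : ℤ} (hk : k₀ ≤ k) {x y : ℝ} (h : |x - y| ≤ 2 ^ (-k) / 3) :
    dy θ k x = dy θ k y ∨ dy (θ + 2 ^ (-k₀) / 3) k x = dy (θ + 2 ^ (-k₀) / 3) k y := by
  obtain ⟨n, hn⟩ : ∃ n : ℕ, k = k₀ + n := ⟨(k - k₀).toNat, by omega⟩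
  obtain ⟨m, hm⟩ := two_pow_mod_three n
  have h2k : (0 : ℝ) < 2 ^ k := by positivity
  have h1 := third_unit (a := (x - θ) * 2 ^ k) (b := (y - θ) * 2 ^ k)
    (c := 2 ^ (-k₀) / 3 * 2 ^ k) (m := m) (by
      have e : (x - θ) * 2 ^ k - (y - θ) * 2 ^ k = (x - y) * 2 ^ k := by ring
      rw [e, abs_mul, abs_of_pos h2k]
      calc |x - y| * 2 ^ k ≤ 2 ^ (-k) / 3 * 2 ^ k := mul_le_mul_of_nonneg_right h h2k.le
        _ = 1 / 3 := by
          rw [zpow_neg]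
          field_simp) (by
      have e : (2 : ℝ) ^ (-k₀) / 3 * 2 ^ k = ((2 : ℤ) ^ n : ℤ) / 3 := by
        rw [hn, div_mul_eq_mul_div, ← zpow_add₀ (by norm_num)]
        have : -k₀ + (k₀ + (n : ℤ)) = (n : ℤ) := by ring
        rw [this, zpow_natCast]
        push_cast
        rfl
      rw [e]
      rcases hm with hm | hm
      · left; rw [hm]; push_cast; ring
      · right; rw [hm]; push_cast; ring)
  unfold dy
  have e1 : ∀ z : ℝ, (z - (θ + 2 ^ (-k₀) / 3)) * 2 ^ k = (z - θ) * 2 ^ k - 2 ^ (-k₀) / 3 * 2 ^ k :=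
    fun z => by ring
  rw [e1, e1]
  exact h1

/-- a dyadic scale comparable with a given distance -/
theorem exists_scale {δ : ℝ} (hδ : 0 < δ) : ∃ k : ℤ, δ ≤ 2 ^ (-k) / 3 ∧ (2 : ℝ) ^ (-k) / 6 < δ := by
  obtain ⟨k, h1, h2⟩ := exists_mem_Ico_zpow (x := 1 / (3 * δ)) (y := (2 : ℝ)) (by positivity)
    (by norm_num)
  have hk : (0 : ℝ) < 2 ^ k := by positivity
  refine ⟨k, ?_, ?_⟩
  · rw [zpow_neg, le_div_iff₀ (by norm_num), ← one_div, le_div_iff₀ hk]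
    rw [le_div_iff₀ (by positivity)] at h1
    linarith
  · rw [zpow_neg, div_lt_iff₀ (by norm_num), ← one_div, div_lt_iff₀ hk]
    rw [div_lt_iff₀ (by positivity), zpow_add₀ (by norm_num)] at h2
    rw [zpow_one] at h2
    linarith

/-- lines which change their order in the window are close at any reference time -/
theorem Cr.close' {x0 x1 xr τ : ℝ} {u v : Pt} (h : Cr x0 x1 u v) (h0 : |xr - x0| ≤ τ)
    (h1 : |xr - x1| ≤ τ) : |ht xr u - ht xr v| ≤ τ * |u.1 - v.1| := by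
  have hs : (ht x0 u - ht x0 v) * (ht x1 u - ht x1 v) ≤ 0 := by
    unfold Cr at h
    by_contra hc
    push Not at hc
    apply h
    rcases pos_and_pos_or_neg_and_neg_of_mul_pos hc with ⟨h2, h3⟩ | ⟨h2, h3⟩
    · exact ⟨⟨fun h4 => by linarith, fun h4 => by linarith⟩,
        ⟨fun _ => by linarith, fun _ => by linarith⟩⟩
    · exact ⟨⟨fun _ => by linarith, fun _ => by linarith⟩,
        ⟨fun h4 => by linarith, fun h4 => by linarith⟩⟩
  -- the difference at a time `x` is affine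
  have key : ∀ x, (ht xr u - ht xr v) * (ht x u - ht x v) ≤ 0 → |xr - x| ≤ τ →
      |ht xr u - ht xr v| ≤ τ * |u.1 - v.1| := by
    intro x h2 h3
    have h4 : (ht xr u - ht xr v) - (ht x u - ht x v) = -((xr - x) * (u.1 - v.1)) := by
      unfold ht
      ring
    have h5 : |ht xr u - ht xr v| ≤ |(ht xr u - ht xr v) - (ht x u - ht x v)| := by
      rw [← sq_le_sq]
      nlinarith [sq_nonneg (ht x u - ht x v)]
    rw [h4, abs_neg, abs_mul] at h5
    exact h5.trans (mul_le_mul_of_nonneg_right h3 (abs_nonneg _))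
  by_cases h2 : (ht xr u - ht xr v) * (ht x0 u - ht x0 v) ≤ 0
  · exact key x0 h2 h0
  · by_cases h3 : (ht xr u - ht xr v) * (ht x1 u - ht x1 v) ≤ 0
    · exact key x1 h3 h1
    · exfalso
      push Not at h2 h3
      have h4 := mul_pos h2 h3
      nlinarith [sq_nonneg (ht xr u - ht xr v)]

theorem Cr.ne {x0 x1 : ℝ} {u v : Pt} (h : Cr x0 x1 u v) : u ≠ v := by
  rintro rfl
  exact h ⟨Iff.intro (fun h1 => absurd h1 (lt_irrefl _)) (fun h1 => absurd h1 (lt_irrefl _)),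
    Iff.intro (fun h1 => absurd h1 (lt_irrefl _)) (fun h1 => absurd h1 (lt_irrefl _))⟩

/-- the four systems of squares in the plane (slope, height at `xr` divided by `τ`) -/
noncomputable def sq4 (θs θh : ℝ) (k₀ : ℤ) (xr τ : ℝ) (a : Bool × Bool) (k : ℤ) (v : Pt) : ℤ × ℤ :=
  (dy (θs + if a.1 then 2 ^ (-k₀) / 3 else 0) k v.1,
    dy (θh + if a.2 then 2 ^ (-k₀) / 3 else 0) k (ht xr v / τ))

theorem sq4_nest (θs θh : ℝ) (k₀ : ℤ) (xr τ : ℝ) (a : Bool × Bool) {k k' : ℤ} (h : k ≤ k')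
    {u v : Pt} (huv : sq4 θs θh k₀ xr τ a k' u = sq4 θs θh k₀ xr τ a k' v) :
    sq4 θs θh k₀ xr τ a k u = sq4 θs θh k₀ xr τ a k v := by
  have h1 := Prod.mk.inj huv
  exact Prod.ext (dy_nest h h1.1) (dy_nest h h1.2)

/-- **separation** by the four systems -/
theorem sq4_sep (θs θh : ℝ) (k₀ : ℤ) {x0 x1 xr τ : ℝ} (hτ : 0 < τ) (h0 : |xr - x0| ≤ τ)
    (h1 : |xr - x1| ≤ τ) {u v : Pt} (h : Cr x0 x1 u v) (hne : u.1 ≠ v.1)
    (htop : |u.1 - v.1| ≤ 2 ^ (-k₀) / 3) :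
    ∃ a, ∃ k, k₀ ≤ k ∧ sq4 θs θh k₀ xr τ a k u = sq4 θs θh k₀ xr τ a k v ∧
      (2 : ℝ) ^ (-k) / 6 < |u.1 - v.1| ∧ |u.1 - v.1| ≤ 2 ^ (-k) / 3 := by
  have hδ : 0 < |u.1 - v.1| := abs_pos.2 (sub_ne_zero.2 hne)
  obtain ⟨k, hk1, hk2⟩ := exists_scale hδ
  have hkk : k₀ ≤ k := by
    by_contra hc
    push Not at hc
    have h2 : (2 : ℝ) ^ (-k₀) / 3 ≤ 2 ^ (-k) / 6 := by
      have h3 : (2 : ℝ) ^ (-k₀) ≤ 2 ^ (-k - 1) := zpow_le_zpow_right₀ (by norm_num) (by omega)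
      rw [zpow_sub₀ (by norm_num), zpow_one] at h3
      linarith
    linarith
  have hc := h.close' h0 h1
  have hh : |ht xr u / τ - ht xr v / τ| ≤ 2 ^ (-k) / 3 := by
    rw [← sub_div, abs_div, abs_of_pos hτ, div_le_iff₀ hτ]
    nlinarith
  obtain ⟨a1, ha1⟩ : ∃ a1 : Bool, dy (θs + if a1 then 2 ^ (-k₀) / 3 else 0) k u.1 =
      dy (θs + if a1 then 2 ^ (-k₀) / 3 else 0) k v.1 := by
    rcases third (θ := θs) hkk hk1 with h2 | h2
    · exact ⟨false, by simpa using h2⟩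
    · exact ⟨true, by simpa using h2⟩
  obtain ⟨a2, ha2⟩ : ∃ a2 : Bool, dy (θh + if a2 then 2 ^ (-k₀) / 3 else 0) k (ht xr u / τ) =
      dy (θh + if a2 then 2 ^ (-k₀) / 3 else 0) k (ht xr v / τ) := by
    rcases third (θ := θh) hkk hh with h2 | h2
    · exact ⟨false, by simpa using h2⟩
    · exact ⟨true, by simpa using h2⟩
  exact ⟨(a1, a2), k, hkk, Prod.ext ha1 ha2, hk2, hk1⟩

variable {Ω ι : Type*} [Fintype Ω]

/-- **the content lemma with squares** -/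
theorem Dat.content_sq (D : Dat Ω ι) {γ a : ℝ} (hγ0 : 0 ≤ γ) (hγ1 : γ ≤ 1) (ha1 : a ≤ 1)
    (hopt : D.Opt γ a) {x0 x1 xr τ : ℝ} (hτ : 0 < τ) (h0 : |xr - x0| ≤ τ) (h1 : |xr - x1| ≤ τ)
    (hx : ∀ e ∈ D.E, x0 < e.1 ∧ e.1 < x1) (A : Pt → Prop)
    (hp : 0 < ms D.ν (fun ω => A (D.ln ω))) (θs θh : ℝ) (k₀ k₁ : ℤ)
    (htop : ∀ ω ω', 0 < D.ν ω → 0 < D.ν ω' → A (D.ln ω) → A (D.ln ω') →
      |(D.ln ω').1 - (D.ln ω).1| ≤ 2 ^ (-k₀) / 3)
    (hbot : ∀ ω ω', 0 < D.ν ω → 0 < D.ν ω' → A (D.ln ω) → A (D.ln ω') →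
      (D.ln ω').1 ≠ (D.ln ω).1 → (2 : ℝ) ^ (-k₁) / 6 < |(D.ln ω').1 - (D.ln ω).1|)
    {η κ : ℝ} (hη : 0 < η) (hη1 : η ≤ 1 / 2)
    (hatom : ∀ v, ms D.ν (fun ω => D.ln ω = v) ≤ ms D.ν (fun ω => A (D.ln ω)) * η / 2)
    (hκ : ∀ a v, ms D.ν (fun ω => D.X ω = a ∧ D.ln ω = v) ≤ κ)
    (hfat : 16 * ne D.E * κ * Real.log (1 / η) ≤ ms D.ν (fun ω => A (D.ln ω)) * η) :
    (1 - γ) * Real.log (1 / η) ≤ 2 * Real.log (1 / ms D.ν (fun ω => A (D.ln ω))) + 15 +
      4 * content (sq4 θs θh k₀ xr τ) (fun k => 2 ^ (-k) / 12)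
        (cE D.ν (fun ω => A (D.ln ω))) D.ln (Finset.Icc k₀ k₁) η := by
  obtain ⟨P, k, ⟨hP, hPE⟩⟩ := D.real
  have hln : ∀ ω, 0 < D.ν ω → D.ln ω ∈ P := fun ω h => (hPE _ (D.mem ω h)).mem
  have key := D.content_bound hγ0 hγ1 ha1 hopt hx A hp (sq4 θs θh k₀ xr τ)
    (fun k => 2 ^ (-k) / 12) (fun k => by positivity) (Finset.Icc k₀ k₁)
    (fun a k _ k' _ hkk u v huv => sq4_nest θs θh k₀ xr τ a hkk huv)
    (by
      intro ω ω' hω hω' hA hA' hcr
      have hne : (D.ln ω').1 ≠ (D.ln ω).1 := fun h =>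
        hcr.ne (hP.xinj _ (hln ω' hω') _ (hln ω hω) h)
      obtain ⟨a, k, hk, h2, h3, h4⟩ := sq4_sep θs θh k₀ hτ h0 h1 hcr hne (htop ω ω' hω hω' hA hA')
      refine ⟨a, k, Finset.mem_Icc.2 ⟨hk, ?_⟩, h2, ?_⟩
      · by_contra hc
        push Not at hc
        have h5 := hbot ω ω' hω hω' hA hA' hne
        have h6 : (2 : ℝ) ^ (-k) / 3 ≤ 2 ^ (-k₁) / 6 := by
          have h7 : (2 : ℝ) ^ (-k) ≤ 2 ^ (-k₁ - 1) := zpow_le_zpow_right₀ (by norm_num) (by omega)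
          rw [zpow_sub₀ (by norm_num), zpow_one] at h7
          linarith
        linarith
      · linarith)
    hη hη1 hatom hκ hfat
  have h2 : Real.log (4 * Fintype.card (Bool × Bool)) ≤ 3 := by
    have e : (4 * (Fintype.card (Bool × Bool) : ℝ)) = 16 := by
      simp
      norm_num
    rw [e, Real.log_le_iff_le_exp (by norm_num)]
    have h3 := Real.exp_one_gt_d9
    have h4 : Real.exp 3 = Real.exp 1 ^ 3 := by
      rw [← Real.exp_nat_mul]; norm_num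
    rw [h4]
    calc (16 : ℝ) ≤ 2.7 ^ 3 := by norm_num
      _ ≤ Real.exp 1 ^ 3 := pow_le_pow_left₀ (by norm_num) (by linarith) 3
  linarith

end Vale.Agent.P065.H725
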