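import Vale.Agent.P065.H725.ColPer

/-!
# P065: assembly, case (I): what is known (helper725)

`SysI` : case (I) of `colsel` (slope giants) with everything which is known about it. The numbers:
`B₀` (pieces), `Γ s₀` (frame), `q` (radius of the giants), `Λ` (the growth constant, does not depend
on `kt`, `kN`), `kt` (the giants have near mass at most `g ^ (-kt)`), `kN` (exponent of NG), `n g`
(size).
-/

set_option autoImplicit false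

open Finset Real

noncomputable section

namespace Vale.Agent.P065.H725

open Vale.Agent.P065.UB Vale.Agent.P065.Ent Vale.Agent.P065.H154

/-- **the system of case (I)** -/
structure SysI (B₀ Γ s₀ q Λ kt kN : ℕ) (c₂ : ℝ) (n g : ℕ) where
  Ω : Type
  [fin : Fintype Ω]
  [ne : Nonempty Ω]
  F : Fr Ω
  ln : Ω → Pt
  p : Prm
  Lab : Type
  lam : Ω → Lab
  /-- law of the typical flags -/
  μ : Ω → ℝ
  /-- law of all flags -/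
  ν : Ω → ℝ
  hμ : IsProb μ
  hν : IsProb ν
  ν_pos : ∀ ω, 0 < ν ω
  μ_le : ∀ ω, μ ω ≤ Λ * ν ω
  -- pieces
  n_eq : F.n = n
  leaves : #(univ.image (F.P.W F.n)) ≤ B₀ ^ (2 * g)
  -- parameters of the frame
  Γ_le : Γ ≤ p.Γ
  M_ge : F.P.T + s₀ ≤ p.M
  -- the giants
  θ : ℝ
  η : ℝ
  θ_pos : 0 < θ
  η_pos : 0 < η
  thr : exp (-(Λ * g)) ≤ η * θ
  gi : (p.nT : ℝ) / 64 < ∑ i : Fin p.nT, ms μ (fun ω => ∃ κ : p.Kap,
    Big F ln p lam μ θ η (κ, i) ω ∧ Gnt F ln p lam μ q ((1 / (g : ℝ)) ^ kt) (κ, i) ω)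
  -- typical flags
  sur : ∀ ω, 0 < μ ω → c₂ * g ≤ -log (Pr ν (fun ω => (F.P.W F.n ω, ln ω)) (F.P.W F.n ω, ln ω) /
    Pr ν ln (ln ω))
  /-- no giant exits of time -/
  ng : ∀ (u : ℝ) (T : ℕ), PE μ (fun ω => ∃ t < T,
    Pr ν (fun ω => (F.D u (t + 1) ω, ln ω)) (F.D u (t + 1) ω, ln ω) ≤
      (1 / (g : ℝ)) ^ (3 * kN + 9) * Pr ν (fun ω => (F.D u t ω, ln ω)) (F.D u t ω, ln ω)) ≤
    (1 / (g : ℝ)) ^ kN

attribute [instance] SysI.fin SysI.ne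

/-- **statement of case (I)** -/
def CaseI : Prop := ∀ (B₀ q : ℕ) (c₂ : ℝ), 2 ≤ B₀ → 0 < c₂ → ∃ Γ₀ σ₀ : ℕ, ∀ Γ ≥ Γ₀, ∀ s₀ ≥ σ₀,
  ∀ Λ : ℕ, ∃ kt₀ : ℕ, ∀ kt ≥ kt₀, ∃ kN₀ : ℕ, ∀ kN ≥ kN₀, ∃ g₁ : ℕ, ∀ n g : ℕ, g₁ ≤ g →
    SysI B₀ Γ s₀ q Λ kt kN c₂ n g → False

end Vale.Agent.P065.H725
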