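import Vale.Agent.P065.H725.Class
import Vale.Agent.P065.H154.Frame

/-!
# P065: cells and blocks of the frame (helper725)

`cF`: the cells of the frame (slope in the grid of step `2 ^ (-k)`, height in the grid of step
`2 ^ (-(T + k))`) for one piece; the meeting points of two lines are at distance at most
`2 ^ q * 2 ^ (-T)` from the reference time, so two lines which meet in the window and whose
slopes are at distance `2 ^ (-(k + q))`, up to constants, share a cell of scale `k` in one of four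
systems.
-/

set_option autoImplicit false

namespace Vale.Agent.P065.H725

open Finset Vale.Agent.P065.UB Vale.Agent.P065.UB.RankAux Vale.Agent.P065.H987
  Vale.Agent.P065.H859 Vale.Agent.P065.Ent

/-! ## digits -/

theorem dy_div (θ : ℝ) (k : ℤ) (n : ℕ) (x : ℝ) : dy θ k x = dy θ (k + n) x / 2 ^ n := by
  unfold dy
  have h : (x - θ) * 2 ^ k = (x - θ) * 2 ^ (k + (n : ℤ)) / ((2 ^ n : ℕ) : ℝ) := by
    rw [zpow_add₀ (by norm_num), zpow_natCast]
    push_cast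
    field_simp
  rw [h, Int.floor_div_natCast]
  push_cast
  rfl

theorem dy_close {θ : ℝ} {k : ℤ} {x y : ℝ} (h : dy θ k x = dy θ k y) : |x - y| < 2 ^ (-k) := by
  unfold dy at h
  have h1 := Int.abs_sub_lt_one_of_floor_eq_floor h
  have e : (x - θ) * 2 ^ k - (y - θ) * 2 ^ k = (x - y) * 2 ^ k := by ring
  have hk : (0 : ℝ) < 2 ^ k := by positivity
  rw [e, abs_mul, abs_of_pos hk] at h1
  rw [zpow_neg, ← one_div, lt_div_iff₀ hk]
  exact h1

/-- the digits `k + 1, ..., k + P` of the slope -/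
noncomputable def blk (θ : ℝ) (P : ℕ) (k : ℤ) (x : ℝ) : Fin (2 ^ P) :=
  ⟨(dy θ (k + P) x % 2 ^ P).toNat, by
    have h1 := Int.emod_lt_of_pos (dy θ (k + P) x) (b := 2 ^ P) (by positivity)
    have h2 := Int.emod_nonneg (dy θ (k + P) x) (b := 2 ^ P) (by positivity)
    have h3 : ((2 ^ P : ℕ) : ℤ) = 2 ^ P := by push_cast; rfl
    omega⟩

theorem blk_val (θ : ℝ) (P : ℕ) (k : ℤ) (x : ℝ) :
    (((blk θ P k x : Fin (2 ^ P)) : ℕ) : ℤ) = dy θ (k + P) x - 2 ^ P * dy θ k x := by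
  have h2 := Int.emod_nonneg (dy θ (k + P) x) (b := 2 ^ P) (by positivity)
  have h3 := Int.emod_add_mul_ediv (dy θ (k + P) x) (2 ^ P)
  rw [← dy_div] at h3
  show (((dy θ (k + P) x % 2 ^ P).toNat : ℕ) : ℤ) = _
  rw [Int.toNat_of_nonneg h2]
  linarith

theorem blk_inj {θ : ℝ} {P : ℕ} {k : ℤ} {x y : ℝ} (h : dy θ k x = dy θ k y)
    (hb : blk θ P k x = blk θ P k y) : dy θ (k + P) x = dy θ (k + P) y := by
  have h1 := blk_val θ P k x
  have h2 := blk_val θ P k y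
  rw [hb, h2, h] at h1
  linarith

/-- admissible pairs of blocks -/
def Adm (q P : ℕ) (b b' : Fin (2 ^ P)) : Prop :=
  (2 : ℝ) ^ P / (48 * 2 ^ q) < |((b : ℕ) : ℝ) - ((b' : ℕ) : ℝ)| + 1

theorem blk_real (θ : ℝ) (P : ℕ) (k : ℤ) {x y : ℝ} (h : dy θ k x = dy θ k y) :
    (((blk θ P k x : Fin (2 ^ P)) : ℕ) : ℝ) - (((blk θ P k y : Fin (2 ^ P)) : ℕ) : ℝ) =
      (⌊(x - θ) * 2 ^ (k + (P : ℤ))⌋ : ℝ) - ⌊(y - θ) * 2 ^ (k + (P : ℤ))⌋ := by
  have h1 := blk_val θ P k x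
  have h2 := blk_val θ P k y
  have h3 : (((blk θ P k x : Fin (2 ^ P)) : ℕ) : ℤ) - (((blk θ P k y : Fin (2 ^ P)) : ℕ) : ℤ) =
      dy θ (k + P) x - dy θ (k + P) y := by
    rw [h1, h2, h]
    ring
  have h4 := congrArg (Int.cast : ℤ → ℝ) h3
  push_cast at h4
  exact h4

theorem rad_eq (q : ℕ) (k : ℤ) : rad q k = 2 ^ (-k) / 2 ^ q / 12 := by
  unfold rad
  rw [neg_add, zpow_add₀ (by norm_num), zpow_neg, zpow_neg, zpow_natCast]
  ring

theorem adm_of_far {θ : ℝ} {q P : ℕ} {k : ℤ} {x y : ℝ} (h : dy θ k x = dy θ k y)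
    (hf : rad q k / 4 < |x - y|) : Adm q P (blk θ P k x) (blk θ P k y) := by
  unfold Adm
  rw [blk_real θ P k h]
  set X := (x - θ) * 2 ^ (k + (P : ℤ)) with hX
  set Y := (y - θ) * 2 ^ (k + (P : ℤ)) with hY
  have h1 : (2 : ℝ) ^ P / (48 * 2 ^ q) < |X - Y| := by
    have e : X - Y = (x - y) * (2 ^ k * 2 ^ P) := by
      rw [hX, hY, zpow_add₀ (by norm_num), zpow_natCast]
      ring
    rw [e, abs_mul, abs_of_pos (by positivity : (0 : ℝ) < 2 ^ k * 2 ^ P)]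
    have h2 := mul_lt_mul_of_pos_right hf (by positivity : (0 : ℝ) < 2 ^ k * 2 ^ P)
    have e2 : rad q k / 4 * (2 ^ k * 2 ^ P) = 2 ^ P / (48 * 2 ^ q) := by
      rw [rad_eq, zpow_neg]
      field_simp
      norm_num
    rwa [e2] at h2
  have h2 : |X - Y| ≤ |(⌊X⌋ : ℝ) - ⌊Y⌋| + 1 := by
    have h3 : X - Y = ((⌊X⌋ : ℝ) - ⌊Y⌋) + (Int.fract X - Int.fract Y) := by
      unfold Int.fract
      ring
    have h4 : |Int.fract X - Int.fract Y| ≤ 1 := by
      rw [abs_le]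
      have := Int.fract_nonneg X
      have := Int.fract_nonneg Y
      have := (Int.fract_lt_one X).le
      have := (Int.fract_lt_one Y).le
      constructor <;> linarith
    rw [h3]
    exact (abs_add_le _ _).trans (by linarith)
  linarith

/-- blocks of an admissible pair are not neighbours -/
theorem Adm.far {q P : ℕ} (hP : 9 + q ≤ P) {b b' : Fin (2 ^ P)} (h : Adm q P b b') :
    (2 : ℝ) ^ P / (64 * 2 ^ q) + 1 < |((b : ℕ) : ℝ) - ((b' : ℕ) : ℝ)| := by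
  unfold Adm at h
  obtain ⟨d, rfl⟩ : ∃ d, P = 9 + q + d := ⟨P - (9 + q), by omega⟩
  have h6 : (1 : ℝ) ≤ 2 ^ d := one_le_pow₀ (by norm_num)
  have e1 : (2 : ℝ) ^ (9 + q + d) / (48 * 2 ^ q) = 512 / 48 * 2 ^ d := by
    rw [pow_add, pow_add]
    field_simp
    norm_num
  have e2 : (2 : ℝ) ^ (9 + q + d) / (64 * 2 ^ q) = 8 * 2 ^ d := by
    rw [pow_add, pow_add]
    field_simp
    norm_num
  rw [e1] at h
  rw [e2]
  linarith

/-- lines of admissible blocks have different slopes -/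
theorem far_of_adm {θ : ℝ} {q P : ℕ} (hP : 9 + q ≤ P) {k : ℤ} {x y : ℝ} (h : dy θ k x = dy θ k y)
    (hA : Adm q P (blk θ P k x) (blk θ P k y)) : 2 ^ (-k) / (64 * 2 ^ q) < |x - y| := by
  have h0 := hA.far hP
  rw [blk_real θ P k h] at h0
  set X := (x - θ) * 2 ^ (k + (P : ℤ)) with hX
  set Y := (y - θ) * 2 ^ (k + (P : ℤ)) with hY
  have h2 : |(⌊X⌋ : ℝ) - ⌊Y⌋| ≤ |X - Y| + 1 := by
    have h3 : (⌊X⌋ : ℝ) - ⌊Y⌋ = (X - Y) - (Int.fract X - Int.fract Y) := by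
      unfold Int.fract
      ring
    have h4 : |Int.fract X - Int.fract Y| ≤ 1 := by
      rw [abs_le]
      have := Int.fract_nonneg X
      have := Int.fract_nonneg Y
      have := (Int.fract_lt_one X).le
      have := (Int.fract_lt_one Y).le
      constructor <;> linarith
    rw [h3]
    exact (abs_sub _ _).trans (by linarith)
  have h5 : (2 : ℝ) ^ P / (64 * 2 ^ q) < |X - Y| := by linarith
  have e : X - Y = (x - y) * (2 ^ k * 2 ^ P) := by
    rw [hX, hY, zpow_add₀ (by norm_num), zpow_natCast]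
    ring
  have hkP : (0 : ℝ) < 2 ^ k * 2 ^ P := by positivity
  rw [e, abs_mul, abs_of_pos hkP] at h5
  have e3 : (2 : ℝ) ^ P / (64 * 2 ^ q) = 2 ^ (-k) / (64 * 2 ^ q) * (2 ^ k * 2 ^ P) := by
    rw [zpow_neg]
    field_simp
  rw [e3] at h5
  exact lt_of_mul_lt_mul_right h5 hkP.le

/-! ## cells of one piece -/

/-- the cells of one piece: slope offset `os`, height offset `φ`, height function `hf` -/
noncomputable def cF (os φ : ℝ) (T : ℤ) (hf : Pt → ℝ) (k : ℤ) (v : Pt) : ℤ × ℤ :=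
  (dy os k v.1, dy φ (T + k) (hf v))

theorem cF_nest (os φ : ℝ) (T : ℤ) (hf : Pt → ℝ) {k k' : ℤ} (h : k ≤ k')
    {u v : Pt} (huv : cF os φ T hf k' u = cF os φ T hf k' v) :
    cF os φ T hf k u = cF os φ T hf k v := by
  have h1 := Prod.mk.inj huv
  exact Prod.ext (dy_nest h h1.1) (dy_nest (by omega) h1.2)

theorem cF_sub (q : ℕ) (os φ : ℝ) (T : ℤ) (hf : Pt → ℝ) (k : ℤ) (u v : Pt)
    (h : cF os φ T hf (k + ((6 + q : ℕ) : ℤ)) u = cF os φ T hf (k + ((6 + q : ℕ) : ℤ)) v) :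
    cF os φ T hf k u = cF os φ T hf k v ∧ |u.1 - v.1| ≤ rad q k / 4 := by
  refine ⟨cF_nest os φ T hf (by omega) h, ?_⟩
  have h1 := dy_close (Prod.mk.inj h).1
  have e : (2 : ℝ) ^ (-(k + ((6 + q : ℕ) : ℤ))) = 2 ^ (-k) / 2 ^ q / 64 := by
    rw [neg_add, zpow_add₀ (by norm_num), zpow_neg, zpow_neg, zpow_natCast, pow_add]
    norm_num
    ring
  rw [e] at h1
  rw [rad_eq]
  have : (0 : ℝ) < 2 ^ (-k) / 2 ^ q := by positivity
  linarith

theorem cF_diam {q P : ℕ} (hP : 6 + q ≤ P) (os φ : ℝ) (T : ℤ) (hf : Pt → ℝ)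
    (k : ℤ) (u v : Pt) (h : cF os φ T hf k u = cF os φ T hf k v)
    (hb : blk os P k u.1 = blk os P k v.1) : |u.1 - v.1| ≤ rad q k / 4 := by
  have h1 := dy_close (blk_inj (Prod.mk.inj h).1 hb)
  have h2 : (2 : ℝ) ^ (-(k + (P : ℤ))) ≤ 2 ^ (-k) / 2 ^ q / 64 := by
    obtain ⟨d, rfl⟩ : ∃ d, P = 6 + q + d := ⟨P - (6 + q), by omega⟩
    rw [neg_add, zpow_add₀ (by norm_num), zpow_neg, zpow_neg, zpow_natCast, pow_add, pow_add,
      div_div, ← div_eq_mul_inv]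
    refine div_le_div_of_nonneg_left (by positivity) (by positivity) ?_
    have h6 : (1 : ℝ) ≤ 2 ^ d := one_le_pow₀ (by norm_num)
    have h7 : (0 : ℝ) < 2 ^ q := by positivity
    norm_num
    nlinarith
  rw [rad_eq]
  have : (0 : ℝ) < 2 ^ (-k) / 2 ^ q := by positivity
  linarith

theorem cF_adm (q P : ℕ) (os φ : ℝ) (T : ℤ) (hf : Pt → ℝ)
    (k : ℤ) (u v : Pt) (h : cF os φ T hf k u = cF os φ T hf k v)
    (hd : rad q k / 4 < |u.1 - v.1|) : Adm q P (blk os P k u.1) (blk os P k v.1) :=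
  adm_of_far (Prod.mk.inj h).1 hd

/-- a change of the height offset by a multiple of the coarsest cell does not change the cells -/
theorem cF_period (os φ : ℝ) {T : ℤ} (hf : Pt → ℝ) {k₀ k : ℤ} (hk : k₀ ≤ k) (n : ℤ) (u v : Pt) :
    cF os (φ + n * 2 ^ (-(T + k₀))) T hf k u = cF os (φ + n * 2 ^ (-(T + k₀))) T hf k v ↔
      cF os φ T hf k u = cF os φ T hf k v := by
  have key : ∀ x : ℝ, dy (φ + n * 2 ^ (-(T + k₀))) (T + k) x =
      dy φ (T + k) x - n * 2 ^ (k - k₀).toNat := by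
    intro x
    unfold dy
    have e : (x - (φ + n * 2 ^ (-(T + k₀)))) * 2 ^ (T + k) =
        (x - φ) * 2 ^ (T + k) - ((n * 2 ^ (k - k₀).toNat : ℤ) : ℝ) := by
      have e1 : (2 : ℝ) ^ (T + k) = 2 ^ (T + k₀) * 2 ^ (k - k₀).toNat := by
        rw [← zpow_natCast, ← zpow_add₀ (by norm_num)]
        congr 1
        rw [Int.toNat_of_nonneg (by omega)]
        ring
      rw [e1]
      push_cast
      rw [zpow_neg]
      field_simp
      ring
    rw [e, Int.floor_sub_intCast]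
  unfold cF
  rw [Prod.mk.injEq, Prod.mk.injEq, key, key]
  constructor
  · rintro ⟨h1, h2⟩
    exact ⟨h1, by linarith⟩
  · rintro ⟨h1, h2⟩
    exact ⟨h1, by rw [h2]⟩

/-- the four systems -/
noncomputable def c4 (k₀ : ℤ) (φ : Bool → ℝ) (T : ℤ) (hf : Pt → ℝ) (a : Bool × Bool) (k : ℤ)
    (v : Pt) : ℤ × ℤ :=
  cF (H154.os k₀ a.1) (φ a.1 - if a.2 then 2 ^ (-(T + k₀)) / 3 else 0) T hf k v

/-- **separation** -/
theorem c4_sep {q : ℕ} {k₀ : ℤ} (φ : Bool → ℝ) (T : ℤ) {hf : Pt → ℝ} {u v : Pt}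
    (h : |hf u - hf v| ≤ 2 ^ q * 2 ^ (-T) * |u.1 - v.1|) (hne : u.1 ≠ v.1)
    (htop : |u.1 - v.1| ≤ 2 ^ (-(k₀ + q)) / 3) :
    ∃ a, ∃ k, k₀ ≤ k ∧ c4 k₀ φ T hf a k u = c4 k₀ φ T hf a k v ∧
      2 * rad q k < |u.1 - v.1| ∧ |u.1 - v.1| ≤ 2 ^ (-(k + q)) / 3 := by
  have hδ : 0 < |u.1 - v.1| := abs_pos.2 (sub_ne_zero.2 hne)
  obtain ⟨κ, hk1, hk2⟩ := exists_scale hδ
  have hkk : k₀ + q ≤ κ := by
    by_contra hc
    push Not at hc
    have h2 : (2 : ℝ) ^ (-(k₀ + q)) / 3 ≤ 2 ^ (-κ) / 6 := by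
      have h3 : (2 : ℝ) ^ (-(k₀ + (q : ℤ))) ≤ 2 ^ (-κ - 1) :=
        zpow_le_zpow_right₀ (by norm_num) (by omega)
      rw [zpow_sub₀ (by norm_num), zpow_one] at h3
      linarith
    linarith
  obtain ⟨k, rfl⟩ : ∃ k : ℤ, κ = k + q := ⟨κ - q, by ring⟩
  have hk : k₀ ≤ k := by omega
  have hq : (0 : ℝ) < 2 ^ q := by positivity
  have ekq : (2 : ℝ) ^ (-(k + (q : ℤ))) = 2 ^ (-k) / 2 ^ q := by
    rw [neg_add, zpow_add₀ (by norm_num), zpow_neg, zpow_neg, zpow_natCast]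
    ring
  have hs : |u.1 - v.1| ≤ 2 ^ (-k) / 3 := by
    refine hk1.trans ?_
    rw [ekq]
    have : (2 : ℝ) ^ (-k) / 2 ^ q ≤ 2 ^ (-k) :=
      div_le_self (by positivity) (one_le_pow₀ (by norm_num))
    linarith
  have hh : |hf u - hf v| ≤ 2 ^ (-(T + k)) / 3 := by
    refine h.trans ?_
    rw [neg_add, zpow_add₀ (by norm_num)]
    calc 2 ^ q * 2 ^ (-T) * |u.1 - v.1| ≤ 2 ^ q * 2 ^ (-T) * (2 ^ (-(k + (q : ℤ))) / 3) :=
          mul_le_mul_of_nonneg_left hk1 (by positivity)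
      _ = 2 ^ (-T) * 2 ^ (-k) / 3 := by
          rw [ekq]
          field_simp
  obtain ⟨a1, ha1⟩ : ∃ a1 : Bool, dy (H154.os k₀ a1) k u.1 = dy (H154.os k₀ a1) k v.1 := by
    unfold H154.os
    rcases third (θ := 0) hk hs with h2 | h2
    · exact ⟨false, by simpa using h2⟩
    · exact ⟨true, by simpa using h2⟩
  obtain ⟨a2, ha2⟩ : ∃ a2 : Bool,
      dy (φ a1 - if a2 then 2 ^ (-(T + k₀)) / 3 else 0) (T + k) (hf u) =
      dy (φ a1 - if a2 then 2 ^ (-(T + k₀)) / 3 else 0) (T + k) (hf v) := by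
    rcases third (θ := φ a1 - 2 ^ (-(T + k₀)) / 3) (k₀ := T + k₀) (k := T + k) (by omega) hh
      with h2 | h2
    · exact ⟨true, by simpa using h2⟩
    · refine ⟨false, ?_⟩
      simpa using h2
  refine ⟨(a1, a2), k, hk, Prod.ext ha1 ha2, ?_, hk1⟩
  unfold rad
  linarith

end Vale.Agent.P065.H725
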