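import Vale.Agent.P065.H725.ColJ

/-!
# P065: the offsets of the rows and the four systems of one piece (helper725)
-/

set_option autoImplicit false

set_option linter.unusedSectionVars false

namespace Vale.Agent.P065.H725

open Finset Vale.Agent.P065.UB Vale.Agent.P065.UB.RankAux Vale.Agent.P065.H987
  Vale.Agent.P065.H859 Vale.Agent.P065.Ent Vale.Agent.P065.H154

section frame

variable {Ω : Type*} (F : Fr Ω) (ln : Ω → Pt) (p : Prm) {Lab : Type*} (lam : Ω → Lab)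
  [Fintype Ω] (μ : Ω → ℝ)

/-- big box of a class of mass at least `θ` -/
def Big (θ η : ℝ) (c : p.Col) (ω : Ω) : Prop :=
  θ ≤ Pr μ (FV F lam) (FV F lam ω) ∧
    η * Pr μ (FV F lam) (FV F lam ω) ≤ Pr μ (rho F ln p lam c) (rho F ln p lam c ω)

/-- the flag is a giant of its box: the flags of the box whose slope is at distance at most
`2 ^ (-(k + q)) / 48` have a small share of the mass of the box -/
def Gnt (q : ℕ) (τ : ℝ) (c : p.Col) (ω : Ω) : Prop :=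
  ms μ (fun ω' => rho F ln p lam c ω' = rho F ln p lam c ω ∧
    |(ln ω').1 - (ln ω).1| ≤ rad q (Prm.sc c.1) / 4) <
    τ * Pr μ (rho F ln p lam c) (rho F ln p lam c ω)

/-- number of offsets between the two height systems of one piece -/
def sft (ω : Ω) : ℕ := 2 ^ (p.K + p.M - F.T' ω)

/-- mass of the giants of the class of a flag for one slope system -/
noncomputable def Gm (q : ℕ) (η τ : ℝ) (j : ℤ) (a : Bool) (ω : Ω) : ℝ :=
  ms (cnd μ (FV F lam) (FV F lam ω)) (fun ω' => Gi1 q (cj F p ω j a)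
    (Finset.Icc p.k₀ (p.k₀ + p.K)) η τ (cnd μ (FV F lam) (FV F lam ω)) ln ω')

variable {F ln p lam μ}

theorem ph_period (ω : Ω) (j : ℤ) (a : Bool) :
    ph F p ω (j + p.nT) a = ph F p ω j a +
      ((-(2 ^ (p.Γ + F.T' ω)) : ℤ) : ℝ) * 2 ^ (-((F.T' ω : ℤ) + p.k₀)) := by
  unfold ph un Prm.nT
  have e : (2 : ℝ) ^ ((p.K : ℤ) + p.M + p.k₀) = 2 ^ p.K * 2 ^ p.M * 2 ^ p.k₀ := by
    rw [zpow_add₀ (by norm_num), zpow_add₀ (by norm_num), zpow_natCast, zpow_natCast]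
  have e2 : (2 : ℝ) ^ (-((F.T' ω : ℤ) + p.k₀)) = (2 ^ F.T' ω)⁻¹ * (2 ^ p.k₀)⁻¹ := by
    rw [neg_add, zpow_add₀ (by norm_num), zpow_neg, zpow_neg, zpow_natCast]
  rw [e, e2]
  have h1 : (0 : ℝ) < 2 ^ p.k₀ := by positivity
  push_cast
  rw [pow_add, pow_add, pow_add]
  field_simp
  ring

theorem cj_period (ω : Ω) (j : ℤ) (a : Bool) {k : ℤ} (hk : p.k₀ ≤ k) (u v : Pt) :
    cj F p ω (j + p.nT) a k u = cj F p ω (j + p.nT) a k v ↔
      cj F p ω j a k u = cj F p ω j a k v := by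
  unfold cj
  rw [ph_period]
  exact cF_period _ _ _ hk _ u v

theorem Psi_period (q : ℕ) (η ε : ℝ) (j : ℤ) (ω : Ω) :
    Psi F ln p lam μ q η ε (j + p.nT) ω = Psi F ln p lam μ q η ε j ω := by
  unfold Psi
  refine sum_congr rfl fun a _ => ?_
  exact Sc1_congr _ _ (fun k hk u v => cj_period ω j a (Finset.mem_Icc.1 hk).1 u v) _ _ _ _

theorem Gm_period (q : ℕ) (η τ : ℝ) (j : ℤ) (a : Bool) (ω : Ω) :
    Gm F ln p lam μ q η τ (j + p.nT) a ω = Gm F ln p lam μ q η τ j a ω := by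
  unfold Gm
  congr 1
  funext ω'
  exact propext (Gi1_congr q (fun k hk u v => cj_period ω j a (Finset.mem_Icc.1 hk).1 u v) _ _ _ _ _)

/-- the second height system is a shift of the offset -/
theorem ph_sft (ω : Ω) (hT : F.T' ω ≤ p.K + p.M) (j : ℤ) (a : Bool) :
    ph F p ω (j + sft F p ω) a = ph F p ω j a - 2 ^ (-((F.T' ω : ℤ) + p.k₀)) / 3 := by
  unfold ph un sft
  have e : (2 : ℝ) ^ ((p.K : ℤ) + p.M + p.k₀) = 2 ^ (p.K + p.M) * 2 ^ p.k₀ := by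
    rw [zpow_add₀ (by norm_num), ← Nat.cast_add, zpow_natCast]
  have e2 : (2 : ℝ) ^ (-((F.T' ω : ℤ) + p.k₀)) = (2 ^ F.T' ω)⁻¹ * (2 ^ p.k₀)⁻¹ := by
    rw [neg_add, zpow_add₀ (by norm_num), zpow_neg, zpow_neg, zpow_natCast]
  obtain ⟨d, hd⟩ : ∃ d, p.K + p.M = F.T' ω + d := ⟨p.K + p.M - F.T' ω, by omega⟩
  rw [e, e2, hd, Nat.add_sub_cancel_left, pow_add]
  have h1 : (0 : ℝ) < 2 ^ p.k₀ := by positivity
  push_cast
  field_simp
  ring

theorem c4_false (ω : Ω) (j : ℤ) (a : Bool) :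
    c4 p.k₀ (fun a => ph F p ω j a) (F.T' ω) (fun v => - ht (F.P.x ω) v) (a, false) =
      cj F p ω j a := by
  funext k v
  unfold c4 cj
  simp

theorem c4_true (ω : Ω) (hT : F.T' ω ≤ p.K + p.M) (j : ℤ) (a : Bool) :
    c4 p.k₀ (fun a => ph F p ω j a) (F.T' ω) (fun v => - ht (F.P.x ω) v) (a, true) =
      cj F p ω (j + sft F p ω) a := by
  funext k v
  unfold c4 cj
  rw [ph_sft ω hT]
  simp

/-- the weights of the four systems -/
theorem Sc_four (ω : Ω) (hT : F.T' ω ≤ p.K + p.M) (q : ℕ) (η ε : ℝ) (j : ℤ) :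
    Sc (c4 p.k₀ (fun a => ph F p ω j a) (F.T' ω) (fun v => - ht (F.P.x ω) v)) (b4 p.k₀ p.PP)
      (Adm q p.PP) (Finset.Icc p.k₀ (p.k₀ + p.K)) η ε (cnd μ (FV F lam) (FV F lam ω)) ln =
      Psi F ln p lam μ q η ε j ω + Psi F ln p lam μ q η ε (j + sft F p ω) ω := by
  unfold Psi
  rw [Sc_eq, Fintype.sum_prod_type, ← sum_add_distrib]
  refine sum_congr rfl fun a _ => ?_
  rw [Fintype.sum_bool, c4_false, c4_true ω hT, add_comm]
  rfl

/-- the giants of the four systems -/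
theorem NoGia_four (hμ : IsProb μ) {ω : Ω} (hω : 0 < μ ω) (hT : F.T' ω ≤ p.K + p.M) (q : ℕ)
    (η τ : ℝ) (j : ℤ) :
    ms (cnd μ (FV F lam) (FV F lam ω)) (fun ω' => ¬ NoGia q
      (c4 p.k₀ (fun a => ph F p ω j a) (F.T' ω) (fun v => - ht (F.P.x ω) v))
      (Finset.Icc p.k₀ (p.k₀ + p.K)) η τ (cnd μ (FV F lam) (FV F lam ω)) ln (ln ω')) ≤
      ∑ a : Bool, (Gm F ln p lam μ q η τ j a ω + Gm F ln p lam μ q η τ (j + sft F p ω) a ω) := by
  have hp : 0 < Pr μ (FV F lam) (FV F lam ω) := Pr_pos hμ _ hω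
  refine (ms_not_NoGia q _ _ η τ (cnd_isProb hμ hp) ln).trans (le_of_eq ?_)
  rw [Fintype.sum_prod_type]
  refine sum_congr rfl fun a _ => ?_
  rw [Fintype.sum_bool, c4_false, c4_true ω hT, add_comm]
  rfl

/-- the giants of one slope system in the language of the boxes -/
theorem Gi1_box (hμ : IsProb μ) {ω : Ω} (hω : 0 < μ ω) (q : ℕ) (η τ : ℝ) (i : Fin p.nT)
    (a : Bool) (b₀ b₁ : Fin (2 ^ p.PP)) {θ : ℝ} (hθ : θ ≤ Pr μ (FV F lam) (FV F lam ω))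
    (h : Gi1 q (cj F p ω ((i : ℕ) : ℤ) a) (Finset.Icc p.k₀ (p.k₀ + p.K)) η τ
      (cnd μ (FV F lam) (FV F lam ω)) ln ω) :
    ∃ j : Fin (p.K + 1), Big F ln p lam μ θ η ((a, j, b₀, b₁), i) ω ∧
      Gnt F ln p lam μ q τ ((a, j, b₀, b₁), i) ω := by
  have hp : 0 < Pr μ (FV F lam) (FV F lam ω) := Pr_pos hμ _ hω
  obtain ⟨k, hk, h1, h2⟩ := h
  rw [Finset.mem_Icc] at hk
  obtain ⟨j, hj⟩ : ∃ j : ℕ, k = p.k₀ + j := ⟨(k - p.k₀).toNat, by omega⟩
  subst hj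
  have hj2 : j < p.K + 1 := by omega
  refine ⟨⟨j, hj2⟩, ⟨hθ, ?_⟩, ?_⟩
  · rw [Pr_rho hμ _ hω, mul_comm η]
    exact mul_le_mul_of_nonneg_left h1 hp.le
  · unfold Gnt
    rw [Pr_rho hμ _ hω]
    unfold Gia nm at h2
    rw [ms_cnd', div_lt_iff₀ hp] at h2
    have e : ms μ (fun ω' => rho F ln p lam ((a, ⟨j, hj2⟩, b₀, b₁), i) ω' =
        rho F ln p lam ((a, ⟨j, hj2⟩, b₀, b₁), i) ω ∧ |(ln ω').1 - (ln ω).1| ≤
          rad q (Prm.sc (p := p) (a, ⟨j, hj2⟩, b₀, b₁)) / 4) =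
        ms μ (fun ω' => FV F lam ω' = FV F lam ω ∧
          cj F p ω ((i : ℕ) : ℤ) a (p.k₀ + j) (ln ω') = cj F p ω ((i : ℕ) : ℤ) a (p.k₀ + j) (ln ω) ∧
          |(ln ω').1 - (ln ω).1| ≤ rad q (p.k₀ + j) / 4) := by
      refine ms_congr hμ fun ω' _ => ?_
      rw [rho_eq_iff, and_assoc]
      rfl
    rw [e]
    have e2 : τ * cm (fun _ : Unit => cj F p ω ((i : ℕ) : ℤ) a) (cnd μ (FV F lam) (FV F lam ω))
        ln () (p.k₀ + j) ω * Pr μ (FV F lam) (FV F lam ω) =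
        τ * (Pr μ (FV F lam) (FV F lam ω) *
          cm (fun _ : Unit => cj F p ω ((i : ℕ) : ℤ) a) (cnd μ (FV F lam) (FV F lam ω))
        ln () (p.k₀ + j) ω) := by ring
    rw [e2] at h2
    exact h2

end frame

end Vale.Agent.P065.H725
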