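import Vale.Agent.P065.H725.Fine

/-!
# P065: one box (helper725)

A box is an event `B`; its flags have slopes `s` and blocks `b` (finitely many blocks, flags of one
block have slopes at distance at most `r / 4`, flags at distance more than `r / 4` are in admissible
pairs of blocks). The surprise of the near lines is bounded by the weights of the admissible pairs
of heavy blocks, up to the mass of the giants, that is of the flags with a very small near mass.
-/

set_option autoImplicit false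

set_option linter.unusedSectionVars false

namespace Vale.Agent.P065.H725

open Finset Vale.Agent.P065.UB Vale.Agent.P065.Ent

/-- `x (1 + log (M / x))` -/
noncomputable def gw (M x : ℝ) : ℝ := x * (1 + Real.log (M / x))

theorem le_gw {M x : ℝ} (hx : 0 ≤ x) (hxM : x ≤ M) : x ≤ gw M x := by
  unfold gw
  rcases hx.eq_or_lt with h | h
  · rw [← h]; simp
  · have h1 : 0 ≤ Real.log (M / x) := Real.log_nonneg (by rw [le_div_iff₀ h]; linarith)
    nlinarith

theorem gw_nonneg {M x : ℝ} (hx : 0 ≤ x) (hxM : x ≤ M) : 0 ≤ gw M x := hx.trans (le_gw hx hxM)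

theorem mul_log_le_gw {M x : ℝ} (hx : 0 ≤ x) : x * Real.log (M / x) ≤ gw M x := by
  unfold gw
  nlinarith

theorem gw_mono {M x y : ℝ} (hx : 0 < x) (hxy : x ≤ y) (hy : y ≤ M) : gw M x ≤ gw M y := by
  have hy0 : 0 < y := hx.trans_le hxy
  have hM : 0 < M := hy0.trans_le hy
  unfold gw
  have h1 : 0 ≤ Real.log (M / y) := Real.log_nonneg (by rw [le_div_iff₀ hy0]; linarith)
  have h2 : Real.log (M / x) = Real.log (M / y) + Real.log (y / x) := by
    rw [← Real.log_mul (by positivity) (by positivity)]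
    congr 1
    field_simp
  have h3 : Real.log (y / x) ≤ y / x - 1 := Real.log_le_sub_one_of_pos (by positivity)
  have h4 : x * Real.log (y / x) ≤ y - x := by
    have := mul_le_mul_of_nonneg_left h3 hx.le
    calc x * Real.log (y / x) ≤ x * (y / x - 1) := this
      _ = y - x := by field_simp
  rw [h2]
  nlinarith

section box

variable {Ω β : Type*} [Fintype Ω] [Fintype β] {ν : Ω → ℝ}

/-- the mass of a block of the box -/
noncomputable def bm (ν : Ω → ℝ) (B : Ω → Prop) (b : Ω → β) (c : β) : ℝ :=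
  ms ν (fun ω => B ω ∧ b ω = c)

theorem bm_nonneg (hν : IsProb ν) (B : Ω → Prop) (b : Ω → β) (c : β) : 0 ≤ bm ν B b c :=
  ms_nonneg hν _

theorem bm_le (hν : IsProb ν) (B : Ω → Prop) (b : Ω → β) (c : β) : bm ν B b c ≤ ms ν B :=
  ms_mono hν fun _ _ h => h.1

theorem min_bm_nonneg (hν : IsProb ν) (B : Ω → Prop) (b : Ω → β) (c c' : β) :
    0 ≤ min (bm ν B b c) (bm ν B b c') := le_min (bm_nonneg hν _ _ _) (bm_nonneg hν _ _ _)

theorem min_bm_le (hν : IsProb ν) (B : Ω → Prop) (b : Ω → β) (c c' : β) :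
    min (bm ν B b c) (bm ν B b c') ≤ ms ν B := (min_le_left _ _).trans (bm_le hν _ _ _)

/-- partition into blocks -/
theorem ms_blocks (ν : Ω → ℝ) (b : Ω → β) (Q : Ω → Prop) :
    ms ν Q = ∑ c, ms ν (fun ω => Q ω ∧ b ω = c) := by
  classical
  unfold ms
  rw [sum_comm]
  refine sum_congr rfl fun ω _ => ?_
  by_cases hQ : Q ω
  · simp [hQ]
  · simp [hQ]

/-- an event of the box has a flag in a heavy block -/
theorem pick (hν : IsProb ν) (B : Ω → Prop) (b : Ω → β) (Q : Ω → Prop)
    (h : 0 < ms ν (fun ω => B ω ∧ Q ω)) : ∃ ω, 0 < ν ω ∧ B ω ∧ Q ω ∧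
      ms ν (fun ω => B ω ∧ Q ω) ≤ Fintype.card β * bm ν B b (b ω) := by
  classical
  set F := ms ν (fun ω => B ω ∧ Q ω) with hF
  have h1 := ms_blocks ν b (fun ω => B ω ∧ Q ω)
  rw [← hF] at h1
  have hne : Nonempty β := by
    obtain ⟨ω, -, -⟩ := ms_pos_iff h
    exact ⟨b ω⟩
  have h2 : ∃ c ∈ (univ : Finset β), F / Fintype.card β ≤ ms ν (fun ω => (B ω ∧ Q ω) ∧ b ω = c) := by
    by_contra hc
    push Not at hc
    have h3 := sum_lt_sum_of_nonempty (univ_nonempty (α := β)) hc
    rw [← h1, sum_const, card_univ, nsmul_eq_mul] at h3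
    have h4 : (Fintype.card β : ℝ) ≠ 0 := by
      exact_mod_cast Fintype.card_ne_zero
    rw [mul_div_cancel₀ _ h4] at h3
    exact lt_irrefl _ h3
  obtain ⟨c, -, hc⟩ := h2
  have hN : (0 : ℝ) < Fintype.card β := by exact_mod_cast Fintype.card_pos
  have h5 : 0 < ms ν (fun ω => (B ω ∧ Q ω) ∧ b ω = c) := (by positivity : 0 < F / Fintype.card β).trans_le hc
  obtain ⟨ω, hω, ⟨hB, hQ⟩, hb⟩ := ms_pos_iff h5
  refine ⟨ω, hω, hB, hQ, ?_⟩
  rw [div_le_iff₀ hN] at hc
  have h6 : ms ν (fun ω => (B ω ∧ Q ω) ∧ b ω = c) ≤ bm ν B b (b ω) := by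
    unfold bm
    rw [hb]
    exact ms_mono hν fun _ _ h => ⟨h.1.1, h.2⟩
  nlinarith

open Classical in
/-- the weights of the admissible pairs of heavy blocks -/
noncomputable def bS (ν : Ω → ℝ) (B : Ω → Prop) (b : Ω → β) (adm : β → β → Prop) (ε : ℝ) : ℝ :=
  ∑ c, ∑ c', if adm c c' ∧ ε * ms ν B ≤ min (bm ν B b c) (bm ν B b c') then
    gw (ms ν B) (min (bm ν B b c) (bm ν B b c')) else 0

theorem bS_nonneg (hν : IsProb ν) (B : Ω → Prop) (b : Ω → β) (adm : β → β → Prop) (ε : ℝ) :
    0 ≤ bS ν B b adm ε := by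
  classical
  unfold bS
  refine sum_nonneg fun c _ => sum_nonneg fun c' _ => ?_
  split_ifs
  · exact gw_nonneg (min_bm_nonneg hν B b c c') (min_bm_le hν B b c c')
  · exact le_rfl

theorem gw_le_bS (hν : IsProb ν) (B : Ω → Prop) (b : Ω → β) (adm : β → β → Prop) (ε : ℝ)
    {c c' : β} (h : adm c c') {x : ℝ} (hx : 0 < x) (h1 : ε * ms ν B ≤ x) (h2 : x ≤ bm ν B b c)
    (h3 : x ≤ bm ν B b c') : gw (ms ν B) x ≤ bS ν B b adm ε := by
  classical
  have hterm : ∀ c c', 0 ≤ (if adm c c' ∧ ε * ms ν B ≤ min (bm ν B b c) (bm ν B b c') then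
      gw (ms ν B) (min (bm ν B b c) (bm ν B b c')) else 0) := by
    intro c c'
    split_ifs
    · exact gw_nonneg (min_bm_nonneg hν B b c c') (min_bm_le hν B b c c')
    · exact le_rfl
  unfold bS
  calc gw (ms ν B) x ≤ gw (ms ν B) (min (bm ν B b c) (bm ν B b c')) :=
        gw_mono hx (le_min h2 h3) (min_bm_le hν B b c c')
    _ = (if adm c c' ∧ ε * ms ν B ≤ min (bm ν B b c) (bm ν B b c') then
          gw (ms ν B) (min (bm ν B b c) (bm ν B b c')) else 0) := by
        rw [if_pos ⟨h, h1.trans (le_min h2 h3)⟩]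
    _ ≤ ∑ c', (if adm c c' ∧ ε * ms ν B ≤ min (bm ν B b c) (bm ν B b c') then
          gw (ms ν B) (min (bm ν B b c) (bm ν B b c')) else 0) :=
        single_le_sum (fun c' _ => hterm c c') (mem_univ c')
    _ ≤ _ := single_le_sum (f := fun c => ∑ c', (if adm c c' ∧ ε * ms ν B ≤
          min (bm ν B b c) (bm ν B b c') then
          gw (ms ν B) (min (bm ν B b c) (bm ν B b c')) else 0))
        (fun c _ => sum_nonneg fun c' _ => hterm c c') (mem_univ c)

variable {B : Ω → Prop} {s : Ω → ℝ} {b : Ω → β} {r τ ε : ℝ} {adm : β → β → Prop}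

/-- the mass of the flags of the box near the flag -/
noncomputable def nm (ν : Ω → ℝ) (B : Ω → Prop) (s : Ω → ℝ) (r : ℝ) (ω : Ω) : ℝ :=
  ms ν (fun ω' => B ω' ∧ |s ω' - s ω| ≤ r)

/-- a flag which is not a giant and a far flag: an admissible pair of heavy blocks -/
theorem far_pair (hν : IsProb ν) (hτ0 : 0 < τ) (hM : 0 < ms ν B)
    (hadm : ∀ ω ω', B ω → B ω' → r / 4 < |s ω' - s ω| → adm (b ω) (b ω'))
    {ω : Ω} (hgi : τ * ms ν B ≤ nm ν B s (r / 4) ω) {ω' : Ω} (hω' : B ω')
    (hfar : r / 2 < |s ω' - s ω|) {y : ℝ}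
    (hy : y ≤ bm ν B b (b ω')) (hyτ : y ≤ τ * ms ν B / Fintype.card β) (hy0 : 0 < y)
    (hyε : ε * ms ν B ≤ y) :
    gw (ms ν B) y ≤ bS ν B b adm ε := by
  obtain ⟨ω'', h1, h2, h3, h4⟩ := pick hν B b (fun ω' => |s ω' - s ω| ≤ r / 4)
    ((mul_pos hτ0 hM).trans_le hgi)
  have hN : (0 : ℝ) < Fintype.card β := by
    have : Nonempty β := ⟨b ω⟩
    exact_mod_cast Fintype.card_pos
  have h5 : τ * ms ν B / Fintype.card β ≤ bm ν B b (b ω'') := by
    rw [div_le_iff₀ hN]
    have := hgi.trans h4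
    linarith
  have h6 : r / 4 < |s ω' - s ω''| := by
    have := abs_sub_le (s ω') (s ω'') (s ω)
    linarith
  exact gw_le_bS hν B b adm ε (hadm ω'' ω' h2 hω' h6) hy0 hyε (hyτ.trans h5) hy

/-- near mass and far mass -/
theorem nm_add (hν : IsProb ν) (B : Ω → Prop) (s : Ω → ℝ) (r : ℝ) (ω : Ω) :
    nm ν B s r ω + ms ν (fun ω' => B ω' ∧ r < |s ω' - s ω|) = ms ν B := by
  unfold nm
  rw [ms_split ν B (fun ω' => |s ω' - s ω| ≤ r)]
  congr 1
  exact ms_congr hν fun ω' _ => by simp only [not_le]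

theorem bm_le_nm (hν : IsProb ν) (hr : 0 ≤ r)
    (hdiam : ∀ ω ω', B ω → B ω' → b ω = b ω' → |s ω' - s ω| ≤ r / 4) {ω : Ω} (hω : B ω) :
    bm ν B b (b ω) ≤ nm ν B s r ω := by
  refine ms_mono hν fun ω' _ h => ⟨h.1, ?_⟩
  have := hdiam ω ω' hω h.1 h.2.symm
  linarith

open Classical in
/-- **part A**: flags whose near lines have at most one half of the mass -/
theorem box_A (hν : IsProb ν) (hr : 0 ≤ r) (hτ0 : 0 < τ) (hτ : τ ≤ 1 / 2) (hM : 0 < ms ν B)
    (hε : 4 * (Fintype.card β : ℝ) ^ 2 * ε ≤ τ) (hε0 : 0 < ε)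
    (hdiam : ∀ ω ω', B ω → B ω' → b ω = b ω' → |s ω' - s ω| ≤ r / 4)
    (hadm : ∀ ω ω', B ω → B ω' → r / 4 < |s ω' - s ω| → adm (b ω) (b ω'))
    (G : Ω → Prop) (hGB : ∀ ω, G ω → B ω)
    (hG : ∀ ω, G ω → 0 < ν ω → τ * ms ν B ≤ nm ν B s (r / 4) ω)
    (hhalf : ∀ ω, G ω → nm ν B s r ω < ms ν B / 2) :
    ms (fun ω => ν ω * (- Real.log (nm ν B s r ω / ms ν B))) G ≤
      (4 * (Fintype.card β : ℝ) ^ 3 + 1) * bS ν B b adm ε := by
  rw [ms_eq (fun ω => ν ω * (- Real.log (nm ν B s r ω / ms ν B))) G]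
  set M := ms ν B with hMd
  set N : ℝ := ((Fintype.card β : ℕ) : ℝ) with hNd
  set S := bS ν B b adm ε with hSd
  have hS0 : 0 ≤ S := bS_nonneg hν B b adm ε
  by_cases hex : ∃ ω, G ω ∧ 0 < ν ω
  swap
  · push Not at hex
    have h1 : ∑ ω, (if G ω then ν ω * (- Real.log (nm ν B s r ω / M)) else 0) = 0 := by
      refine sum_eq_zero fun ω _ => ?_
      split_ifs with h
      · rw [le_antisymm (hex ω h) (hν.nonneg ω), zero_mul]
      · rfl
    rw [h1]
    positivity
  have hNe : Nonempty β := ⟨b hex.choose⟩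
  have hN1 : (1 : ℝ) ≤ N := Nat.one_le_cast.2 Fintype.card_pos
  have hN0 : 0 < N := by linarith
  have hN2 : (1 : ℝ) ≤ N ^ 2 := one_le_pow₀ hN1
  -- a far heavy block
  have hfar : ∀ ω, G ω → 0 < ν ω → ∃ ω', 0 < ν ω' ∧ B ω' ∧ r < |s ω' - s ω| ∧
      M / (2 * N) ≤ bm ν B b (b ω') := by
    intro ω hω hν0
    have h1 := nm_add hν B s r ω
    have h2 := hhalf ω hω
    have h3 : M / 2 < ms ν (fun ω' => B ω' ∧ r < |s ω' - s ω|) := by linarith
    obtain ⟨ω', h4, h5, h6, h7⟩ := pick hν B b (fun ω' => r < |s ω' - s ω|)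
      (lt_trans (by positivity) h3)
    refine ⟨ω', h4, h5, h6, ?_⟩
    rw [div_le_iff₀ (by positivity)]
    linarith
  -- the lower bound for `S`
  have hSy : gw M (τ * M / N) ≤ S := by
    obtain ⟨ω, hω, hν0⟩ := hex
    obtain ⟨ω', h1, h2, h3, h4⟩ := hfar ω hω hν0
    refine far_pair hν hτ0 hM hadm (hG ω hω hν0) h2 (by linarith) (le_trans ?_ h4) le_rfl
      (by positivity) ?_
    · rw [div_le_div_iff₀ hN0 (by positivity)]
      nlinarith [mul_pos hM hN0]
    · rw [le_div_iff₀ hN0]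
      have h5 : ε * N ≤ τ := by nlinarith [mul_pos hε0 hN0]
      nlinarith
  have hSlog : τ * M / N * Real.log (1 / τ) ≤ S := by
    refine le_trans ?_ ((mul_log_le_gw (by positivity)).trans hSy)
    refine mul_le_mul_of_nonneg_left (Real.log_le_log (by positivity) ?_) (by positivity)
    rw [div_le_div_iff₀ hτ0 (by positivity)]
    have : τ * M / N ≤ τ * M := div_le_self (by positivity) hN1
    linarith
  -- block by block
  have hblock : ∀ c : β, ∑ ω, (if G ω ∧ b ω = c then
      ν ω * (- Real.log (nm ν B s r ω / M)) else 0) ≤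
      4 * N ^ 2 * S + ε * M * Real.log (1 / τ) := by
    intro c
    have hlogτ : 0 ≤ Real.log (1 / τ) :=
      Real.log_nonneg (by rw [le_div_iff₀ hτ0]; linarith)
    by_cases hexc : ∃ ω, (G ω ∧ b ω = c) ∧ 0 < ν ω
    swap
    · push Not at hexc
      have h1 : ∑ ω, (if G ω ∧ b ω = c then ν ω * (- Real.log (nm ν B s r ω / M)) else 0) = 0 := by
        refine sum_eq_zero fun ω _ => ?_
        split_ifs with h
        · rw [le_antisymm (hexc ω h) (hν.nonneg ω), zero_mul]
        · rfl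
      rw [h1]
      positivity
    obtain ⟨ω₀, ⟨hω₀, hb₀⟩, hν₀⟩ := hexc
    have hMc0 : 0 < bm ν B b c := ms_pos hν hν₀ ⟨hGB _ hω₀, hb₀⟩
    -- comparison of the sum with a multiple of the mass of the block
    have hcmp : ∀ x : ℝ, 0 ≤ x → (∀ ω, G ω → b ω = c → 0 < ν ω →
        - Real.log (nm ν B s r ω / M) ≤ x) →
        ∑ ω, (if G ω ∧ b ω = c then ν ω * (- Real.log (nm ν B s r ω / M)) else 0) ≤
        bm ν B b c * x := by
      intro x hx0 hx
      unfold bm
      rw [ms_eq, sum_mul]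
      refine sum_le_sum fun ω _ => ?_
      rcases (hν.nonneg ω).eq_or_lt with h0 | h0
      · rw [← h0]; simp
      · by_cases h : G ω ∧ b ω = c
        · rw [if_pos h, if_pos ⟨hGB _ h.1, h.2⟩]
          exact mul_le_mul_of_nonneg_left (hx ω h.1 h.2 h0) h0.le
        · rw [if_neg h]
          split_ifs
          · positivity
          · simp
    by_cases hheavy : ε * M ≤ bm ν B b c
    · -- heavy block
      have hMcM : bm ν B b c ≤ M := bm_le hν B b c
      have h1 := hcmp (Real.log (M / bm ν B b c))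
        (Real.log_nonneg (by rw [le_div_iff₀ hMc0]; linarith)) (by
        intro ω hω hb hν0
        have h2 := bm_le_nm hν hr hdiam (hGB _ hω)
        rw [hb] at h2
        have h3 : 0 < nm ν B s r ω := hMc0.trans_le h2
        rw [← Real.log_inv, inv_div]
        refine Real.log_le_log (by positivity) ?_
        exact div_le_div_of_nonneg_left hM.le hMc0 h2)
      obtain ⟨ω', h2, h3, h4, h5⟩ := hfar ω₀ hω₀ hν₀
      have hadm' : adm c (b ω') := by
        rw [← hb₀]
        exact hadm ω₀ ω' (hGB _ hω₀) h3 (by linarith)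
      rcases le_total (bm ν B b c) (bm ν B b (b ω')) with h6 | h6
      · have h7 := gw_le_bS hν B b adm ε hadm' hMc0 hheavy le_rfl h6
        have h8 := mul_log_le_gw (M := M) hMc0.le
        have h9 : S ≤ 4 * N ^ 2 * S := by nlinarith
        have h10 : 0 ≤ ε * M * Real.log (1 / τ) := by positivity
        linarith
      · have h7 := gw_le_bS hν B b adm ε (x := M / (2 * N)) hadm' (by positivity) (by
            rw [le_div_iff₀ (by positivity)]
            have : ε * (2 * N) ≤ 1 := by nlinarith [mul_pos hε0 hN0]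
            nlinarith) (h5.trans h6) h5
        have h8 : M / (2 * N) ≤ S := (le_gw (by positivity) (by
          rw [div_le_iff₀ (by positivity)]
          nlinarith)).trans h7
        have h9 : Real.log (M / bm ν B b c) ≤ 2 * N := by
          have h10 : M / bm ν B b c ≤ 2 * N := by
            rw [div_le_iff₀ hMc0]
            have := h5.trans h6
            rw [div_le_iff₀ (by positivity)] at this
            linarith
          have h11 := Real.log_le_sub_one_of_pos (x := M / bm ν B b c) (by positivity)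
          linarith
        have h10 : bm ν B b c * Real.log (M / bm ν B b c) ≤ M * (2 * N) := by
          calc bm ν B b c * Real.log (M / bm ν B b c) ≤ bm ν B b c * (2 * N) :=
                mul_le_mul_of_nonneg_left h9 hMc0.le
            _ ≤ M * (2 * N) := mul_le_mul_of_nonneg_right hMcM (by positivity)
        have h11 : M * (2 * N) ≤ 4 * N ^ 2 * S := by
          rw [div_le_iff₀ (by positivity)] at h8
          nlinarith
        have h12 : 0 ≤ ε * M * Real.log (1 / τ) := by positivity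
        linarith
    · -- light block
      push Not at hheavy
      have h1 := hcmp (Real.log (1 / τ)) hlogτ (by
        intro ω hω hb hν0
        have h2 : nm ν B s (r / 4) ω ≤ nm ν B s r ω :=
          ms_mono hν fun ω' _ h => ⟨h.1, by linarith [h.2]⟩
        have h3 : τ * M ≤ nm ν B s r ω := (hG ω hω hν0).trans h2
        have h4 : 0 < nm ν B s r ω := (mul_pos hτ0 hM).trans_le h3
        rw [← Real.log_inv, inv_div]
        refine Real.log_le_log (by positivity) ?_
        rw [div_le_div_iff₀ h4 hτ0]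
        linarith)
      have h2 : bm ν B b c * Real.log (1 / τ) ≤ ε * M * Real.log (1 / τ) :=
        mul_le_mul_of_nonneg_right hheavy.le hlogτ
      have h3 : 0 ≤ 4 * N ^ 2 * S := by positivity
      linarith
  -- summation over the blocks
  have hsum : ∑ ω, (if G ω then ν ω * (- Real.log (nm ν B s r ω / M)) else 0) =
      ∑ c, ∑ ω, (if G ω ∧ b ω = c then ν ω * (- Real.log (nm ν B s r ω / M)) else 0) := by
    rw [sum_comm]
    refine sum_congr rfl fun ω _ => ?_
    by_cases h : G ω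
    · simp [h]
    · simp [h]
  rw [hsum]
  refine (sum_le_sum fun c _ => hblock c).trans ?_
  rw [sum_const, card_univ, nsmul_eq_mul, ← hNd]
  have h1 : N * (ε * M * Real.log (1 / τ)) ≤ S := by
    refine le_trans ?_ hSlog
    have hlogτ : 0 ≤ Real.log (1 / τ) :=
      Real.log_nonneg (by rw [le_div_iff₀ hτ0]; linarith)
    have h2 : N * ε * M ≤ τ * M / N := by
      rw [le_div_iff₀ hN0]
      nlinarith [mul_pos hε0 hN0, mul_pos (mul_pos hε0 hN0) hN0]
    calc N * (ε * M * Real.log (1 / τ)) = N * ε * M * Real.log (1 / τ) := by ring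
      _ ≤ τ * M / N * Real.log (1 / τ) := mul_le_mul_of_nonneg_right h2 hlogτ
  nlinarith

theorem ms_mul (ν : Ω → ℝ) (Q Q' : Ω → Prop) [∀ ω ω', Decidable (Q ω ∧ Q' ω')] :
    ∑ ω, ∑ ω', (if Q ω ∧ Q' ω' then ν ω * ν ω' else 0) = ms ν Q * ms ν Q' := by
  classical
  unfold ms
  rw [sum_mul_sum]
  refine sum_congr rfl fun ω _ => sum_congr rfl fun ω' _ => ?_
  by_cases h1 : Q ω <;> by_cases h2 : Q' ω' <;> simp [h1, h2]

/-- the light blocks have small mass -/
theorem light_mass (hν : IsProb ν) (B : Ω → Prop) (b : Ω → β) (x : ℝ) (hx : 0 ≤ x) :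
    ms ν (fun ω => B ω ∧ bm ν B b (b ω) < x) ≤ Fintype.card β * x := by
  classical
  rw [ms_blocks ν b]
  calc ∑ c, ms ν (fun ω => (B ω ∧ bm ν B b (b ω) < x) ∧ b ω = c) ≤ ∑ _c : β, x := by
        refine sum_le_sum fun c _ => ?_
        by_cases hc : bm ν B b c < x
        · refine le_trans ?_ hc.le
          exact ms_mono hν fun ω _ h => ⟨h.1.1, h.2⟩
        · have h0 : ms ν (fun ω => (B ω ∧ bm ν B b (b ω) < x) ∧ b ω = c) = 0 := by
            unfold ms
            refine sum_eq_zero fun ω _ => ?_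
            rw [if_neg]
            rintro ⟨⟨-, h1⟩, h2⟩
            rw [h2] at h1
            exact hc h1
          rw [h0]
          exact hx
    _ = Fintype.card β * x := by rw [sum_const, card_univ, nsmul_eq_mul]

open Classical in
/-- **part B**: flags whose near lines have at least one half of the mass -/
theorem box_B (hν : IsProb ν) (hr : 0 ≤ r) (hτ0 : 0 < τ) (hM : 0 < ms ν B)
    (hε : 4 * (Fintype.card β : ℝ) ^ 2 * ε ≤ τ) (hε0 : 0 < ε)
    (hadm : ∀ ω ω', B ω → B ω' → r / 4 < |s ω' - s ω| → adm (b ω) (b ω'))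
    (G : Ω → Prop) (hGB : ∀ ω, G ω → B ω)
    (hG : ∀ ω, G ω → 0 < ν ω → τ * ms ν B ≤ nm ν B s (r / 4) ω)
    (hhalf : ∀ ω, G ω → ms ν B / 2 ≤ nm ν B s r ω) :
    ms (fun ω => ν ω * (- Real.log (nm ν B s r ω / ms ν B))) G ≤
      3 * bS ν B b adm ε + 2 * ms ν (fun ω => B ω ∧ nm ν B s (r / 4) ω < τ * ms ν B) := by
  rw [ms_eq (fun ω => ν ω * (- Real.log (nm ν B s r ω / ms ν B))) G]
  set M := ms ν B with hMd
  set N : ℝ := ((Fintype.card β : ℕ) : ℝ) with hNd
  set S := bS ν B b adm ε with hSd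
  set gi := ms ν (fun ω => B ω ∧ nm ν B s (r / 4) ω < τ * M) with hgi
  have hgi0 : 0 ≤ gi := ms_nonneg hν _
  have hS0 : 0 ≤ S := bS_nonneg hν B b adm ε
  have hNe : Nonempty β := by
    obtain ⟨ω, -, -⟩ := ms_pos_iff hM
    exact ⟨b ω⟩
  have hN1 : (1 : ℝ) ≤ N := Nat.one_le_cast.2 Fintype.card_pos
  have hN0 : 0 < N := by linarith
  -- first step: linearise
  have step1 : ∑ ω, (if G ω then ν ω * (- Real.log (nm ν B s r ω / M)) else 0) ≤
      2 / M * ∑ ω, ∑ ω', (if G ω ∧ B ω' ∧ r < |s ω' - s ω| then ν ω * ν ω' else 0) := by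
    rw [mul_sum]
    refine sum_le_sum fun ω _ => ?_
    by_cases h : G ω
    · rw [if_pos h]
      have e1 : ∑ ω', (if G ω ∧ B ω' ∧ r < |s ω' - s ω| then ν ω * ν ω' else 0) =
          ν ω * ms ν (fun ω' => B ω' ∧ r < |s ω' - s ω|) := by
        unfold ms
        rw [mul_sum]
        refine sum_congr rfl fun ω' _ => ?_
        by_cases h2 : B ω' ∧ r < |s ω' - s ω|
        · rw [if_pos ⟨h, h2⟩, if_pos h2]
        · rw [if_neg (fun h3 => h2 h3.2), if_neg h2, mul_zero]
      rw [e1]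
      have h1 := nm_add hν B s r ω
      have h2 := hhalf ω h
      set x := nm ν B s r ω with hx
      have hx0 : 0 < x := by linarith
      have h3 : - Real.log (x / M) ≤ 2 / M * (M - x) := by
        rw [← Real.log_inv, inv_div]
        have h4 := Real.log_le_sub_one_of_pos (x := M / x) (by positivity)
        refine h4.trans ?_
        have h5 : x ≤ M := by
          have := ms_nonneg hν (fun ω' => B ω' ∧ r < |s ω' - s ω|)
          linarith
        have h6 : M / x - 1 = (M - x) / x := by field_simp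
        rw [h6, div_mul_eq_mul_div, div_le_div_iff₀ hx0 hM]
        nlinarith
      have h7 : ms ν (fun ω' => B ω' ∧ r < |s ω' - s ω|) = M - x := by linarith
      rw [h7]
      calc ν ω * (- Real.log (x / M)) ≤ ν ω * (2 / M * (M - x)) :=
            mul_le_mul_of_nonneg_left h3 (hν.nonneg ω)
        _ = 2 / M * (ν ω * (M - x)) := by ring
    · rw [if_neg h]
      have : ∑ ω', (if G ω ∧ B ω' ∧ r < |s ω' - s ω| then ν ω * ν ω' else 0) = 0 := by
        refine sum_eq_zero fun ω' _ => ?_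
        rw [if_neg fun h2 => h h2.1]
      rw [this, mul_zero]
  -- the four parts
  have hP : ∀ ω ω', 0 ≤ ν ω * ν ω' := fun ω ω' => mul_nonneg (hν.nonneg _) (hν.nonneg _)
  have step2 : ∑ ω, ∑ ω', (if G ω ∧ B ω' ∧ r < |s ω' - s ω| then ν ω * ν ω' else 0) ≤
      M * gi + M * S + M * (S / 2) := by
    by_cases hex : ∃ ω ω', 0 < ν ω ∧ 0 < ν ω' ∧ G ω ∧ B ω' ∧ r < |s ω' - s ω| ∧
        τ * M ≤ nm ν B s (r / 4) ω'
    swap
    · push Not at hex
      have h1 : ∑ ω, ∑ ω', (if G ω ∧ B ω' ∧ r < |s ω' - s ω| then ν ω * ν ω' else 0) ≤ M * gi := by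
        rw [hMd, hgi, ← ms_mul]
        refine sum_le_sum fun ω _ => sum_le_sum fun ω' _ => ?_
        by_cases h : G ω ∧ B ω' ∧ r < |s ω' - s ω|
        · rw [if_pos h]
          rcases (hν.nonneg ω).eq_or_lt with h0 | h0
          · rw [← h0]; simp
          rcases (hν.nonneg ω').eq_or_lt with h0' | h0'
          · rw [← h0']; simp
          rw [if_pos ⟨hGB _ h.1, h.2.1, hex ω ω' h0 h0' h.1 h.2.1 h.2.2⟩]
        · rw [if_neg h]
          split_ifs
          · exact hP _ _
          · exact le_rfl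
      have h2 : 0 ≤ M * S := by positivity
      nlinarith
    -- lower bound for `S`
    have hS : τ * M / N ≤ S := by
      obtain ⟨ω, ω', hν0, hν0', h1, h2, h3, h4⟩ := hex
      obtain ⟨ω₃, h5, h6, h7, h8⟩ := pick hν B b (fun ω'' => |s ω'' - s ω'| ≤ r / 4)
        ((mul_pos hτ0 hM).trans_le h4)
      have h9 : r / 2 < |s ω₃ - s ω| := by
        have := abs_sub_le (s ω') (s ω₃) (s ω)
        rw [abs_sub_comm (s ω') (s ω₃)] at this
        linarith
      have h10 : τ * M / N ≤ bm ν B b (b ω₃) := by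
        rw [div_le_iff₀ hN0]
        have := h4.trans h8
        linarith
      refine (le_gw (by positivity) ?_).trans (far_pair hν hτ0 hM hadm (hG ω h1 hν0) h6 h9
        (y := τ * M / N) h10 le_rfl (by positivity) ?_)
      · exact h10.trans (bm_le hν B b _)
      · rw [le_div_iff₀ hN0]
        have h5 : ε * N ≤ τ := by nlinarith [mul_pos hε0 hN0]
        nlinarith
    -- the pointwise bound
    have hpt : ∀ ω ω', (if G ω ∧ B ω' ∧ r < |s ω' - s ω| then ν ω * ν ω' else 0) ≤
        (∑ c, ∑ c', (if (adm c c' ∧ ε * M ≤ min (bm ν B b c) (bm ν B b c')) then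
          (if (B ω ∧ b ω = c) ∧ (B ω' ∧ b ω' = c') then ν ω * ν ω' else 0) else 0)) +
        (if (B ω ∧ bm ν B b (b ω) < ε * M) ∧ B ω' then ν ω * ν ω' else 0) +
        (if B ω ∧ (B ω' ∧ bm ν B b (b ω') < ε * M) then ν ω * ν ω' else 0) := by
      intro ω ω'
      have t1 : ∀ c c', 0 ≤ (if (adm c c' ∧ ε * M ≤ min (bm ν B b c) (bm ν B b c')) then
          (if (B ω ∧ b ω = c) ∧ (B ω' ∧ b ω' = c') then ν ω * ν ω' else 0) else 0) := by
        intro c c'
        split_ifs
        · exact hP _ _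
        · exact le_rfl
        · exact le_rfl
      have t1s : 0 ≤ ∑ c, ∑ c', (if (adm c c' ∧ ε * M ≤ min (bm ν B b c) (bm ν B b c')) then
          (if (B ω ∧ b ω = c) ∧ (B ω' ∧ b ω' = c') then ν ω * ν ω' else 0) else 0) :=
        sum_nonneg fun c _ => sum_nonneg fun c' _ => t1 c c'
      have t2 : 0 ≤ (if (B ω ∧ bm ν B b (b ω) < ε * M) ∧ B ω' then ν ω * ν ω' else 0) := by
        split_ifs
        · exact hP _ _
        · exact le_rfl
      have t3 : 0 ≤ (if B ω ∧ (B ω' ∧ bm ν B b (b ω') < ε * M) then ν ω * ν ω' else 0) := by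
        split_ifs
        · exact hP _ _
        · exact le_rfl
      by_cases h : G ω ∧ B ω' ∧ r < |s ω' - s ω|
      swap
      · rw [if_neg h]
        linarith
      rw [if_pos h]
      have hBω := hGB _ h.1
      by_cases h1 : bm ν B b (b ω) < ε * M
      · rw [if_pos ⟨⟨hBω, h1⟩, h.2.1⟩]
        linarith
      by_cases h2 : bm ν B b (b ω') < ε * M
      · rw [if_pos (show B ω ∧ (B ω' ∧ bm ν B b (b ω') < ε * M) from ⟨hBω, h.2.1, h2⟩)]
        linarith
      push Not at h1 h2
      have h3 : adm (b ω) (b ω') := hadm ω ω' hBω h.2.1 (by linarith [h.2.2])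
      have h4 : ν ω * ν ω' ≤ ∑ c, ∑ c', (if (adm c c' ∧ ε * M ≤
          min (bm ν B b c) (bm ν B b c')) then
          (if (B ω ∧ b ω = c) ∧ (B ω' ∧ b ω' = c') then ν ω * ν ω' else 0) else 0) := by
        calc ν ω * ν ω' = (if (adm (b ω) (b ω') ∧ ε * M ≤
              min (bm ν B b (b ω)) (bm ν B b (b ω'))) then
              (if (B ω ∧ b ω = b ω) ∧ (B ω' ∧ b ω' = b ω') then ν ω * ν ω' else 0) else 0) := by
              rw [if_pos ⟨h3, le_min h1 h2⟩, if_pos ⟨⟨hBω, rfl⟩, h.2.1, rfl⟩]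
          _ ≤ ∑ c', (if (adm (b ω) c' ∧ ε * M ≤
              min (bm ν B b (b ω)) (bm ν B b c')) then
              (if (B ω ∧ b ω = b ω) ∧ (B ω' ∧ b ω' = c') then ν ω * ν ω' else 0) else 0) :=
              single_le_sum (f := fun c' => (if (adm (b ω) c' ∧ ε * M ≤
                min (bm ν B b (b ω)) (bm ν B b c')) then
                (if (B ω ∧ b ω = b ω) ∧ (B ω' ∧ b ω' = c') then ν ω * ν ω' else 0) else 0))
                (fun c' _ => t1 (b ω) c') (mem_univ (b ω'))
          _ ≤ _ := single_le_sum (f := fun c => ∑ c', (if (adm c c' ∧ ε * M ≤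
                min (bm ν B b c) (bm ν B b c')) then
                (if (B ω ∧ b ω = c) ∧ (B ω' ∧ b ω' = c') then ν ω * ν ω' else 0) else 0))
                (fun c _ => sum_nonneg fun c' _ => t1 c c') (mem_univ (b ω))
      linarith
    refine (sum_le_sum fun ω _ => sum_le_sum fun ω' _ => hpt ω ω').trans ?_
    simp only [sum_add_distrib]
    -- the heavy pairs
    have hx2 : ∑ ω, ∑ ω', ∑ c, ∑ c', (if (adm c c' ∧ ε * M ≤ min (bm ν B b c) (bm ν B b c')) then
        (if (B ω ∧ b ω = c) ∧ (B ω' ∧ b ω' = c') then ν ω * ν ω' else 0) else 0) ≤ M * S := by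
      have e1 : ∑ ω, ∑ ω', ∑ c, ∑ c', (if (adm c c' ∧ ε * M ≤
          min (bm ν B b c) (bm ν B b c')) then
          (if (B ω ∧ b ω = c) ∧ (B ω' ∧ b ω' = c') then ν ω * ν ω' else 0) else 0) =
          ∑ c, ∑ c', (if (adm c c' ∧ ε * M ≤ min (bm ν B b c) (bm ν B b c')) then
            bm ν B b c * bm ν B b c' else 0) := by
        calc _ = ∑ ω, ∑ c, ∑ ω', ∑ c', (if (adm c c' ∧ ε * M ≤
              min (bm ν B b c) (bm ν B b c')) then
              (if (B ω ∧ b ω = c) ∧ (B ω' ∧ b ω' = c') then ν ω * ν ω' else 0) else 0) :=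
              sum_congr rfl fun ω _ => sum_comm
          _ = ∑ c, ∑ ω, ∑ ω', ∑ c', (if (adm c c' ∧ ε * M ≤
              min (bm ν B b c) (bm ν B b c')) then
              (if (B ω ∧ b ω = c) ∧ (B ω' ∧ b ω' = c') then ν ω * ν ω' else 0) else 0) := sum_comm
          _ = ∑ c, ∑ ω, ∑ c', ∑ ω', (if (adm c c' ∧ ε * M ≤
              min (bm ν B b c) (bm ν B b c')) then
              (if (B ω ∧ b ω = c) ∧ (B ω' ∧ b ω' = c') then ν ω * ν ω' else 0) else 0) :=
              sum_congr rfl fun c _ => sum_congr rfl fun ω _ => sum_comm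
          _ = ∑ c, ∑ c', ∑ ω, ∑ ω', (if (adm c c' ∧ ε * M ≤
              min (bm ν B b c) (bm ν B b c')) then
              (if (B ω ∧ b ω = c) ∧ (B ω' ∧ b ω' = c') then ν ω * ν ω' else 0) else 0) :=
              sum_congr rfl fun c _ => sum_comm
          _ = _ := by
              refine sum_congr rfl fun c _ => sum_congr rfl fun c' _ => ?_
              by_cases h : adm c c' ∧ ε * M ≤ min (bm ν B b c) (bm ν B b c')
              · simp only [if_pos h]
                unfold bm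
                exact ms_mul ν (fun ω => B ω ∧ b ω = c) (fun ω => B ω ∧ b ω = c')
              · simp only [if_neg h, sum_const_zero]
      rw [e1, hSd]
      unfold bS
      rw [mul_sum]
      refine sum_le_sum fun c _ => ?_
      rw [mul_sum]
      refine sum_le_sum fun c' _ => ?_
      rw [← hMd]
      by_cases h : adm c c' ∧ ε * M ≤ min (bm ν B b c) (bm ν B b c')
      · rw [if_pos h, if_pos h]
        have h1 := le_gw (min_bm_nonneg hν B b c c') (min_bm_le hν B b c c')
        rw [← hMd] at h1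
        have h2 : bm ν B b c * bm ν B b c' ≤ M * min (bm ν B b c) (bm ν B b c') := by
          rcases le_total (bm ν B b c) (bm ν B b c') with h3 | h3
          · rw [min_eq_left h3]
            have := mul_le_mul_of_nonneg_left (bm_le hν B b c') (bm_nonneg hν B b c)
            linarith
          · rw [min_eq_right h3]
            exact mul_le_mul_of_nonneg_right (bm_le hν B b c) (bm_nonneg hν B b c')
        exact h2.trans (mul_le_mul_of_nonneg_left h1 hM.le)
      · rw [if_neg h, if_neg h, mul_zero]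
    -- the light blocks
    have hl := light_mass hν B b (ε * M) (by positivity)
    rw [← hNd] at hl
    have hx3 : ∑ ω, ∑ ω', (if (B ω ∧ bm ν B b (b ω) < ε * M) ∧ B ω' then ν ω * ν ω' else 0) ≤
        N * (ε * M) * M := by
      rw [ms_mul ν (fun ω => B ω ∧ bm ν B b (b ω) < ε * M) B]
      exact mul_le_mul_of_nonneg_right hl hM.le
    have hx4 : ∑ ω, ∑ ω', (if B ω ∧ (B ω' ∧ bm ν B b (b ω') < ε * M) then ν ω * ν ω' else 0) ≤
        M * (N * (ε * M)) := by
      rw [ms_mul ν B (fun ω => B ω ∧ bm ν B b (b ω) < ε * M)]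
      exact mul_le_mul_of_nonneg_left hl hM.le
    have h4 : 4 * (N * (ε * M)) ≤ S := by
      refine le_trans ?_ hS
      rw [le_div_iff₀ hN0]
      nlinarith
    have h5 : M * (4 * (N * (ε * M))) ≤ M * S := mul_le_mul_of_nonneg_left h4 hM.le
    have h6 : 0 ≤ M * gi := by positivity
    linarith
  refine step1.trans ?_
  calc 2 / M * ∑ ω, ∑ ω', (if G ω ∧ B ω' ∧ r < |s ω' - s ω| then ν ω * ν ω' else 0) ≤
        2 / M * (M * gi + M * S + M * (S / 2)) := mul_le_mul_of_nonneg_left step2 (by positivity)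
    _ = 3 * S + 2 * gi := by
        field_simp
        ring

/-- **the box lemma** -/
theorem box_lemma (hν : IsProb ν) (hr : 0 ≤ r) (hτ0 : 0 < τ) (hτ : τ ≤ 1 / 2) (hM : 0 < ms ν B)
    (hε : 4 * (Fintype.card β : ℝ) ^ 2 * ε ≤ τ) (hε0 : 0 < ε)
    (hdiam : ∀ ω ω', B ω → B ω' → b ω = b ω' → |s ω' - s ω| ≤ r / 4)
    (hadm : ∀ ω ω', B ω → B ω' → r / 4 < |s ω' - s ω| → adm (b ω) (b ω'))
    (G : Ω → Prop) (hGB : ∀ ω, G ω → B ω)
    (hG : ∀ ω, G ω → 0 < ν ω → τ * ms ν B ≤ nm ν B s (r / 4) ω) :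
    ms (fun ω => ν ω * (- Real.log (nm ν B s r ω / ms ν B))) G ≤
      (4 * (Fintype.card β : ℝ) ^ 3 + 4) * bS ν B b adm ε +
        2 * ms ν (fun ω => B ω ∧ nm ν B s (r / 4) ω < τ * ms ν B) := by
  have hA := box_A (b := b) (adm := adm) hν hr hτ0 hτ hM hε hε0 hdiam hadm
    (fun ω => G ω ∧ nm ν B s r ω < ms ν B / 2) (fun ω h => hGB ω h.1) (fun ω h => hG ω h.1)
    (fun ω h => h.2)
  have hB := box_B (b := b) (adm := adm) hν hr hτ0 hM hε hε0 hadm
    (fun ω => G ω ∧ ¬ nm ν B s r ω < ms ν B / 2) (fun ω h => hGB ω h.1) (fun ω h => hG ω h.1)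
    (fun ω h => not_lt.1 h.2)
  have h1 := ms_split (fun ω => ν ω * (- Real.log (nm ν B s r ω / ms ν B))) G
    (fun ω => nm ν B s r ω < ms ν B / 2)
  rw [h1]
  linarith

end box

end Vale.Agent.P065.H725
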