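import Vale.Agent.P065.H725.Dyad
import Vale.Agent.P065.H859.Greedy

/-!
# P065: the crossing lemma and the content lemma for the greedy classes (helper725)
-/

set_option autoImplicit false

namespace Vale.Agent.P065.H725

open Finset Vale.Agent.P065.UB Vale.Agent.P065.UB.RankAux Vale.Agent.P065.H987
  Vale.Agent.P065.H859 Vale.Agent.P065.Ent

variable {p w : ℕ}

theorem mu_pos (U : UFlags p w) (ω : Fin p × Fin w) : 0 < U.μ ω := by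
  rw [U.unif]
  have h1 := U.pos
  have h2 : (0 : ℝ) < p := by exact_mod_cast h1.1
  have h3 : (0 : ℝ) < w := by exact_mod_cast h1.2
  positivity

/-- the class of a flag as a system of flags -/
noncomputable def clsDat (U : UFlags p w) {ζ : Type*} (Y : Fin p × Fin w → ζ)
    (ω₀ : Fin p × Fin w) : Dat (Fin p × Fin w) (Fin p) where
  ν := cnd U.μ Y (Y ω₀)
  prob := cnd_isProb U.prob (Pr_pos U.prob Y (mu_pos U ω₀))
  tm := U.tm
  ln := U.ln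
  X := Prod.fst
  J := U.J
  E := U.cls Y (Y ω₀)
  real := U.isRealE_cls Y _
  mem ω h := U.mem_cls.2 ⟨ω, cnd_pos h, rfl⟩
  conn := U.conn
  disj := U.disj
  win ω _ := U.mem ω

theorem cls_filter (U : UFlags p w) {ζ : Type*} (Y : Fin p × Fin w → ζ) (g : Pt → ℕ)
    (ω : Fin p × Fin w) : ({e ∈ U.cls Y (Y ω) | g e.2 = g (U.ln ω)} : Finset (ℝ × Pt)) =
      U.cls (fun ω => (Y ω, g (U.ln ω))) (Y ω, g (U.ln ω)) := by
  ext e
  rw [mem_filter, U.mem_cls, U.mem_cls]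
  constructor
  · rintro ⟨⟨ω', e1, rfl⟩, e2⟩
    exact ⟨ω', Prod.ext e1 e2, rfl⟩
  · rintro ⟨ω', e1, rfl⟩
    have e2 := Prod.mk.inj e1
    exact ⟨⟨ω', e2.1, rfl⟩, e2.2⟩

/-- the greedy classes are optimal -/
theorem clsDat_opt {U : UFlags p w} {ι ζ : Type*} {Wn : Fin p × Fin w → ι} {γ δ : ℝ}
    {L : Fin p × Fin w → ζ} (hX : Det (Prod.fst : Fin p × Fin w → Fin p) Wn)
    (h : Opt U Wn γ δ L) (ω₀ : Fin p × Fin w) :
    (clsDat U (fun ω => (Wn ω, L ω)) ω₀).Opt γ δ := by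
  classical
  intro g
  have key := h.cls hX ω₀ ℕ (fun ω => g (U.ln ω)) (fun ω ω' _ _ _ _ e => by
    show g (U.ln ω) = g (U.ln ω')
    rw [e])
  show Real.log (ne (U.cls (fun ω => (Wn ω, L ω)) (Wn ω₀, L ω₀))) ≤
    Ex (cnd U.μ (fun ω => (Wn ω, L ω)) (Wn ω₀, L ω₀)) (fun ω => Real.log
      (ne {e ∈ U.cls (fun ω => (Wn ω, L ω)) (Wn ω₀, L ω₀) | g e.2 = g (U.ln ω)})) +
    γ * H (cnd U.μ (fun ω => (Wn ω, L ω)) (Wn ω₀, L ω₀)) (fun ω => g (U.ln ω)) +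
    δ * Hc (cnd U.μ (fun ω => (Wn ω, L ω)) (Wn ω₀, L ω₀)) (fun ω => g (U.ln ω)) Prod.fst
  have hprob := cnd_isProb U.prob (Pr_pos U.prob (fun ω => (Wn ω, L ω)) (mu_pos U ω₀))
  have h1 : Ex (cnd U.μ (fun ω => (Wn ω, L ω)) (Wn ω₀, L ω₀)) (fun ω => Real.log
      (ne {e ∈ U.cls (fun ω => (Wn ω, L ω)) (Wn ω₀, L ω₀) | g e.2 = g (U.ln ω)})) =
      Ex (cnd U.μ (fun ω => (Wn ω, L ω)) (Wn ω₀, L ω₀))
        (fun ω => Real.log (U.sz (fun ω => ((Wn ω, L ω), g (U.ln ω))) ω)) := by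
    unfold Ex
    refine sum_congr rfl fun ω _ => ?_
    rcases (hprob.nonneg ω).eq_or_lt with h0 | h0
    · have h0' : cnd U.μ (fun ω => (Wn ω, L ω)) (Wn ω₀, L ω₀) ω = 0 := h0.symm
      rw [h0', zero_mul, zero_mul]
    · have hω : (Wn ω, L ω) = (Wn ω₀, L ω₀) := cnd_pos (Y := fun ω => (Wn ω, L ω)) h0
      have h2 := cls_filter U (fun ω => (Wn ω, L ω)) g ω
      simp only [hω] at h2
      unfold Flags.sz
      simp only [hω]
      rw [h2]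
  rw [h1]
  exact key

/-- the mass of one flag of a class -/
theorem clsDat_flag (U : UFlags p w) {ζ : Type*} (Y : Fin p × Fin w → ζ) (ω₀ : Fin p × Fin w)
    (a : Fin p) (v : Pt) :
    ms (clsDat U Y ω₀).ν (fun ω => (clsDat U Y ω₀).X ω = a ∧ (clsDat U Y ω₀).ln ω = v) ≤
      1 / (p * w * Pr U.μ Y (Y ω₀)) := by
  classical
  obtain ⟨hp, hw⟩ := U.pos
  have hp' : (0 : ℝ) < p := by exact_mod_cast hp
  have hw' : (0 : ℝ) < w := by exact_mod_cast hw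
  have hPr := Pr_pos U.prob Y (mu_pos U ω₀)
  show ms (cnd U.μ Y (Y ω₀)) (fun ω => ω.1 = a ∧ U.ln ω = v) ≤ _
  have hle : ∀ ω, cnd U.μ Y (Y ω₀) ω ≤ 1 / (p * w * Pr U.μ Y (Y ω₀)) := by
    intro ω
    unfold cnd
    split_ifs
    · rw [U.unif, div_div]
    · positivity
  by_cases hex : ∃ ω : Fin p × Fin w, ω.1 = a ∧ U.ln ω = v
  · obtain ⟨⟨a', u⟩, rfl, h2⟩ := hex
    rw [ms_eq, sum_eq_single (a', u)]
    · rw [if_pos ⟨rfl, h2⟩]
      exact hle _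
    · rintro ⟨b, u'⟩ - hne
      rw [if_neg]
      rintro ⟨h3, h4⟩
      simp only at h3
      subst h3
      apply hne
      rw [U.inj b u' u (h4.trans h2.symm)]
    · intro h
      exact absurd (mem_univ _) h
  · have : ms (cnd U.μ Y (Y ω₀)) (fun ω => ω.1 = a ∧ U.ln ω = v) = 0 := by
      rw [ms_eq]
      refine sum_eq_zero fun ω _ => if_neg fun h => hex ⟨ω, h⟩
    rw [this]
    positivity

/-- the mass of a line in a class -/
theorem clsDat_line (U : UFlags p w) {ζ : Type*} (Y : Fin p × Fin w → ζ) (ω₀ : Fin p × Fin w)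
    {Q : ℝ} (hQ : 0 < Q)
    (h : ∀ ω', Y ω' = Y ω₀ → Q * Pr U.μ (fun ω => (Y ω, U.ln ω)) (Y ω₀, U.ln ω') ≤
      Pr U.μ Y (Y ω₀)) (v : Pt) :
    ms (clsDat U Y ω₀).ν (fun ω => (clsDat U Y ω₀).ln ω = v) ≤ 1 / Q := by
  classical
  have hPr := Pr_pos U.prob Y (mu_pos U ω₀)
  show ms (cnd U.μ Y (Y ω₀)) (fun ω => U.ln ω = v) ≤ _
  rw [ms_cnd]
  by_cases hex : ∃ ω', Y ω' = Y ω₀ ∧ U.ln ω' = v
  · obtain ⟨ω', h1, rfl⟩ := hex
    rw [div_le_div_iff₀ hPr hQ, one_mul, mul_comm]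
    refine le_trans (le_of_eq ?_) (h ω' h1)
    rw [← ms_eq_Pr]
    congr 1
    apply ms_congr U.prob
    intro ω _
    exact ⟨fun h2 => Prod.ext h2.1 h2.2, fun h2 => ⟨(Prod.mk.inj h2).1, (Prod.mk.inj h2).2⟩⟩
  · have : ms U.μ (fun ω => Y ω = Y ω₀ ∧ U.ln ω = v) = 0 := by
      rw [ms_eq]
      exact sum_eq_zero fun ω _ => if_neg fun h2 => hex ⟨ω, h2⟩
    rw [this, zero_div]
    positivity

/-- **the content lemma for a greedy class**, abstract cells -/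
theorem content_cls {U : UFlags p w} {ι ζ : Type*} {Wn : Fin p × Fin w → ι} {γ δ : ℝ}
    {L : Fin p × Fin w → ζ} (hγ0 : 0 ≤ γ) (hγ1 : γ ≤ 1) (hδ : δ ≤ 1)
    (hX : Det (Prod.fst : Fin p × Fin w → Fin p) Wn)
    (h : Opt U Wn γ δ L) (ω₀ : Fin p × Fin w) {Q : ℝ} (hQ : 0 < Q)
    (hfl : Q * U.sz (fun ω => (Wn ω, L ω)) ω₀ ≤
      p * w * Pr U.μ (fun ω => (Wn ω, L ω)) (Wn ω₀, L ω₀))
    (hat : ∀ ω', (Wn ω', L ω') = (Wn ω₀, L ω₀) →
      Q * Pr U.μ (fun ω => ((Wn ω, L ω), U.ln ω)) ((Wn ω₀, L ω₀), U.ln ω') ≤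
      Pr U.μ (fun ω => (Wn ω, L ω)) (Wn ω₀, L ω₀))
    {x0 x1 : ℝ} (hx : ∀ ω, (Wn ω, L ω) = (Wn ω₀, L ω₀) → x0 < U.tm ω ∧ U.tm ω < x1)
    (A : Pt → Prop)
    (hp : 0 < ms (cnd U.μ (fun ω => (Wn ω, L ω)) (Wn ω₀, L ω₀)) (fun ω => A (U.ln ω)))
    {α κ : Type*} [Fintype α] [Nonempty α]
    (cel : α → ℤ → Pt → κ) (r : ℤ → ℝ) (hr : ∀ k, 0 ≤ r k) (K : Finset ℤ)
    (hnest : ∀ a, ∀ k ∈ K, ∀ k' ∈ K, k ≤ k' → ∀ u v, cel a k' u = cel a k' v →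
      cel a k u = cel a k v)
    (hsep : ∀ ω ω', (Wn ω, L ω) = (Wn ω₀, L ω₀) → (Wn ω', L ω') = (Wn ω₀, L ω₀) →
      A (U.ln ω) → A (U.ln ω') → (U.ln ω').1 ≠ (U.ln ω).1 →
      Cr x0 x1 (U.ln ω') (U.ln ω) → ∃ a, ∃ k ∈ K, cel a k (U.ln ω') = cel a k (U.ln ω) ∧
        2 * r k < |(U.ln ω').1 - (U.ln ω).1|)
    {η : ℝ} (hη : 0 < η) (hη1 : η ≤ 1 / 2)
    (hQη : 16 * Real.log (1 / η) ≤
      Q * ms (cnd U.μ (fun ω => (Wn ω, L ω)) (Wn ω₀, L ω₀)) (fun ω => A (U.ln ω)) * η) :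
    (1 - γ) * Real.log (1 / η) ≤ 2 * Real.log (1 /
        ms (cnd U.μ (fun ω => (Wn ω, L ω)) (Wn ω₀, L ω₀)) (fun ω => A (U.ln ω))) +
      Real.log (4 * Fintype.card α) + 12 +
      4 * content cel r (cE (cnd U.μ (fun ω => (Wn ω, L ω)) (Wn ω₀, L ω₀))
        (fun ω => A (U.ln ω))) U.ln K η := by
  classical
  set D := clsDat U (fun ω => (Wn ω, L ω)) ω₀ with hD
  obtain ⟨P, k, hP, hPE⟩ := U.real
  obtain ⟨hp0, hw0⟩ := U.pos
  have hp' : (0 : ℝ) < p := by exact_mod_cast hp0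
  have hw' : (0 : ℝ) < w := by exact_mod_cast hw0
  have hPr := Pr_pos U.prob (fun ω => (Wn ω, L ω)) (mu_pos U ω₀)
  set P0 := ms (cnd U.μ (fun ω => (Wn ω, L ω)) (Wn ω₀, L ω₀)) (fun ω => A (U.ln ω)) with hP0
  have hlog : 1 / 2 ≤ Real.log (1 / η) := by
    have h2 : (2 : ℝ) ≤ 1 / η := by
      rw [le_div_iff₀ hη]
      linarith
    have h3 := Real.log_le_log (by norm_num) h2
    have h4 := Real.log_two_gt_d9
    linarith
  have hQ1 : 8 ≤ Q * P0 * η := by linarith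
  have hsz : U.sz (fun ω => (Wn ω, L ω)) ω₀ = ((ne D.E : ℕ) : ℝ) := rfl
  have key := D.content_bound hγ0 hγ1 hδ (clsDat_opt hX h ω₀) (x0 := x0) (x1 := x1)
    (by
      intro e he
      obtain ⟨ω, h1, rfl⟩ := U.mem_cls.1 he
      exact hx ω h1)
    A hp cel r hr K hnest
    (by
      intro ω ω' hω hω' hA hA' hc
      refine hsep ω ω' (cnd_pos (Y := fun ω => (Wn ω, L ω)) hω)
        (cnd_pos (Y := fun ω => (Wn ω, L ω)) hω') hA hA' (fun h2 => hc.ne ?_) hc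
      exact hP.xinj _ (hPE ω').mem _ (hPE ω).mem h2)
    hη hη1 (κ := 1 / (p * w * Pr U.μ (fun ω => (Wn ω, L ω)) (Wn ω₀, L ω₀)))
    (by
      intro v
      have h1 := clsDat_line U (fun ω => (Wn ω, L ω)) ω₀ hQ hat v
      refine h1.trans ?_
      show 1 / Q ≤ P0 * η / 2
      rw [div_le_div_iff₀ hQ (by norm_num)]
      nlinarith)
    (fun a v => clsDat_flag U (fun ω => (Wn ω, L ω)) ω₀ a v)
    (by
      show _ ≤ P0 * η
      rw [← hsz]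
      have h1 : U.sz (fun ω => (Wn ω, L ω)) ω₀ *
          (1 / (p * w * Pr U.μ (fun ω => (Wn ω, L ω)) (Wn ω₀, L ω₀))) ≤ 1 / Q := by
        rw [mul_one_div, div_le_div_iff₀ (by positivity) hQ]
        linarith
      have h2 : 0 ≤ 16 * Real.log (1 / η) := by linarith
      calc 16 * U.sz (fun ω => (Wn ω, L ω)) ω₀ *
            (1 / (p * w * Pr U.μ (fun ω => (Wn ω, L ω)) (Wn ω₀, L ω₀))) * Real.log (1 / η)
          = 16 * Real.log (1 / η) * (U.sz (fun ω => (Wn ω, L ω)) ω₀ *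
            (1 / (p * w * Pr U.μ (fun ω => (Wn ω, L ω)) (Wn ω₀, L ω₀)))) := by ring
        _ ≤ 16 * Real.log (1 / η) * (1 / Q) := mul_le_mul_of_nonneg_left h1 h2
        _ ≤ Q * P0 * η * (1 / Q) := mul_le_mul_of_nonneg_right hQη (by positivity)
        _ = P0 * η := by field_simp)
  exact key

end Vale.Agent.P065.H725
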