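import Vale.Agent.P065.H725.Box

/-!
# P065: one class (helper725)

The content of a law on flags is bounded by the weights of the admissible pairs of blocks, up to
the giants.
-/

set_option autoImplicit false

set_option linter.unusedSectionVars false

namespace Vale.Agent.P065.H725

open Finset Vale.Agent.P065.UB Vale.Agent.P065.UB.RankAux Vale.Agent.P065.H987
  Vale.Agent.P065.H859 Vale.Agent.P065.Ent

/-- the radius of the near lines -/
noncomputable def rad (q : ℕ) (k : ℤ) : ℝ := 2 ^ (-(k + (q : ℤ))) / 12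

theorem rad_pos (q : ℕ) (k : ℤ) : 0 < rad q k := by
  unfold rad
  positivity

/-- homogeneity of `gw` -/
theorem gw_hom {M x : ℝ} (hM : 0 < M) : gw M x = M * gw 1 (x / M) := by
  unfold gw
  rcases eq_or_ne x 0 with h | h
  · rw [h]; simp
  · have : 1 / (x / M) = M / x := by field_simp
    rw [this]
    field_simp

variable {Ω : Type*} [Fintype Ω] {α ζ β : Type*} [Fintype β]

/-- the share of a block in the cell of the flag -/
noncomputable def sh (cel : α → ℤ → Pt → ζ) (bl : α → ℤ → Pt → β) (ν : Ω → ℝ) (ln : Ω → Pt)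
    (a : α) (k : ℤ) (ω : Ω) (c : β) : ℝ :=
  ms ν (fun ω' => cel a k (ln ω') = cel a k (ln ω) ∧ bl a k (ln ω') = c) / cm cel ν ln a k ω

open Classical in
/-- the weights of the admissible pairs of heavy blocks of the cell of the flag -/
noncomputable def pw (cel : α → ℤ → Pt → ζ) (bl : α → ℤ → Pt → β) (adm : β → β → Prop)
    (ε : ℝ) (ν : Ω → ℝ) (ln : Ω → Pt) (a : α) (k : ℤ) (ω : Ω) : ℝ :=
  ∑ c, ∑ c', if adm c c' ∧ ε ≤ min (sh cel bl ν ln a k ω c) (sh cel bl ν ln a k ω c') then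
    gw 1 (min (sh cel bl ν ln a k ω c) (sh cel bl ν ln a k ω c')) else 0

/-- the flag is a giant of its cell: the lines whose slope is at distance at most
`2 ^ (-(k + q)) / 48` have a small share of the mass of the cell -/
def Gia (q : ℕ) (cel : α → ℤ → Pt → ζ) (τ : ℝ) (ν : Ω → ℝ) (ln : Ω → Pt) (a : α) (k : ℤ)
    (ω : Ω) : Prop :=
  nm ν (fun ω' => cel a k (ln ω') = cel a k (ln ω)) (fun ω' => (ln ω').1) (rad q k / 4) ω <
    τ * cm cel ν ln a k ω

variable {cel : α → ℤ → Pt → ζ} {bl : α → ℤ → Pt → β} {adm : β → β → Prop} {ν : Ω → ℝ}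
  {ln : Ω → Pt} {τ ε η : ℝ} {q : ℕ}

theorem sh_nonneg (hν : IsProb ν) (a : α) (k : ℤ) (ω : Ω) (c : β) :
    0 ≤ sh cel bl ν ln a k ω c := div_nonneg (ms_nonneg hν _) (ms_nonneg hν _)

theorem sh_le_one (hν : IsProb ν) (a : α) (k : ℤ) (ω : Ω) (c : β) :
    sh cel bl ν ln a k ω c ≤ 1 :=
  div_le_one_of_le₀ (ms_mono hν fun _ _ h => h.1) (ms_nonneg hν _)

theorem pw_nonneg (hν : IsProb ν) (a : α) (k : ℤ) (ω : Ω) :
    0 ≤ pw cel bl adm ε ν ln a k ω := by
  classical
  unfold pw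
  refine sum_nonneg fun c _ => sum_nonneg fun c' _ => ?_
  split_ifs
  · exact gw_nonneg (le_min (sh_nonneg hν a k ω c) (sh_nonneg hν a k ω c'))
      ((min_le_left _ _).trans (sh_le_one hν a k ω c))
  · exact le_rfl

/-- the weights of a box, in the normalised form -/
theorem bS_eq (a : α) (k : ℤ) {ω : Ω} (hω : 0 < cm cel ν ln a k ω) :
    bS ν (fun ω' => cel a k (ln ω') = cel a k (ln ω)) (fun ω' => bl a k (ln ω')) adm ε =
      cm cel ν ln a k ω * pw cel bl adm ε ν ln a k ω := by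
  classical
  unfold bS pw
  rw [mul_sum]
  refine sum_congr rfl fun c _ => ?_
  rw [mul_sum]
  refine sum_congr rfl fun c' _ => ?_
  have e0 : ms ν (fun ω' => cel a k (ln ω') = cel a k (ln ω)) = cm cel ν ln a k ω := rfl
  have e1 : ∀ c, sh cel bl ν ln a k ω c =
      bm ν (fun ω' => cel a k (ln ω') = cel a k (ln ω)) (fun ω' => bl a k (ln ω')) c /
        cm cel ν ln a k ω := fun c => rfl
  rw [e0, e1, e1, min_div_div_right hω.le, gw_hom hω]
  by_cases h : adm c c' ∧ ε * cm cel ν ln a k ω ≤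
      min (bm ν (fun ω' => cel a k (ln ω') = cel a k (ln ω)) (fun ω' => bl a k (ln ω')) c)
        (bm ν (fun ω' => cel a k (ln ω') = cel a k (ln ω)) (fun ω' => bl a k (ln ω')) c')
  · rw [if_pos h, if_pos ⟨h.1, (le_div_iff₀ hω).2 h.2⟩]
  · rw [if_neg h, if_neg (fun h' => h ⟨h'.1, (le_div_iff₀ hω).1 h'.2⟩), mul_zero]

variable [Fintype α]

open Classical in
/-- the sum of the weights over the big cells -/
noncomputable def Sc (cel : α → ℤ → Pt → ζ) (bl : α → ℤ → Pt → β) (adm : β → β → Prop)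
    (K : Finset ℤ) (η ε : ℝ) (ν : Ω → ℝ) (ln : Ω → Pt) : ℝ :=
  ∑ a : α, ∑ k ∈ K, ∑ ω, ν ω *
    (if η ≤ cm cel ν ln a k ω then pw cel bl adm ε ν ln a k ω else 0)

/-- sums over the cells -/
theorem sum_cells [DecidableEq ζ] (f : Ω → ℝ) (c : Ω → ζ) :
    ∑ ω, f ω = ∑ z ∈ univ.image c, ∑ ω, (if c ω = z then f ω else 0) := by
  rw [sum_comm]
  refine sum_congr rfl fun ω _ => ?_
  rw [sum_ite_eq (univ.image c) (c ω) (fun _ => f ω), if_pos (mem_image_of_mem _ (mem_univ _))]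

/-- one scale of one system -/
theorem content_le_one (hν : IsProb ν) (hη : 0 < η) (hτ0 : 0 < τ) (hτ : τ ≤ 1 / 2)
    (hε : 4 * (Fintype.card β : ℝ) ^ 2 * ε ≤ τ) (hε0 : 0 < ε) (a : α) (k : ℤ)
    (hdiam : ∀ u v, cel a k u = cel a k v → bl a k u = bl a k v → |u.1 - v.1| ≤ rad q k / 4)
    (hadm : ∀ u v, cel a k u = cel a k v → rad q k / 4 < |u.1 - v.1| →
      adm (bl a k u) (bl a k v))
    (Gd : Pt → Prop)
    (hGd : ∀ ω, Gd (ln ω) → 0 < ν ω → η ≤ cm cel ν ln a k ω → ¬ Gia q cel τ ν ln a k ω)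
    [DecidablePred fun ω => Gd (ln ω)] [DecidablePred fun ω => η ≤ cm cel ν ln a k ω] :
    ∑ ω, (if Gd (ln ω) then ν ω else 0) * (if η ≤ cm cel ν ln a k ω then
      - Real.log (nrG cel (fun _ k _ v c => |v.1 - c.1| ≤ rad q k) ν ln a k ω) else 0) ≤
      (4 * (Fintype.card β : ℝ) ^ 3 + 4) * ∑ ω, ν ω *
        (if η ≤ cm cel ν ln a k ω then pw cel bl adm ε ν ln a k ω else 0) +
      2 * ms ν (fun ω => η ≤ cm cel ν ln a k ω ∧ Gia q cel τ ν ln a k ω) := by
  classical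
  set N : ℝ := ((Fintype.card β : ℕ) : ℝ) with hN
  rw [sum_cells (fun ω => (if Gd (ln ω) then ν ω else 0) * (if η ≤ cm cel ν ln a k ω then
      - Real.log (nrG cel (fun _ k _ v c => |v.1 - c.1| ≤ rad q k) ν ln a k ω) else 0))
      (fun ω => cel a k (ln ω)),
    sum_cells (fun ω => ν ω *
        (if η ≤ cm cel ν ln a k ω then pw cel bl adm ε ν ln a k ω else 0))
      (fun ω => cel a k (ln ω)), ms_eq,
    sum_cells (fun ω => if η ≤ cm cel ν ln a k ω ∧ Gia q cel τ ν ln a k ω then ν ω else 0)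
      (fun ω => cel a k (ln ω)), mul_sum, mul_sum, ← sum_add_distrib]
  refine sum_le_sum fun z hz => ?_
  obtain ⟨ω₀, -, rfl⟩ := mem_image.1 hz
  -- values which only depend on the cell
  have hcm : ∀ ω, cel a k (ln ω) = cel a k (ln ω₀) → cm cel ν ln a k ω = cm cel ν ln a k ω₀ := by
    intro ω h
    unfold cm
    rw [h]
  have hpw : ∀ ω, cel a k (ln ω) = cel a k (ln ω₀) →
      pw cel bl adm ε ν ln a k ω = pw cel bl adm ε ν ln a k ω₀ := by
    intro ω h
    unfold pw sh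
    rw [hcm ω h, h]
  by_cases hbig : η ≤ cm cel ν ln a k ω₀
  swap
  · have h1 : ∀ ω, (if cel a k (ln ω) = cel a k (ln ω₀) then
        (if Gd (ln ω) then ν ω else 0) * (if η ≤ cm cel ν ln a k ω then
        - Real.log (nrG cel (fun _ k _ v c => |v.1 - c.1| ≤ rad q k) ν ln a k ω) else 0)
        else 0) = 0 := by
      intro ω
      split_ifs with h2 h3 h4
      · rw [hcm ω h2] at h4
        exact absurd h4 hbig
      · simp
      · rename_i h5
        simp
      · simp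
      · rfl
    rw [sum_eq_zero fun ω _ => h1 ω]
    refine add_nonneg (mul_nonneg (by positivity) (sum_nonneg fun ω _ => ?_))
      (mul_nonneg (by norm_num) (sum_nonneg fun ω _ => ?_))
    · split_ifs
      · exact mul_nonneg (hν.nonneg ω) (pw_nonneg hν a k ω)
      · simp
      · exact le_rfl
    · split_ifs
      · exact hν.nonneg ω
      · exact le_rfl
      · exact le_rfl
  have hM : 0 < cm cel ν ln a k ω₀ := hη.trans_le hbig
  have key := box_lemma (ν := ν) (B := fun ω' => cel a k (ln ω') = cel a k (ln ω₀))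
    (s := fun ω' => (ln ω').1) (b := fun ω' => bl a k (ln ω')) (adm := adm) (ε := ε)
    (r := rad q k) hν (rad_pos q k).le hτ0 hτ hM hε hε0
    (by
      intro ω ω' h1 h2 h3
      have := hdiam (ln ω') (ln ω) (h2.trans h1.symm) h3.symm
      exact this)
    (by
      intro ω ω' h1 h2 h3
      have h4 : rad q k / 4 < |(ln ω').1 - (ln ω).1| := h3
      rw [abs_sub_comm] at h4
      exact hadm (ln ω) (ln ω') (h1.trans h2.symm) h4)
    (fun ω => cel a k (ln ω) = cel a k (ln ω₀) ∧ Gd (ln ω)) (fun ω h => h.1)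
    (by
      rintro ω ⟨h1, h2⟩ h3
      have h4 := hGd ω h2 h3 (by rw [hcm ω h1]; exact hbig)
      unfold Gia at h4
      rw [not_lt, h1, hcm ω h1] at h4
      exact h4)
  rw [bS_eq a k hM] at key
  have e1 : ∑ ω, (if cel a k (ln ω) = cel a k (ln ω₀) then
      (if Gd (ln ω) then ν ω else 0) * (if η ≤ cm cel ν ln a k ω then
      - Real.log (nrG cel (fun _ k _ v c => |v.1 - c.1| ≤ rad q k) ν ln a k ω) else 0)
      else 0) = ms (fun ω => ν ω * (- Real.log (nm ν (fun ω' => cel a k (ln ω') =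
        cel a k (ln ω₀)) (fun ω' => (ln ω').1) (rad q k) ω /
        ms ν (fun ω' => cel a k (ln ω') = cel a k (ln ω₀)))))
        (fun ω => cel a k (ln ω) = cel a k (ln ω₀) ∧ Gd (ln ω)) := by
    rw [ms_eq]
    refine sum_congr rfl fun ω _ => ?_
    by_cases h1 : cel a k (ln ω) = cel a k (ln ω₀)
    · have hbig' : η ≤ cm cel ν ln a k ω := by rw [hcm ω h1]; exact hbig
      rw [if_pos h1, if_pos hbig']
      by_cases h2 : Gd (ln ω)
      · rw [if_pos h2, if_pos ⟨h1, h2⟩]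
        congr 2
        unfold nrG nm
        rw [hcm ω h1, h1]
        have e3 : ms ν (fun ω' => cel a k (ln ω') = cel a k (ln ω₀) ∧
            |(ln ω).1 - (ln ω').1| ≤ rad q k) =
            ms ν (fun ω' => cel a k (ln ω') = cel a k (ln ω₀) ∧
            |(ln ω').1 - (ln ω).1| ≤ rad q k) :=
          ms_congr hν fun ω' _ => by rw [abs_sub_comm]
        rw [e3]
        rfl
      · rw [if_neg h2, if_neg fun h3 => h2 h3.2, zero_mul]
    · rw [if_neg h1, if_neg fun h3 => h1 h3.1]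
  have e2 : ∑ ω, (if cel a k (ln ω) = cel a k (ln ω₀) then ν ω *
      (if η ≤ cm cel ν ln a k ω then pw cel bl adm ε ν ln a k ω else 0) else 0) =
      cm cel ν ln a k ω₀ * pw cel bl adm ε ν ln a k ω₀ := by
    have : ∀ ω, (if cel a k (ln ω) = cel a k (ln ω₀) then ν ω *
        (if η ≤ cm cel ν ln a k ω then pw cel bl adm ε ν ln a k ω else 0) else 0) =
        (if cel a k (ln ω) = cel a k (ln ω₀) then ν ω else 0) *
          pw cel bl adm ε ν ln a k ω₀ := by
      intro ω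
      by_cases h1 : cel a k (ln ω) = cel a k (ln ω₀)
      · have hbig' : η ≤ cm cel ν ln a k ω := by rw [hcm ω h1]; exact hbig
        rw [if_pos h1, if_pos h1, if_pos hbig', hpw ω h1]
      · rw [if_neg h1, if_neg h1, zero_mul]
    rw [sum_congr rfl fun ω _ => this ω, ← sum_mul, ← ms_eq]
    rfl
  have e3 : ∑ ω, (if cel a k (ln ω) = cel a k (ln ω₀) then
      (if η ≤ cm cel ν ln a k ω ∧ Gia q cel τ ν ln a k ω then ν ω else 0) else 0) =
      ms ν (fun ω => cel a k (ln ω) = cel a k (ln ω₀) ∧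
        nm ν (fun ω' => cel a k (ln ω') = cel a k (ln ω₀)) (fun ω' => (ln ω').1)
        (rad q k / 4) ω < τ * ms ν (fun ω' => cel a k (ln ω') = cel a k (ln ω₀))) := by
    rw [ms_eq]
    refine sum_congr rfl fun ω _ => ?_
    by_cases h1 : cel a k (ln ω) = cel a k (ln ω₀)
    · have hbig' : η ≤ cm cel ν ln a k ω := by rw [hcm ω h1]; exact hbig
      have hG : Gia q cel τ ν ln a k ω ↔ nm ν (fun ω' => cel a k (ln ω') = cel a k (ln ω₀))
          (fun ω' => (ln ω').1) (rad q k / 4) ω <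
          τ * ms ν (fun ω' => cel a k (ln ω') = cel a k (ln ω₀)) := by
        unfold Gia
        rw [h1, hcm ω h1]
        rfl
      rw [if_pos h1]
      by_cases h2 : Gia q cel τ ν ln a k ω
      · rw [if_pos ⟨hbig', h2⟩, if_pos ⟨h1, hG.1 h2⟩]
      · rw [if_neg fun h3 => h2 h3.2, if_neg fun h3 => h2 (hG.2 h3.2)]
    · rw [if_neg h1, if_neg fun h3 => h1 h3.1]
  rw [e1, e2, e3]
  exact key

/-- **the content is bounded by the weights of the admissible pairs**, up to the giants -/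
theorem content_le (hν : IsProb ν) (hη : 0 < η) (hτ0 : 0 < τ) (hτ : τ ≤ 1 / 2)
    (hε : 4 * (Fintype.card β : ℝ) ^ 2 * ε ≤ τ) (hε0 : 0 < ε) (K : Finset ℤ)
    (hdiam : ∀ a k u v, cel a k u = cel a k v → bl a k u = bl a k v →
      |u.1 - v.1| ≤ rad q k / 4)
    (hadm : ∀ a k u v, cel a k u = cel a k v → rad q k / 4 < |u.1 - v.1| →
      adm (bl a k u) (bl a k v))
    (Gd : Pt → Prop)
    (hGd : ∀ ω, Gd (ln ω) → 0 < ν ω → ∀ a, ∀ k ∈ K, η ≤ cm cel ν ln a k ω →
      ¬ Gia q cel τ ν ln a k ω) :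
    contentG cel (fun _ k _ v c => |v.1 - c.1| ≤ rad q k) ν ln Gd K η ≤
      (4 * (Fintype.card β : ℝ) ^ 3 + 4) * Sc cel bl adm K η ε ν ln +
      2 * ∑ a, ∑ k ∈ K, ms ν (fun ω => η ≤ cm cel ν ln a k ω ∧ Gia q cel τ ν ln a k ω) := by
  classical
  unfold contentG Sc
  rw [mul_sum, mul_sum, ← sum_add_distrib]
  refine sum_le_sum fun a _ => ?_
  rw [mul_sum, mul_sum, ← sum_add_distrib]
  refine sum_le_sum fun k hk => ?_
  exact content_le_one hν hη hτ0 hτ hε hε0 a k (hdiam a k) (hadm a k) Gd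
    (fun ω h1 h2 h3 => hGd ω h1 h2 a k hk h3)

/-! ## The number of giants -/

theorem sum_Icc_tele (h : ℤ → ℝ) (a : ℤ) (n : ℕ) :
    ∑ k ∈ Finset.Icc a (a + n), (h k - h (k + 1)) = h a - h (a + n + 1) := by
  induction n with
  | zero => simp
  | succ n ih =>
    have e : Finset.Icc a (a + ((n + 1 : ℕ) : ℤ)) =
        insert (a + n + 1) (Finset.Icc a (a + n)) := by
      ext x
      simp only [Finset.mem_Icc, Finset.mem_insert]
      push_cast
      omega
    rw [e, sum_insert (by simp), ih]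
    push_cast
    have e2 : a + (n + 1) = a + (n : ℤ) + 1 := by ring
    rw [e2]
    ring

theorem sum_Icc_stride (f : ℤ → ℝ) {l u : ℝ} (hl : ∀ k, l ≤ f k) (hu : ∀ k, f k ≤ u)
    (k₀ k₁ : ℤ) (j : ℕ) :
    ∑ k ∈ Finset.Icc k₀ k₁, (f k - f (k + j)) ≤ j * (u - l) := by
  have hlu : l ≤ u := (hl 0).trans (hu 0)
  rcases lt_or_ge k₁ k₀ with h | h
  · rw [Finset.Icc_eq_empty (by omega), sum_empty]
    exact mul_nonneg (Nat.cast_nonneg _) (by linarith)
  obtain ⟨n, rfl⟩ : ∃ n : ℕ, k₁ = k₀ + n := ⟨(k₁ - k₀).toNat, by omega⟩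
  induction j with
  | zero => simp
  | succ j ih =>
    have e : ∀ k, f k - f (k + ((j + 1 : ℕ) : ℤ)) =
        (f k - f (k + j)) + (f (k + j) - f (k + 1 + j)) := by
      intro k
      have : k + ((j + 1 : ℕ) : ℤ) = k + 1 + j := by push_cast; ring
      rw [this]
      ring
    rw [sum_congr rfl fun k _ => e k, sum_add_distrib, sum_Icc_tele (fun k => f (k + j)) k₀ n]
    have h1 := hu (k₀ + j)
    have h2 := hl (k₀ + n + 1 + j)
    push_cast
    linarith

open Classical in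
/-- **a flag is a giant of few big cells** -/
theorem giant_count (hν : IsProb ν) (hη : 0 < η) (hη1 : η ≤ 1) (hτ0 : 0 < τ) (hτ : τ ≤ 1 / 2)
    (a : α) (k₀ k₁ : ℤ) {j : ℕ}
    (hsub : ∀ (k : ℤ) u v, cel a (k + j) u = cel a (k + j) v → cel a k u = cel a k v ∧
      |u.1 - v.1| ≤ rad q k / 4) (ω : Ω) :
    ∑ k ∈ Finset.Icc k₀ k₁, (if η ≤ cm cel ν ln a k ω ∧ Gia q cel τ ν ln a k ω then (1 : ℝ) else 0) ≤
      j * (Real.log (1 / η) / Real.log (1 / τ) + 1) := by
  have hlogτ : 0 < Real.log (1 / τ) :=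
    Real.log_pos (by rw [lt_div_iff₀ hτ0]; linarith)
  set f : ℤ → ℝ := fun k => Real.log (max (cm cel ν ln a k ω) (η * τ)) with hf
  have hητ : 0 < η * τ := mul_pos hη hτ0
  have hητ1 : η * τ ≤ 1 := by nlinarith
  have hl : ∀ k, Real.log (η * τ) ≤ f k := fun k =>
    Real.log_le_log hητ (le_max_right _ _)
  have hu : ∀ k, f k ≤ 0 := fun k => by
    refine Real.log_nonpos (hητ.le.trans (le_max_right _ _)) (max_le (ms_le_one hν _) hητ1)
  have hmono : ∀ k : ℤ, cm cel ν ln a (k + j) ω ≤ cm cel ν ln a k ω := fun k =>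
    ms_mono hν fun ω' _ h => (hsub k _ _ h).1
  have hstep : ∀ k, (if η ≤ cm cel ν ln a k ω ∧ Gia q cel τ ν ln a k ω then (1 : ℝ) else 0) *
      Real.log (1 / τ) ≤ f k - f (k + j) := by
    intro k
    split_ifs with h
    · obtain ⟨h1, h2⟩ := h
      have h3 : cm cel ν ln a (k + j) ω ≤ τ * cm cel ν ln a k ω := by
        refine le_trans ?_ h2.le
        exact ms_mono hν fun ω' _ h => ⟨(hsub k _ _ h).1, (hsub k _ _ h).2⟩
      have hc0 : 0 < cm cel ν ln a k ω := hη.trans_le h1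
      have h4 : max (cm cel ν ln a k ω) (η * τ) = cm cel ν ln a k ω := by
        apply max_eq_left
        nlinarith
      have h5 : max (cm cel ν ln a (k + j) ω) (η * τ) ≤ τ * cm cel ν ln a k ω := by
        apply max_le h3
        nlinarith
      have h6 := Real.log_le_log (lt_of_lt_of_le hητ (le_max_right _ _)) h5
      rw [Real.log_mul hτ0.ne' hc0.ne'] at h6
      show 1 * Real.log (1 / τ) ≤ Real.log (max (cm cel ν ln a k ω) (η * τ)) -
        Real.log (max (cm cel ν ln a (k + j) ω) (η * τ))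
      rw [h4, one_mul, one_div, Real.log_inv]
      linarith
    · rw [zero_mul]
      have h6 := Real.log_le_log (lt_of_lt_of_le hητ (le_max_right _ _))
        (max_le_max_right (η * τ) (hmono k))
      show 0 ≤ Real.log (max (cm cel ν ln a k ω) (η * τ)) -
        Real.log (max (cm cel ν ln a (k + j) ω) (η * τ))
      linarith
  have h1 := sum_le_sum fun k (_ : k ∈ Finset.Icc k₀ k₁) => hstep k
  rw [← sum_mul] at h1
  have h2 := h1.trans (sum_Icc_stride f hl hu k₀ k₁ j)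
  have h3 : Real.log (η * τ) = - Real.log (1 / η) - Real.log (1 / τ) := by
    rw [Real.log_mul hη.ne' hτ0.ne', one_div, Real.log_inv, one_div, Real.log_inv]
    ring
  rw [h3] at h2
  rw [div_add_one hlogτ.ne', ← mul_div_assoc, le_div_iff₀ hlogτ]
  linarith

open Classical in
/-- the expected number of giants -/
theorem giant_sum (hν : IsProb ν) (hη : 0 < η) (hη1 : η ≤ 1) (hτ0 : 0 < τ) (hτ : τ ≤ 1 / 2)
    (k₀ k₁ : ℤ) {j : ℕ}
    (hsub : ∀ a (k : ℤ) u v, cel a (k + j) u = cel a (k + j) v → cel a k u = cel a k v ∧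
      |u.1 - v.1| ≤ rad q k / 4) :
    ∑ a, ∑ k ∈ Finset.Icc k₀ k₁, ms ν (fun ω => η ≤ cm cel ν ln a k ω ∧ Gia q cel τ ν ln a k ω) ≤
      Fintype.card α * (j * (Real.log (1 / η) / Real.log (1 / τ) + 1)) := by
  rw [← nsmul_eq_mul, ← card_univ, ← sum_const]
  refine sum_le_sum fun a _ => ?_
  have e1 : ∀ k, ms ν (fun ω => η ≤ cm cel ν ln a k ω ∧ Gia q cel τ ν ln a k ω) =
      ∑ ω, ν ω * (if η ≤ cm cel ν ln a k ω ∧ Gia q cel τ ν ln a k ω then (1 : ℝ) else 0) := by
    intro k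
    rw [ms_eq]
    refine sum_congr rfl fun ω _ => ?_
    split_ifs <;> simp
  rw [sum_congr rfl fun k _ => e1 k, sum_comm]
  calc ∑ ω, ∑ k ∈ Finset.Icc k₀ k₁, ν ω *
        (if η ≤ cm cel ν ln a k ω ∧ Gia q cel τ ν ln a k ω then (1 : ℝ) else 0)
      ≤ ∑ ω, ν ω * (j * (Real.log (1 / η) / Real.log (1 / τ) + 1)) := by
        refine sum_le_sum fun ω _ => ?_
        rw [← mul_sum]
        exact mul_le_mul_of_nonneg_left (giant_count hν hη hη1 hτ0 hτ a k₀ k₁ (hsub a) ω)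
          (hν.nonneg ω)
    _ = j * (Real.log (1 / η) / Real.log (1 / τ) + 1) := by
        rw [← sum_mul, hν.sum, one_mul]

/-- the lines which are a giant of no big cell -/
def NoGia (q : ℕ) (cel : α → ℤ → Pt → ζ) (K : Finset ℤ) (η τ : ℝ) (ν : Ω → ℝ) (ln : Ω → Pt) (v : Pt) :
    Prop :=
  ∀ ω, ln ω = v → 0 < ν ω → ∀ a, ∀ k ∈ K, η ≤ cm cel ν ln a k ω → ¬ Gia q cel τ ν ln a k ω

/-- **the lower bound for the weights**: from a lower bound for the content -/
theorem class_lower (hν : IsProb ν) (hη : 0 < η) (hη1 : η ≤ 1) (hτ0 : 0 < τ) (hτ : τ ≤ 1 / 2)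
    (hε : 4 * (Fintype.card β : ℝ) ^ 2 * ε ≤ τ) (hε0 : 0 < ε) (k₀ k₁ : ℤ) {j : ℕ}
    (hsub : ∀ a (k : ℤ) u v, cel a (k + j) u = cel a (k + j) v → cel a k u = cel a k v ∧
      |u.1 - v.1| ≤ rad q k / 4)
    (hdiam : ∀ a k u v, cel a k u = cel a k v → bl a k u = bl a k v →
      |u.1 - v.1| ≤ rad q k / 4)
    (hadm : ∀ a k u v, cel a k u = cel a k v → rad q k / 4 < |u.1 - v.1| →
      adm (bl a k u) (bl a k v))
    {L : ℝ}
    (hG : 1 / 2 ≤ ms ν (fun ω => NoGia q cel (Finset.Icc k₀ k₁) η τ ν ln (ln ω)))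
    (hcont : L ≤ 4 * (Real.log (1 / ms ν (fun ω => NoGia q cel (Finset.Icc k₀ k₁) η τ ν ln (ln ω))) +
      contentG cel (fun _ k _ v c => |v.1 - c.1| ≤ rad q k) ν ln
        (NoGia q cel (Finset.Icc k₀ k₁) η τ ν ln) (Finset.Icc k₀ k₁) η /
        ms ν (fun ω => NoGia q cel (Finset.Icc k₀ k₁) η τ ν ln (ln ω)))) :
    L / 8 - 1 - 2 * (Fintype.card α * (j * (Real.log (1 / η) / Real.log (1 / τ) + 1))) ≤
      (4 * (Fintype.card β : ℝ) ^ 3 + 4) * Sc cel bl adm (Finset.Icc k₀ k₁) η ε ν ln := by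
  have h1 := content_le (cel := cel) (bl := bl) (adm := adm) (ln := ln) hν hη hτ0 hτ hε hε0
    (Finset.Icc k₀ k₁) hdiam hadm
    (NoGia q cel (Finset.Icc k₀ k₁) η τ ν ln) (fun ω h1 h2 => h1 ω rfl h2)
  have h2 := giant_sum (cel := cel) (ln := ln) hν hη hη1 hτ0 hτ k₀ k₁ hsub
  set C := contentG cel (fun _ k _ v c => |v.1 - c.1| ≤ rad q k) ν ln
        (NoGia q cel (Finset.Icc k₀ k₁) η τ ν ln) (Finset.Icc k₀ k₁) η with hC
  have hC0 : 0 ≤ C := contentG_nonneg _ _ hν ln _ _ _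
  set g := ms ν (fun ω => NoGia q cel (Finset.Icc k₀ k₁) η τ ν ln (ln ω)) with hg
  have hg1 : g ≤ 1 := ms_le_one hν _
  have hg0 : 0 < g := by linarith
  have h3 : C / g ≤ 2 * C := by
    rw [div_le_iff₀ hg0]
    nlinarith
  have h4 : Real.log (1 / g) ≤ 1 := by
    have h5 : (1 : ℝ) / g ≤ 2 := by
      rw [div_le_iff₀ hg0]
      linarith
    have h6 := Real.log_le_sub_one_of_pos (x := 1 / g) (by positivity)
    linarith
  linarith

end Vale.Agent.P065.H725
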