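import Vale.Agent.P065.H725.ColPer

/-!
# P065: the choice of the columns, frame level (helper725)
-/

set_option autoImplicit false

set_option linter.unusedSectionVars false

namespace Vale.Agent.P065.H725

open Finset Vale.Agent.P065.UB Vale.Agent.P065.UB.RankAux Vale.Agent.P065.H987
  Vale.Agent.P065.H859 Vale.Agent.P065.Ent Vale.Agent.P065.H154

section frame

variable {Ω : Type*} {F : Fr Ω} {ln : Ω → Pt} {p : Prm} {Lab : Type*} {lam : Ω → Lab}
  [Fintype Ω] {μ : Ω → ℝ}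

theorem Psi_nonneg (hμ : IsProb μ) {ω : Ω} (hω : 0 < μ ω) (q : ℕ) (η ε : ℝ) (j : ℤ) :
    0 ≤ Psi F ln p lam μ q η ε j ω := by
  unfold Psi
  exact sum_nonneg fun a _ => Sc1_nonneg _ _ _ _ _ _ (cnd_isProb hμ (Pr_pos hμ _ hω)) _

theorem Gm_nonneg (hμ : IsProb μ) {ω : Ω} (hω : 0 < μ ω) (q : ℕ) (η τ : ℝ) (j : ℤ) (a : Bool) :
    0 ≤ Gm F ln p lam μ q η τ j a ω :=
  ms_nonneg (cnd_isProb hμ (Pr_pos hμ _ hω)) _

/-- one class, all offsets -/
theorem cls_sum (hμ : IsProb μ) {ω : Ω} (hω : 0 < μ ω) {q : ℕ} {η τ ε : ℝ}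
    (hT : F.T' ω ≤ p.K + p.M) {c CP : ℝ} (hc : 0 ≤ c) (hCP : 0 ≤ CP)
    (hcls : ∀ j : ℤ,
      1 / 2 ≤ ms (cnd μ (FV F lam) (FV F lam ω)) (fun ω' => NoGia q
        (c4 p.k₀ (fun a => ph F p ω j a) (F.T' ω) (fun v => - ht (F.P.x ω) v))
        (Finset.Icc p.k₀ (p.k₀ + p.K)) η τ (cnd μ (FV F lam) (FV F lam ω)) ln (ln ω')) →
      c ≤ CP * (Psi F ln p lam μ q η ε j ω + Psi F ln p lam μ q η ε (j + sft F p ω) ω)) :
    c * (p.nT - 4 * ∑ i ∈ range p.nT, ∑ a : Bool, Gm F ln p lam μ q η τ (i : ℕ) a ω) ≤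
      2 * CP * ∑ i ∈ range p.nT, Psi F ln p lam μ q η ε (i : ℕ) ω := by
  have hp : 0 < Pr μ (FV F lam) (FV F lam ω) := Pr_pos hμ _ hω
  have hprob := cnd_isProb hμ hp
  have h1 : ∀ i ∈ range p.nT,
      c * (1 - 2 * ∑ a : Bool, (Gm F ln p lam μ q η τ (i : ℕ) a ω +
        Gm F ln p lam μ q η τ ((i : ℕ) + (sft F p ω : ℕ)) a ω)) ≤
      CP * (Psi F ln p lam μ q η ε (i : ℕ) ω + Psi F ln p lam μ q η ε ((i : ℕ) + (sft F p ω : ℕ)) ω) := by
    intro i _
    have hs : 0 ≤ ∑ a : Bool, (Gm F ln p lam μ q η τ (i : ℕ) a ω +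
        Gm F ln p lam μ q η τ ((i : ℕ) + (sft F p ω : ℕ)) a ω) :=
      sum_nonneg fun a _ => add_nonneg (Gm_nonneg hμ hω _ _ _ _ _) (Gm_nonneg hμ hω _ _ _ _ _)
    by_cases h : 1 / 2 ≤ ms (cnd μ (FV F lam) (FV F lam ω)) (fun ω' => NoGia q
        (c4 p.k₀ (fun a => ph F p ω (i : ℕ) a) (F.T' ω) (fun v => - ht (F.P.x ω) v))
        (Finset.Icc p.k₀ (p.k₀ + p.K)) η τ (cnd μ (FV F lam) (FV F lam ω)) ln (ln ω'))
    · refine le_trans ?_ (hcls _ h)
      nlinarith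
    · have h2 := NoGia_four (ln := ln) (lam := lam) hμ hω hT q η τ (i : ℕ)
      have h3 := ms_not hprob (fun ω' => NoGia q
        (c4 p.k₀ (fun a => ph F p ω (i : ℕ) a) (F.T' ω) (fun v => - ht (F.P.x ω) v))
        (Finset.Icc p.k₀ (p.k₀ + p.K)) η τ (cnd μ (FV F lam) (FV F lam ω)) ln (ln ω'))
      have h4 : 1 - 2 * ∑ a : Bool, (Gm F ln p lam μ q η τ (i : ℕ) a ω +
        Gm F ln p lam μ q η τ ((i : ℕ) + (sft F p ω : ℕ)) a ω) ≤ 0 := by linarith
      have h5 : 0 ≤ CP * (Psi F ln p lam μ q η ε (i : ℕ) ω +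
          Psi F ln p lam μ q η ε ((i : ℕ) + (sft F p ω : ℕ)) ω) :=
        mul_nonneg hCP (add_nonneg (Psi_nonneg hμ hω _ _ _ _) (Psi_nonneg hμ hω _ _ _ _))
      nlinarith
  have h2 := sum_le_sum h1
  have eP := periodic_sum (fun j => Psi F ln p lam μ q η ε j ω) p.nT
    (fun j => Psi_period q η ε j ω) (sft F p ω)
  have eG := periodic_sum (fun j => ∑ a : Bool, Gm F ln p lam μ q η τ j a ω) p.nT
    (fun j => sum_congr rfl fun a _ => Gm_period q η τ j a ω) (sft F p ω)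
  rw [← mul_sum, ← mul_sum, sum_sub_distrib, ← mul_sum] at h2
  simp only [sum_add_distrib] at h2
  rw [sum_const, card_range, nsmul_eq_mul, mul_one] at h2
  rw [eP, eG] at h2
  linarith

open Classical in
/-- **the choice of the columns, frame level** -/
theorem colsel_abs (hμ : IsProb μ) {θ : ℝ} {q : ℕ} (hq : 6 + q ≤ p.PP) {η τ ε : ℝ} (hε : 0 < ε)
    (hε1 : ε ≤ 1) (hM : ∀ ω, F.T' ω ≤ p.K + p.M) (good : Ω → Prop)
    (hgood : ∀ ω, 0 < μ ω → good ω → θ ≤ Pr μ (FV F lam) (FV F lam ω))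
    (hmass : ms μ (fun ω => ¬ good ω) ≤ 3 / 8)
    {c CP : ℝ} (hc : 0 ≤ c) (hCP : 0 ≤ CP)
    (hcls : ∀ ω, 0 < μ ω → good ω → ∀ j : ℤ,
      1 / 2 ≤ ms (cnd μ (FV F lam) (FV F lam ω)) (fun ω' => NoGia q
        (c4 p.k₀ (fun a => ph F p ω j a) (F.T' ω) (fun v => - ht (F.P.x ω) v))
        (Finset.Icc p.k₀ (p.k₀ + p.K)) η τ (cnd μ (FV F lam) (FV F lam ω)) ln (ln ω')) →
      c ≤ CP * (Psi F ln p lam μ q η ε j ω + Psi F ln p lam μ q η ε (j + sft F p ω) ω))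
    (hGI : ∑ i : Fin p.nT, ms μ (fun ω => ∃ κ : p.Kap, Big F ln p lam μ θ η (κ, i) ω ∧
      Gnt F ln p lam μ q τ (κ, i) ω) ≤ p.nT / 64) :
    c * p.nT / 4 ≤
      CP * ((1 + Real.log (1 / ε)) * (colF F ln p lam hμ θ q η hε hε1).J μ) := by
  set W : Ω → ℝ := fun ω => if θ ≤ Pr μ (FV F lam) (FV F lam ω) then 1 else 0 with hW
  have hW0 : ∀ ω, 0 ≤ W ω := fun ω => by
    rw [hW]
    simp only
    split_ifs <;> norm_num
  set Gs : Ω → ℝ := fun ω => ∑ i ∈ range p.nT, ∑ a : Bool, Gm F ln p lam μ q η τ (i : ℕ) a ω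
    with hGs
  set As : Ω → ℝ := fun ω => ∑ i ∈ range p.nT, Psi F ln p lam μ q η ε (i : ℕ) ω with hAs
  have h1 : ∀ ω, μ ω * (c * ((if good ω then (p.nT : ℝ) else 0) - 4 * (W ω * Gs ω))) ≤
      μ ω * (2 * CP * (W ω * As ω)) := by
    intro ω
    rcases (hμ.nonneg ω).eq_or_lt with h0 | h0
    · rw [← h0, zero_mul, zero_mul]
    · have hA0 : 0 ≤ As ω := sum_nonneg fun i _ => Psi_nonneg hμ h0 _ _ _ _
      have hG0 : 0 ≤ Gs ω := sum_nonneg fun i _ => sum_nonneg fun a _ => Gm_nonneg hμ h0 _ _ _ _ _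
      refine mul_le_mul_of_nonneg_left ?_ h0.le
      by_cases hg : good ω
      · have e : W ω = 1 := if_pos (hgood ω h0 hg)
        rw [if_pos hg, e, one_mul, one_mul]
        exact cls_sum hμ h0 (hM ω) hc hCP (hcls ω h0 hg)
      · rw [if_neg hg, zero_sub]
        have h2 : 0 ≤ c * (4 * (W ω * Gs ω)) :=
          mul_nonneg hc (mul_nonneg (by norm_num) (mul_nonneg (hW0 ω) hG0))
        have h3 : 0 ≤ 2 * CP * (W ω * As ω) :=
          mul_nonneg (by positivity) (mul_nonneg (hW0 ω) hA0)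
        rw [mul_neg]
        linarith
  have h2 := sum_le_sum fun ω (_ : ω ∈ univ) => h1 ω
  -- the left side
  have hL : ∑ ω, μ ω * (c * ((if good ω then (p.nT : ℝ) else 0) - 4 * (W ω * Gs ω))) =
      c * (p.nT * ms μ good - 4 * ∑ ω, μ ω * (W ω * Gs ω)) := by
    rw [ms_eq, mul_sum, mul_sum, ← sum_sub_distrib, mul_sum]
    refine sum_congr rfl fun ω _ => ?_
    split_ifs <;> ring
  have hR : ∑ ω, μ ω * (2 * CP * (W ω * As ω)) = 2 * CP * ∑ ω, μ ω * (W ω * As ω) := by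
    rw [mul_sum]
    refine sum_congr rfl fun ω _ => ?_
    ring
  rw [hL, hR] at h2
  -- the weights
  have hJ := colF_J (θ := θ) (η := η) (F := F) (ln := ln) (lam := lam) hμ hq hε hε1
  have e1 : ∑ i ∈ range p.nT, ∑ ω, μ ω * Ps F ln p lam μ θ q η ε (i : ℕ) ω =
      ∑ ω, μ ω * (W ω * As ω) := by
    rw [sum_comm]
    refine sum_congr rfl fun ω _ => ?_
    rw [hAs]
    simp only
    rw [mul_sum, mul_sum]
    refine sum_congr rfl fun i _ => ?_
    rw [hW]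
    simp only
    unfold Ps
    split_ifs <;> ring
  rw [e1] at hJ
  rw [hJ]
  -- the giants
  have e2 : ∑ ω, μ ω * (W ω * Gs ω) ≤ 2 * (p.nT / 64) := by
    have e3 : ∑ ω, μ ω * (W ω * Gs ω) = ∑ i ∈ range p.nT, ∑ a : Bool, ∑ ω, μ ω *
        (W ω * Gm F ln p lam μ q η τ (i : ℕ) a ω) := by
      rw [hGs]
      simp only
      have e4 : ∀ ω, μ ω * (W ω * ∑ i ∈ range p.nT, ∑ a : Bool,
          Gm F ln p lam μ q η τ (i : ℕ) a ω) = ∑ i ∈ range p.nT, ∑ a : Bool, μ ω *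
        (W ω * Gm F ln p lam μ q η τ (i : ℕ) a ω) := by
        intro ω
        rw [mul_sum, mul_sum]
        refine sum_congr rfl fun i _ => ?_
        rw [mul_sum, mul_sum]
      rw [sum_congr rfl fun ω _ => e4 ω, sum_comm]
      refine sum_congr rfl fun i _ => ?_
      rw [sum_comm]
    rw [e3]
    have e5 : ∀ i : Fin p.nT, ∑ a : Bool, ∑ ω, μ ω *
        (W ω * Gm F ln p lam μ q η τ ((i : ℕ) : ℤ) a ω) ≤
        2 * ms μ (fun ω => ∃ κ : p.Kap, Big F ln p lam μ θ η (κ, i) ω ∧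
          Gnt F ln p lam μ q τ (κ, i) ω) := by
      intro i
      have e6 : ∀ a : Bool, ∑ ω, μ ω * (W ω * Gm F ln p lam μ q η τ ((i : ℕ) : ℤ) a ω) ≤
          ms μ (fun ω => ∃ κ : p.Kap, Big F ln p lam μ θ η (κ, i) ω ∧
          Gnt F ln p lam μ q τ (κ, i) ω) := by
        intro a
        have e7 := tower_ms hμ (FV F lam) (fun ω ω' => θ ≤ Pr μ (FV F lam) (FV F lam ω) ∧
          Gi1 q (cj F p ω ((i : ℕ) : ℤ) a) (Finset.Icc p.k₀ (p.k₀ + p.K)) η τ
            (cnd μ (FV F lam) (FV F lam ω)) ln ω') (fun ω ω' h => by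
              simp only [h, cj_congr (FV_W h)])
        have e8 : ∑ ω, μ ω * (W ω * Gm F ln p lam μ q η τ ((i : ℕ) : ℤ) a ω) =
            ∑ ω, μ ω * ms (cnd μ (FV F lam) (FV F lam ω)) (fun ω' =>
              θ ≤ Pr μ (FV F lam) (FV F lam ω) ∧
              Gi1 q (cj F p ω ((i : ℕ) : ℤ) a) (Finset.Icc p.k₀ (p.k₀ + p.K)) η τ
              (cnd μ (FV F lam) (FV F lam ω)) ln ω') := by
          refine sum_congr rfl fun ω _ => ?_
          congr 1
          rw [hW]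
          simp only
          by_cases h : θ ≤ Pr μ (FV F lam) (FV F lam ω)
          · rw [if_pos h, one_mul]
            simp only [h, true_and]
            rfl
          · rw [if_neg h, zero_mul]
            simp only [h, false_and]
            unfold ms
            simp
        rw [e8, ← e7]
        refine ms_mono hμ fun ω hω h => ?_
        have _ : Nonempty (Fin (2 ^ p.PP)) := ⟨⟨0, by positivity⟩⟩
        obtain ⟨j, hj⟩ := Gi1_box hμ hω q η τ i a (Classical.arbitrary _) (Classical.arbitrary _)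
          h.1 h.2
        exact ⟨_, hj⟩
      calc ∑ a : Bool, ∑ ω, μ ω * (W ω * Gm F ln p lam μ q η τ ((i : ℕ) : ℤ) a ω)
          ≤ ∑ _a : Bool, ms μ (fun ω => ∃ κ : p.Kap, Big F ln p lam μ θ η (κ, i) ω ∧
          Gnt F ln p lam μ q τ (κ, i) ω) := sum_le_sum fun a _ => e6 a
        _ = 2 * ms μ (fun ω => ∃ κ : p.Kap, Big F ln p lam μ θ η (κ, i) ω ∧
          Gnt F ln p lam μ q τ (κ, i) ω) := by
            rw [sum_const, card_univ, Fintype.card_bool, nsmul_eq_mul]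
            norm_num
    rw [← Fin.sum_univ_eq_sum_range (fun i : ℕ => ∑ a : Bool, ∑ ω, μ ω *
        (W ω * Gm F ln p lam μ q η τ (i : ℤ) a ω)) p.nT]
    refine (sum_le_sum fun i _ => e5 i).trans ?_
    rw [← mul_sum]
    linarith
  have h3 : ms μ good = 1 - ms μ (fun ω => ¬ good ω) := by
    have := ms_not hμ good
    linarith
  have h4 : 5 / 8 ≤ ms μ good := by linarith
  have hn : (0 : ℝ) < p.nT := by exact_mod_cast p.nT_pos
  have h5 : c * (p.nT / 2) ≤ c * (p.nT * ms μ good - 4 * ∑ ω, μ ω * (W ω * Gs ω)) := by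
    refine mul_le_mul_of_nonneg_left ?_ hc
    nlinarith
  linarith

end frame

end Vale.Agent.P065.H725
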