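import Vale.Agent.P065.H725.Content

/-!
# P065: from the classes to the whole law (helper725)

`ν` is a law on flags, `Z` the typical flags, `μ` the law conditioned on `Z`, `V` the class
(piece, label). A lower bound for a functional of the conditional laws of the good classes gives a
lower bound for its average.
-/

set_option autoImplicit false

set_option linter.unusedSectionVars false

namespace Vale.Agent.P065.H725

open Finset Vale.Agent.P065.UB Vale.Agent.P065.UB.RankAux Vale.Agent.P065.H987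
  Vale.Agent.P065.H859 Vale.Agent.P065.Ent

variable {Ω υ : Type*} [Fintype Ω] {ν : Ω → ℝ}

theorem ms_cnd' (ν : Ω → ℝ) (V : Ω → υ) (v : υ) (Q : Ω → Prop) :
    ms (cnd ν V v) Q = ms ν (fun ω => V ω = v ∧ Q ω) / Pr ν V v := by
  classical
  unfold ms
  rw [sum_div]
  refine sum_congr rfl fun ω _ => ?_
  unfold cnd
  by_cases h1 : V ω = v <;> by_cases h2 : Q ω <;> simp [h1, h2]

theorem ms_fiber (μ : Ω → ℝ) (V : Ω → υ) [DecidableEq υ] (Q : Ω → Prop) :
    ms μ Q = ∑ v ∈ univ.image V, ms μ (fun ω => V ω = v ∧ Q ω) := by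
  classical
  unfold ms
  rw [sum_comm]
  refine sum_congr rfl fun ω _ => ?_
  by_cases hg : Q ω
  · simp [hg]
  · simp [hg]

/-- conditioning on the class and on the typical flags commute -/
theorem cnd_cE (hν : IsProb ν) (Z : Ω → Prop) (V : Ω → υ) (v : υ) (S : Ω → Prop)
    (hS : ∀ ω, V ω = v → (Z ω ↔ S ω)) (hpos : 0 < ms ν (fun ω => V ω = v ∧ Z ω)) :
    cnd (cE ν Z) V v = cE (cnd ν V v) S := by
  classical
  have h1 : Pr (cE ν Z) V v = ms ν (fun ω => V ω = v ∧ Z ω) / PE ν Z := by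
    rw [← ms_eq_Pr, ms_cE hν, ms_eq_PE ν Z]
    congr 1
    exact ms_congr hν fun ω _ => and_comm
  have h2 : PE (cnd ν V v) S = ms ν (fun ω => V ω = v ∧ Z ω) / Pr ν V v := by
    rw [← ms_eq_PE, ms_cnd']
    congr 1
    exact ms_congr hν fun ω _ => ⟨fun h => ⟨h.1, (hS ω h.1).2 h.2⟩, fun h => ⟨h.1, (hS ω h.1).1 h.2⟩⟩
  have h3 : 0 < PE ν Z := by
    rw [← ms_eq_PE]
    exact hpos.trans_le (ms_mono hν fun _ _ h => h.2)
  have h4 : 0 < Pr ν V v := by
    rw [← ms_eq_Pr]
    exact hpos.trans_le (ms_mono hν fun _ _ h => h.1)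
  funext ω
  by_cases hv : V ω = v
  · by_cases hz : Z ω
    · have hs : S ω := (hS ω hv).1 hz
      have e1 : cE ν Z ω = ν ω / PE ν Z := by
        show cnd ν Z True ω = _
        rw [cnd, if_pos (eq_true hz)]
      have e2 : cnd ν V v ω = ν ω / Pr ν V v := by rw [cnd, if_pos hv]
      have e3 : cE (cnd ν V v) S ω = cnd ν V v ω / PE (cnd ν V v) S := by
        show cnd (cnd ν V v) S True ω = _
        rw [cnd, if_pos (eq_true hs)]
      rw [e3, e2, h2]
      have e4 : cnd (cE ν Z) V v ω = cE ν Z ω / Pr (cE ν Z) V v := by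
        conv_lhs => rw [cnd, if_pos hv]
      rw [e4, e1, h1]
      field_simp
    · have hs : ¬ S ω := fun h => hz ((hS ω hv).2 h)
      have e1 : cE ν Z ω = 0 := by
        show cnd ν Z True ω = _
        rw [cnd, if_neg (by rw [eq_false hz]; simp)]
      have e3 : cE (cnd ν V v) S ω = 0 := by
        show cnd (cnd ν V v) S True ω = _
        rw [cnd, if_neg (by rw [eq_false hs]; simp)]
      have e4 : cnd (cE ν Z) V v ω = cE ν Z ω / Pr (cE ν Z) V v := by
        conv_lhs => rw [cnd, if_pos hv]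
      rw [e3, e4, e1, zero_div]
  · have e2 : cnd ν V v ω = 0 := by rw [cnd, if_neg hv]
    have e4 : cnd (cE ν Z) V v ω = 0 := by
      conv_lhs => rw [cnd, if_neg hv]
    have e3 : cE (cnd ν V v) S ω = 0 := by
      show cnd (cnd ν V v) S True ω = _
      unfold cnd
      split_ifs <;> simp
    rw [e3, e4]

/-- the mass of an event under the law conditioned on the typical flags -/
theorem ms_cE_le (hν : IsProb ν) (Z Q : Ω → Prop) :
    ms (cE ν Z) Q ≤ ms ν Q / PE ν Z := by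
  rw [ms_cE hν, ms_eq_PE ν Z]
  exact div_le_div_of_nonneg_right (ms_mono hν fun _ _ h => h.2) (Pr_nonneg hν _ _)

/-- classes in which the typical flags are rare have small mass -/
theorem ms_thin_le (hν : IsProb ν) (Z : Ω → Prop) (V : Ω → υ) {δ : ℝ} (hδ : 0 ≤ δ) :
    ms (cE ν Z) (fun ω => PE (cnd ν V (V ω)) Z < δ) ≤ δ / PE ν Z := by
  classical
  rw [ms_cE hν, ms_eq_PE ν Z]
  refine div_le_div_of_nonneg_right ?_ (Pr_nonneg hν _ _)
  have h1 : ms ν (fun ω => Z ω ∧ PE (cnd ν V (V ω)) Z < δ) =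
      ∑ ω, ν ω * (if Z ω ∧ PE (cnd ν V (V ω)) Z < δ then 1 else 0) := by
    rw [ms_eq]
    refine sum_congr rfl fun ω _ => ?_
    split_ifs <;> simp
  rw [h1, sum_cnd_fiber hν V
    (fun v ω => if Z ω ∧ PE (cnd ν V v) Z < δ then (1 : ℝ) else 0)]
  have h2 : ∀ v ∈ univ.image V, Pr ν V v * ∑ ω, cnd ν V v ω *
      (if Z ω ∧ PE (cnd ν V v) Z < δ then (1 : ℝ) else 0) ≤ Pr ν V v * δ := by
    intro v _
    rcases (Pr_nonneg hν V v).eq_or_lt with h0 | h0
    · rw [← h0, zero_mul, zero_mul]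
    refine mul_le_mul_of_nonneg_left ?_ h0.le
    by_cases hv : PE (cnd ν V v) Z < δ
    · have e : ∑ ω, cnd ν V v ω * (if Z ω ∧ PE (cnd ν V v) Z < δ then (1 : ℝ) else 0) =
          ∑ ω, (if Z ω then cnd ν V v ω else 0) := by
        refine sum_congr rfl fun ω _ => ?_
        by_cases hz : Z ω
        · rw [if_pos ⟨hz, hv⟩, if_pos hz, mul_one]
        · rw [if_neg (fun h => hz h.1), if_neg hz, mul_zero]
      rw [e, ← PE_eq]
      exact hv.le
    · refine le_trans (le_of_eq (sum_eq_zero fun ω _ => ?_)) hδ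
      rw [if_neg (fun h => hv h.2), mul_zero]
  refine (sum_le_sum h2).trans (le_of_eq ?_)
  rw [← sum_mul]
  have h3 := sum_cnd_fiber hν V (fun _ _ => (1 : ℝ))
  simp only [mul_one] at h3
  have h4 : ∑ v ∈ univ.image V, Pr ν V v = 1 := by
    rw [← hν.sum, h3]
    refine sum_congr rfl fun v hv => ?_
    rcases (Pr_nonneg hν V v).eq_or_lt with h0 | h0
    · rw [← h0, zero_mul]
    · rw [(cnd_isProb hν h0).sum, mul_one]
  rw [h4, one_mul]

/-- **averaging over the classes** -/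
theorem avg_lower (hν : IsProb ν) {Z : Ω → Prop} (hZ : 0 < PE ν Z) (V : Ω → υ)
    [DecidableEq υ] {rich : Ω → Prop}
    {b δ c : ℝ} (hδ : 0 < δ) (hc : 0 ≤ c)
    (hb : PE ν (fun ω => ¬ rich ω) ≤ b) (F : υ → Ω → ℝ)
    (hF0 : ∀ v, 0 ≤ ∑ ω, cnd (cE ν Z) V v ω * F v ω)
    (hF : ∀ ω₀, Z ω₀ → 0 < ν ω₀ → rich ω₀ → δ ≤ PE (cnd ν V (V ω₀)) Z →
      c ≤ ∑ ω, cnd (cE ν Z) V (V ω₀) ω * F (V ω₀) ω) :
    c * (1 - (b + δ) / PE ν Z) ≤ ∑ ω, cE ν Z ω * F (V ω) ω := by
  classical
  set μ := cE ν Z with hμ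
  have hμp : IsProb μ := cnd_isProb hν hZ
  -- the good flags
  set G : Ω → Prop := fun ω => rich ω ∧ ¬ PE (cnd ν V (V ω)) Z < δ with hG
  have h1 : 1 - (b + δ) / PE ν Z ≤ ms μ G := by
    have h2 : ms μ (fun ω => ¬ G ω) ≤ (b + δ) / PE ν Z := by
      have h3 : ms μ (fun ω => ¬ G ω) ≤ ms μ (fun ω => ¬ rich ω ∨ PE (cnd ν V (V ω)) Z < δ) := by
        refine ms_mono hμp fun ω _ h => ?_
        by_contra hc
        push Not at hc
        exact h ⟨hc.1, not_lt.2 hc.2⟩
      refine h3.trans ((ms_or_le hμp _ _).trans ?_)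
      rw [add_div]
      refine add_le_add ((ms_cE_le hν Z _).trans ?_) (ms_thin_le hν Z V hδ.le)
      rw [ms_eq_PE]
      exact div_le_div_of_nonneg_right hb hZ.le
    rw [ms_not hμp] at h2
    linarith
  have h2 : ∀ v ∈ univ.image V, c * ms μ (fun ω => V ω = v ∧ G ω) ≤
      Pr μ V v * ∑ ω, cnd μ V v ω * F v ω := by
    intro v _
    by_cases hex : ∃ ω, 0 < μ ω ∧ V ω = v ∧ G ω
    · obtain ⟨ω₀, h3, rfl, h5, h6⟩ := hex
      have h7 : c * ms μ (fun ω => V ω = V ω₀ ∧ G ω) ≤ c * Pr μ V (V ω₀) := by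
        refine mul_le_mul_of_nonneg_left ?_ hc
        rw [← ms_eq_Pr]
        exact ms_mono hμp fun ω _ h => h.1
      refine h7.trans ?_
      rw [mul_comm]
      refine mul_le_mul_of_nonneg_left ?_ (Pr_nonneg hμp _ _)
      have h8 : Z ω₀ := by
        have h10 := cnd_pos h3
        rw [h10]
        trivial
      have h9 : 0 < ν ω₀ := by
        rcases (hν.nonneg ω₀).eq_or_lt with h0 | h0
        · exfalso
          have h10 : μ ω₀ = 0 := by
            show cnd ν Z True ω₀ = 0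
            unfold cnd
            rw [← h0, zero_div]
            split_ifs <;> rfl
          exact absurd h3 (by rw [h10]; exact lt_irrefl _)
        · exact h0
      exact hF ω₀ h8 h9 h5 (not_lt.1 h6)
    · have h3 : ms μ (fun ω => V ω = v ∧ G ω) = 0 := by
        refine le_antisymm ?_ (ms_nonneg hμp _)
        by_contra hc
        obtain ⟨ω, h4, h5⟩ := ms_pos_iff (not_le.1 hc)
        exact hex ⟨ω, h4, h5⟩
      rw [h3, mul_zero]
      exact mul_nonneg (Pr_nonneg hμp _ _) (hF0 v)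
  have h3 := ms_fiber μ V G
  rw [sum_cnd_fiber hμp V F]
  calc c * (1 - (b + δ) / PE ν Z) ≤ c * ms μ G := mul_le_mul_of_nonneg_left h1 hc
    _ = ∑ v ∈ univ.image V, c * ms μ (fun ω => V ω = v ∧ G ω) := by rw [h3, mul_sum]
    _ ≤ _ := sum_le_sum h2

end Vale.Agent.P065.H725
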