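import Vale.Agent.P065.H725.Poles

/-!
# P065: the content lemma with many reference times (helper725), following helper60

The window is covered by the intervals `|x - xr r| ≤ τ`; the cells are squares in the planes
(slope, height at `xr r` divided by `τ`).
-/

set_option autoImplicit false

namespace Vale.Agent.P065.H725

open Finset Vale.Agent.P065.UB Vale.Agent.P065.UB.RankAux Vale.Agent.P065.H987
  Vale.Agent.P065.H859 Vale.Agent.P065.Ent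

/-- lines which change their order meet at some time of the window -/
theorem Cr.exists_meet {x0 x1 : ℝ} (hx : x0 ≤ x1) {u v : Pt} (h : Cr x0 x1 u v) :
    ∃ x, x0 ≤ x ∧ x ≤ x1 ∧ ht x u = ht x v := by
  have hs := h.mul_nonpos
  have hcont : Continuous fun x : ℝ => ht x u - ht x v := by
    unfold ht
    fun_prop
  have hz : ∃ x ∈ Set.Icc x0 x1, ht x u - ht x v = 0 := by
    rcases le_total (ht x0 u - ht x0 v) 0 with h0 | h0
    · rcases le_total (ht x1 u - ht x1 v) 0 with h1 | h1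
      · -- both nonpositive: one of them vanishes
        have : ht x0 u - ht x0 v = 0 ∨ ht x1 u - ht x1 v = 0 := by
          rw [← mul_eq_zero]
          exact le_antisymm hs (mul_nonneg_of_nonpos_of_nonpos h0 h1)
        rcases this with h2 | h2
        · exact ⟨x0, ⟨le_rfl, hx⟩, h2⟩
        · exact ⟨x1, ⟨hx, le_rfl⟩, h2⟩
      · exact intermediate_value_Icc hx hcont.continuousOn ⟨h0, h1⟩
    · rcases le_total (ht x1 u - ht x1 v) 0 with h1 | h1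
      · exact intermediate_value_Icc' hx hcont.continuousOn ⟨h1, h0⟩
      · have : ht x0 u - ht x0 v = 0 ∨ ht x1 u - ht x1 v = 0 := by
          rw [← mul_eq_zero]
          exact le_antisymm hs (mul_nonneg h0 h1)
        rcases this with h2 | h2
        · exact ⟨x0, ⟨le_rfl, hx⟩, h2⟩
        · exact ⟨x1, ⟨hx, le_rfl⟩, h2⟩
  obtain ⟨x, hx, h1⟩ := hz
  exact ⟨x, hx.1, hx.2, by linarith⟩

/-- heights of two lines at a time close to their meeting time -/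
theorem abs_ht_sub_le {x xr τ : ℝ} {u v : Pt} (h : ht x u = ht x v) (hx : |xr - x| ≤ τ) :
    |ht xr u - ht xr v| ≤ τ * |u.1 - v.1| := by
  have e : ht xr u - ht xr v = -((xr - x) * (u.1 - v.1)) := by
    have h1 : ht xr u - ht xr v = (ht x u - ht x v) - (xr - x) * (u.1 - v.1) := by
      unfold ht
      ring
    rw [h1, h]
    ring
  rw [e, abs_neg, abs_mul]
  exact mul_le_mul_of_nonneg_right hx (abs_nonneg _)

/-- squares for many reference times -/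
noncomputable def sqF {m : ℕ} (θs : ℝ) (θh : Fin m → ℝ) (k₀ : ℤ) (xr : Fin m → ℝ) (τ : ℝ)
    (a : Fin m × (Bool × Bool)) (k : ℤ) (v : Pt) : ℤ × ℤ :=
  sq4 θs (θh a.1) k₀ (xr a.1) τ a.2 k v

/-- **separation** by the squares with many reference times -/
theorem sqF_sep {m : ℕ} (θs : ℝ) (θh : Fin m → ℝ) (k₀ : ℤ) {x0 x1 τ : ℝ} (hx : x0 ≤ x1)
    (hτ : 0 < τ) {xr : Fin m → ℝ} (hxr : ∀ x, x0 ≤ x → x ≤ x1 → ∃ r, |xr r - x| ≤ τ) {u v : Pt}
    (h : Cr x0 x1 u v) (hne : u.1 ≠ v.1) (htop : |u.1 - v.1| ≤ 2 ^ (-k₀) / 3) :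
    ∃ a, ∃ k, k₀ ≤ k ∧ sqF θs θh k₀ xr τ a k u = sqF θs θh k₀ xr τ a k v ∧
      (2 : ℝ) ^ (-k) / 6 < |u.1 - v.1| ∧ |u.1 - v.1| ≤ 2 ^ (-k) / 3 := by
  obtain ⟨x, h0, h1, h2⟩ := h.exists_meet hx
  obtain ⟨r, hr⟩ := hxr x h0 h1
  have hδ : 0 < |u.1 - v.1| := abs_pos.2 (sub_ne_zero.2 hne)
  obtain ⟨k, hk1, hk2⟩ := exists_scale hδ
  have hkk : k₀ ≤ k := by
    by_contra hc
    push Not at hc
    have h2 : (2 : ℝ) ^ (-k₀) / 3 ≤ 2 ^ (-k) / 6 := by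
      have h3 : (2 : ℝ) ^ (-k₀) ≤ 2 ^ (-k - 1) := zpow_le_zpow_right₀ (by norm_num) (by omega)
      rw [zpow_sub₀ (by norm_num), zpow_one] at h3
      linarith
    linarith
  have hc := abs_ht_sub_le h2 hr
  have hh : |ht (xr r) u / τ - ht (xr r) v / τ| ≤ 2 ^ (-k) / 3 := by
    rw [← sub_div, abs_div, abs_of_pos hτ, div_le_iff₀ hτ]
    nlinarith
  obtain ⟨a1, ha1⟩ : ∃ a1 : Bool, dy (θs + if a1 then 2 ^ (-k₀) / 3 else 0) k u.1 =
      dy (θs + if a1 then 2 ^ (-k₀) / 3 else 0) k v.1 := by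
    rcases third (θ := θs) hkk hk1 with h2 | h2
    · exact ⟨false, by simpa using h2⟩
    · exact ⟨true, by simpa using h2⟩
  obtain ⟨a2, ha2⟩ : ∃ a2 : Bool,
      dy (θh r + if a2 then 2 ^ (-k₀) / 3 else 0) k (ht (xr r) u / τ) =
      dy (θh r + if a2 then 2 ^ (-k₀) / 3 else 0) k (ht (xr r) v / τ) := by
    rcases third (θ := θh r) hkk hh with h2 | h2
    · exact ⟨false, by simpa using h2⟩
    · exact ⟨true, by simpa using h2⟩
  exact ⟨(r, (a1, a2)), k, hkk, Prod.ext ha1 ha2, hk2, hk1⟩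

/-- the content with many reference times is the sum of the contents -/
theorem contentG_sqF {Ω : Type*} [Fintype Ω] {m : ℕ} (θs : ℝ) (θh : Fin m → ℝ) (k₀ : ℤ)
    (xr : Fin m → ℝ) (τ : ℝ) (near : Fin m → Bool × Bool → ℤ → ℤ × ℤ → Pt → Pt → Prop)
    (ν : Ω → ℝ) (ln : Ω → Pt) (Gd : Pt → Prop) (K : Finset ℤ) (η : ℝ) :
    contentG (sqF θs θh k₀ xr τ) (fun a => near a.1 a.2) ν ln Gd K η =
      ∑ r : Fin m, contentG (sq4 θs (θh r) k₀ (xr r) τ) (near r) ν ln Gd K η := by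
  unfold contentG
  rw [Fintype.sum_prod_type]
  rfl

variable {p w : ℕ}

/-- **the content lemma with many reference times for a greedy class**: `near` is the slope
relation -/
theorem content_cls_fine {U : UFlags p w} {ι ζ : Type*} {Wn : Fin p × Fin w → ι} {γ δ : ℝ}
    {L : Fin p × Fin w → ζ} (hγ0 : 0 ≤ γ) (hγ1 : γ ≤ 1) (hδ : δ ≤ 1)
    (hX : Det (Prod.fst : Fin p × Fin w → Fin p) Wn)
    (h : Opt U Wn γ δ L) (ω₀ : Fin p × Fin w) {Q : ℝ} (hQ : 0 < Q)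
    (hfl : Q * U.sz (fun ω => (Wn ω, L ω)) ω₀ ≤
      p * w * Pr U.μ (fun ω => (Wn ω, L ω)) (Wn ω₀, L ω₀))
    (hat : ∀ ω', (Wn ω', L ω') = (Wn ω₀, L ω₀) →
      Q * Pr U.μ (fun ω => ((Wn ω, L ω), U.ln ω)) ((Wn ω₀, L ω₀), U.ln ω') ≤
      Pr U.μ (fun ω => (Wn ω, L ω)) (Wn ω₀, L ω₀))
    {x0 x1 : ℝ} (hx : ∀ ω, (Wn ω, L ω) = (Wn ω₀, L ω₀) → x0 < U.tm ω ∧ U.tm ω < x1)
    (A : Pt → Prop)
    (hp : 0 < ms (cnd U.μ (fun ω => (Wn ω, L ω)) (Wn ω₀, L ω₀)) (fun ω => A (U.ln ω)))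
    {m : ℕ} {τ : ℝ} (hτ : 0 < τ) (xr : Fin m → ℝ)
    (hxr : ∀ x, x0 ≤ x → x ≤ x1 → ∃ r, |xr r - x| ≤ τ)
    (θs : ℝ) (θh : Fin m → ℝ) (k₀ k₁ : ℤ)
    (htop : ∀ ω ω', (Wn ω, L ω) = (Wn ω₀, L ω₀) → (Wn ω', L ω') = (Wn ω₀, L ω₀) →
      |(U.ln ω').1 - (U.ln ω).1| ≤ 2 ^ (-k₀) / 3)
    (hbot : ∀ ω ω', (Wn ω, L ω) = (Wn ω₀, L ω₀) → (Wn ω', L ω') = (Wn ω₀, L ω₀) →
      (U.ln ω').1 ≠ (U.ln ω).1 → (2 : ℝ) ^ (-k₁) / 6 < |(U.ln ω').1 - (U.ln ω).1|)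
    (Gd : Pt → Prop)
    (hG : 0 < ms (cE (cnd U.μ (fun ω => (Wn ω, L ω)) (Wn ω₀, L ω₀)) (fun ω => A (U.ln ω)))
      (fun ω => Gd (U.ln ω)))
    {η : ℝ} (hη : 0 < η) (hη1 : η ≤ 1 / 2)
    (hQη : 16 * Real.log (1 / η) ≤
      Q * ms (cnd U.μ (fun ω => (Wn ω, L ω)) (Wn ω₀, L ω₀)) (fun ω => A (U.ln ω)) * η) :
    (1 - γ) * Real.log (1 / η) ≤ 2 * Real.log (1 /
        ms (cnd U.μ (fun ω => (Wn ω, L ω)) (Wn ω₀, L ω₀)) (fun ω => A (U.ln ω))) +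
      Real.log m + 15 +
      4 * (Real.log (1 / ms (cE (cnd U.μ (fun ω => (Wn ω, L ω)) (Wn ω₀, L ω₀))
          (fun ω => A (U.ln ω))) (fun ω => Gd (U.ln ω))) +
        (∑ r : Fin m, contentG (sq4 θs (θh r) k₀ (xr r) τ)
          (fun _ k _ v c => |v.1 - c.1| ≤ 2 ^ (-k) / 12)
          (cE (cnd U.μ (fun ω => (Wn ω, L ω)) (Wn ω₀, L ω₀))
          (fun ω => A (U.ln ω))) U.ln Gd (Finset.Icc k₀ k₁) η) /
        ms (cE (cnd U.μ (fun ω => (Wn ω, L ω)) (Wn ω₀, L ω₀))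
          (fun ω => A (U.ln ω))) (fun ω => Gd (U.ln ω))) := by
  have hx01 : x0 < x1 := (hx ω₀ rfl).1.trans (hx ω₀ rfl).2
  have hm0 : 0 < m := by
    obtain ⟨r, -⟩ := hxr x0 le_rfl hx01.le
    exact r.pos
  have hne : Nonempty (Fin m × (Bool × Bool)) := ⟨(⟨0, hm0⟩, (false, false))⟩
  have key := content_clsG hγ0 hγ1 hδ hX h ω₀ hQ hfl hat hx A hp (sqF θs θh k₀ xr τ)
    (fun a k z v c => |v.1 - c.1| ≤ 2 ^ (-k) / 12)
    (fun a k z v => by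
      rw [sub_self, abs_zero]
      positivity) (Finset.Icc k₀ k₁)
    (fun a k _ k' _ hkk u v huv => sq4_nest θs (θh a.1) k₀ (xr a.1) τ a.2 hkk huv) Gd hG
    (by
      intro ω ω' hω hω' _ _ _ _ hne hcr
      obtain ⟨a, k, hk, h2, h3, h4⟩ := sqF_sep θs θh k₀ hx01.le hτ hxr hcr hne
        (htop ω ω' hω hω')
      refine ⟨a, k, Finset.mem_Icc.2 ⟨hk, ?_⟩, h2, ?_⟩
      · by_contra hc
        push Not at hc
        have h5 := hbot ω ω' hω hω' hne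
        have h6 : (2 : ℝ) ^ (-k) / 3 ≤ 2 ^ (-k₁) / 6 := by
          have h7 : (2 : ℝ) ^ (-k) ≤ 2 ^ (-k₁ - 1) := zpow_le_zpow_right₀ (by norm_num) (by omega)
          rw [zpow_sub₀ (by norm_num), zpow_one] at h7
          linarith
        linarith
      · rintro c ⟨h5, h6⟩
        have h7 := abs_sub_le (U.ln ω').1 c.1 (U.ln ω).1
        rw [abs_sub_comm c.1 (U.ln ω).1] at h7
        linarith)
    hη hη1 hQη
  have hmR : (0 : ℝ) < m := by exact_mod_cast hm0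
  have h2 : Real.log (4 * Fintype.card (Fin m × (Bool × Bool))) ≤ Real.log m + 3 := by
    have e : (4 * (Fintype.card (Fin m × (Bool × Bool)) : ℝ)) = m * 16 := by
      simp
      ring
    rw [e, Real.log_mul hmR.ne' (by norm_num)]
    have h5 : Real.log 16 ≤ 3 := by
      rw [Real.log_le_iff_le_exp (by norm_num)]
      have h3 := Real.exp_one_gt_d9
      have h4 : Real.exp 3 = Real.exp 1 ^ 3 := by
        rw [← Real.exp_nat_mul]; norm_num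
      rw [h4]
      calc (16 : ℝ) ≤ 2.7 ^ 3 := by norm_num
        _ ≤ Real.exp 1 ^ 3 := pow_le_pow_left₀ (by norm_num) (by linarith) 3
    linarith
  rw [contentG_sqF θs θh k₀ xr τ (fun _ _ k _ v c => |v.1 - c.1| ≤ 2 ^ (-k) / 12)] at key
  linarith

end Vale.Agent.P065.H725
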