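import Vale.Agent.P065.H725.Cells
import Vale.Agent.P065.H725.Conv
import Vale.Agent.P065.H859.LocDef

/-!
# P065: columns of one class (helper725)
-/

set_option autoImplicit false

set_option linter.unusedSectionVars false

namespace Vale.Agent.P065.H725

open Finset Vale.Agent.P065.UB Vale.Agent.P065.UB.RankAux Vale.Agent.P065.H987
  Vale.Agent.P065.H859 Vale.Agent.P065.Ent

/-! ## one system -/

section one

variable {Ω : Type*} [Fintype Ω] {ζ β : Type*} [Fintype β]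

open Classical in
/-- the weights of one system -/
noncomputable def Sc1 (c : ℤ → Pt → ζ) (bl : ℤ → Pt → β) (adm : β → β → Prop)
    (K : Finset ℤ) (η ε : ℝ) (ν : Ω → ℝ) (ln : Ω → Pt) : ℝ :=
  ∑ k ∈ K, ∑ ω, ν ω *
    (if η ≤ cm (fun _ : Unit => c) ν ln () k ω then
      pw (fun _ : Unit => c) (fun _ => bl) adm ε ν ln () k ω else 0)

/-- the flag is a giant of a big cell of the system -/
def Gi1 (q : ℕ) (c : ℤ → Pt → ζ) (K : Finset ℤ) (η τ : ℝ) (ν : Ω → ℝ) (ln : Ω → Pt) (ω : Ω) :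
    Prop :=
  ∃ k ∈ K, η ≤ cm (fun _ : Unit => c) ν ln () k ω ∧ Gia q (fun _ : Unit => c) τ ν ln () k ω

theorem cm_congr {c : ℤ → Pt → ζ} {ζ' : Type*} {c' : ℤ → Pt → ζ'} (k : ℤ)
    (h : ∀ u v, c k u = c k v ↔ c' k u = c' k v) (ν : Ω → ℝ) (ln : Ω → Pt) (ω : Ω) :
    cm (fun _ : Unit => c) ν ln () k ω = cm (fun _ : Unit => c') ν ln () k ω := by
  unfold cm
  congr 1
  funext ω'
  exact propext (h _ _)

theorem sh_congr {c : ℤ → Pt → ζ} {ζ' : Type*} {c' : ℤ → Pt → ζ'} (bl : ℤ → Pt → β) (k : ℤ)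
    (h : ∀ u v, c k u = c k v ↔ c' k u = c' k v) (ν : Ω → ℝ) (ln : Ω → Pt) (ω : Ω) (b : β) :
    sh (fun _ : Unit => c) (fun _ => bl) ν ln () k ω b =
      sh (fun _ : Unit => c') (fun _ => bl) ν ln () k ω b := by
  unfold sh
  rw [cm_congr k h]
  congr 2
  funext ω'
  rw [h]

theorem Sc1_congr {c : ℤ → Pt → ζ} {ζ' : Type*} {c' : ℤ → Pt → ζ'} (bl : ℤ → Pt → β)
    (adm : β → β → Prop) {K : Finset ℤ} (h : ∀ k ∈ K, ∀ u v, c k u = c k v ↔ c' k u = c' k v)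
    (η ε : ℝ) (ν : Ω → ℝ) (ln : Ω → Pt) :
    Sc1 c bl adm K η ε ν ln = Sc1 c' bl adm K η ε ν ln := by
  classical
  unfold Sc1
  refine sum_congr rfl fun k hk => sum_congr rfl fun ω _ => ?_
  congr 1
  unfold pw
  simp only [cm_congr k (h k hk), sh_congr bl k (h k hk)]

theorem Gi1_congr (q : ℕ) {c : ℤ → Pt → ζ} {ζ' : Type*} {c' : ℤ → Pt → ζ'}
    {K : Finset ℤ} (h : ∀ k ∈ K, ∀ u v, c k u = c k v ↔ c' k u = c' k v)
    (η τ : ℝ) (ν : Ω → ℝ) (ln : Ω → Pt) (ω : Ω) :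
    Gi1 q c K η τ ν ln ω ↔ Gi1 q c' K η τ ν ln ω := by
  unfold Gi1 Gia nm
  constructor
  · rintro ⟨k, hk, h1, h2⟩
    refine ⟨k, hk, ?_, ?_⟩
    · rwa [← cm_congr k (h k hk)]
    · rw [← cm_congr k (h k hk)]
      simpa only [h k hk] using h2
  · rintro ⟨k, hk, h1, h2⟩
    refine ⟨k, hk, ?_, ?_⟩
    · rwa [cm_congr k (h k hk)]
    · rw [cm_congr k (h k hk)]
      simpa only [h k hk] using h2

theorem Sc1_nonneg (c : ℤ → Pt → ζ) (bl : ℤ → Pt → β) (adm : β → β → Prop)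
    (K : Finset ℤ) (η ε : ℝ) {ν : Ω → ℝ} (hν : IsProb ν) (ln : Ω → Pt) :
    0 ≤ Sc1 c bl adm K η ε ν ln := by
  classical
  unfold Sc1
  refine sum_nonneg fun k _ => sum_nonneg fun ω _ => mul_nonneg (hν.nonneg ω) ?_
  split_ifs
  · exact pw_nonneg hν _ _ _
  · exact le_rfl

theorem Sc_eq {α : Type*} [Fintype α] (cel : α → ℤ → Pt → ζ) (bl : α → ℤ → Pt → β)
    (adm : β → β → Prop) (K : Finset ℤ) (η ε : ℝ) (ν : Ω → ℝ) (ln : Ω → Pt) :
    Sc cel bl adm K η ε ν ln = ∑ a, Sc1 (cel a) (bl a) adm K η ε ν ln := rfl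

/-- the flags whose line is a giant -/
theorem ms_not_NoGia {α : Type*} [Fintype α] (q : ℕ) (cel : α → ℤ → Pt → ζ) (K : Finset ℤ)
    (η τ : ℝ) {ν : Ω → ℝ} (hν : IsProb ν) (ln : Ω → Pt) :
    ms ν (fun ω => ¬ NoGia q cel K η τ ν ln (ln ω)) ≤
      ∑ a, ms ν (fun ω => Gi1 q (cel a) K η τ ν ln ω) := by
  classical
  have h1 : ms ν (fun ω => ¬ NoGia q cel K η τ ν ln (ln ω)) ≤
      ms ν (fun ω => ∃ a, Gi1 q (cel a) K η τ ν ln ω) := by
    refine ms_mono hν fun ω _ h => ?_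
    unfold NoGia at h
    push Not at h
    obtain ⟨ω', h1, -, a, k, hk, h3, h4⟩ := h
    refine ⟨a, k, hk, ?_, ?_⟩
    · have e : cm (fun _ : Unit => cel a) ν ln () k ω = cm cel ν ln a k ω' := by
        unfold cm
        rw [h1]
      rw [e]
      exact h3
    · unfold Gia cm nm at h4 ⊢
      simp only [h1] at h4 ⊢
      exact h4
  refine h1.trans ?_
  rw [ms_eq, sum_congr rfl fun a _ => ms_eq ν (fun ω => Gi1 q (cel a) K η τ ν ln ω), sum_comm]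
  refine sum_le_sum fun ω _ => ?_
  have hnn : ∀ (a : α), 0 ≤ if Gi1 q (cel a) K η τ ν ln ω then ν ω else 0 := by
    intro a
    split_ifs
    · exact hν.nonneg ω
    · exact le_rfl
  by_cases h : ∃ a, Gi1 q (cel a) K η τ ν ln ω
  · rw [if_pos h]
    obtain ⟨a, ha⟩ := h
    have h3 := single_le_sum (f := fun a => if Gi1 q (cel a) K η τ ν ln ω then ν ω else 0)
      (fun a _ => hnn a) (mem_univ a)
    rw [if_pos ha] at h3
    exact h3
  · rw [if_neg h]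
    exact sum_nonneg fun a _ => hnn a

end one

/-! ## periodic sums -/

theorem periodic_sum (G : ℤ → ℝ) (n : ℕ) (hG : ∀ j, G (j + n) = G j) (s : ℕ) :
    ∑ i ∈ range n, G (i + s) = ∑ i ∈ range n, G i := by
  induction s with
  | zero => simp
  | succ s ih =>
    rw [← ih]
    have h1 : ∑ i ∈ range n, (G ((i : ℤ) + (s + 1 : ℕ)) - G (i + s)) = 0 := by
      have e : ∀ i : ℕ, G ((i : ℤ) + (s + 1 : ℕ)) - G (i + s) =
          (fun m : ℕ => G (m + s)) (i + 1) - (fun m : ℕ => G (m + s)) i := by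
        intro i
        simp only
        congr 2
        push_cast
        ring
      rw [sum_congr rfl fun i _ => e i, sum_range_sub (fun m : ℕ => G (m + s)) n]
      have h2 := hG s
      rw [add_comm] at h2
      rw [sub_eq_zero, h2]
      simp
    rw [sum_sub_distrib] at h1
    linarith

/-! ## one class -/

/-- the blocks of the four systems -/
noncomputable def b4 (k₀ : ℤ) (P : ℕ) (a : Bool × Bool) (k : ℤ) (v : Pt) : Fin (2 ^ P) :=
  blk (H154.os k₀ a.1) P k v.1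

variable {B₀ : ℕ} {c₁ c₂ ρ γ ε₂ ε₃ b A : ℝ} {K₁ n g : ℕ}

/-- the class -/
def LV (L : Loc B₀ c₁ c₂ ρ γ ε₂ ε₃ b A K₁ n g) (ω : L.Ω) : ℕ × L.Lab := (L.P.W n ω, L.lam ω)

/-- **lower bound for the weights of one rich class without giants** -/
theorem loc_class (L : Loc B₀ c₁ c₂ ρ γ ε₂ ε₃ b A K₁ n g) {ω₀ : L.Ω} (hr : L.rich ω₀)
    {δ : ℝ} (hδ : 0 < δ) (hZ : δ ≤ PE (cnd L.ν (LV L) (LV L ω₀)) L.Z)
    {x : ℝ} {T : ℤ} {q : ℕ} (hx : ∀ y, L.lo ω₀ ≤ y → y ≤ L.hi ω₀ → |x - y| ≤ 2 ^ q * 2 ^ (-T))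
    {k₀ k₁ : ℤ}
    (htop : ∀ ω ω' : L.Ω, |(L.ln ω').1 - (L.ln ω).1| ≤ 2 ^ (-(k₀ + q)) / 3)
    (hbot : ∀ ω ω' : L.Ω, (L.ln ω').1 ≠ (L.ln ω).1 →
      (2 : ℝ) ^ (-(k₁ + q)) / 6 < |(L.ln ω').1 - (L.ln ω).1|)
    (φ : Bool → ℝ) {η τ ε : ℝ} (hη : 0 < η) (hη1 : η ≤ 1 / 2) (hτ0 : 0 < τ) (hτ : τ ≤ 1 / 2)
    {P : ℕ} (hP : 6 + q ≤ P)
    (hε : 4 * ((2 : ℝ) ^ P) ^ 2 * ε ≤ τ) (hε0 : 0 < ε)
    (hA : 16 * Real.log (1 / η) ≤ A * δ * η) (hA0 : 0 < A)
    (hG : 1 / 2 ≤ ms (cnd (cE L.ν L.Z) (LV L) (LV L ω₀)) (fun ω =>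
      NoGia q (c4 k₀ φ T (fun v => - ht x v)) (Finset.Icc k₀ k₁) η τ
        (cnd (cE L.ν L.Z) (LV L) (LV L ω₀)) L.ln (L.ln ω))) :
    ((1 - γ) * Real.log (1 / η) - 2 * Real.log (1 / δ) - 15) / 8 - 1 -
        8 * ((6 + q : ℕ) * (Real.log (1 / η) / Real.log (1 / τ) + 1)) ≤
      (4 * ((2 : ℝ) ^ P) ^ 3 + 4) * Sc (c4 k₀ φ T (fun v => - ht x v)) (b4 k₀ P) (Adm q P)
        (Finset.Icc k₀ k₁) η ε (cnd (cE L.ν L.Z) (LV L) (LV L ω₀)) L.ln := by
  classical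
  set V := LV L with hV
  set v := V ω₀ with hv
  -- the set of lines
  set S : Pt → Prop := fun l => ∃ ω, V ω = v ∧ L.ln ω = l ∧ L.Z ω with hS
  have hSZ : ∀ ω, V ω = v → (L.Z ω ↔ S (L.ln ω)) := by
    intro ω h
    refine ⟨fun h1 => ⟨ω, h, rfl, h1⟩, ?_⟩
    rintro ⟨ω', h1, h2, h3⟩
    have h4 : L.P.W n ω' = L.P.W n ω := by
      have := h1.trans h.symm
      exact (Prod.mk.inj this).1
    exact L.Z_congr ω' ω h4 h2 h3
  have hPrV : 0 < Pr L.ν V v := Pr_pos L.prob V (L.pos ω₀)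
  have hpos : 0 < ms L.ν (fun ω => V ω = v ∧ L.Z ω) := by
    have h1 : PE (cnd L.ν V v) L.Z = ms L.ν (fun ω => V ω = v ∧ L.Z ω) / Pr L.ν V v := by
      rw [← ms_eq_PE, ms_cnd']
    have h2 : 0 < PE (cnd L.ν V v) L.Z := hδ.trans_le hZ
    rw [h1] at h2
    by_contra hc
    have h3 : ms L.ν (fun ω => V ω = v ∧ L.Z ω) / Pr L.ν V v ≤ 0 :=
      div_nonpos_of_nonpos_of_nonneg (not_lt.1 hc) hPrV.le
    linarith
  have hlaw : cnd (cE L.ν L.Z) V v = cE (cnd L.ν V v) (fun ω => S (L.ln ω)) :=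
    cnd_cE L.prob L.Z V v _ hSZ hpos
  -- the mass of the set of lines
  have hmsS : ms (cnd L.ν V v) (fun ω => S (L.ln ω)) = PE (cnd L.ν V v) L.Z := by
    rw [← ms_eq_PE]
    refine ms_congr (cnd_isProb L.prob hPrV) fun ω hω => ?_
    exact (hSZ ω (cnd_pos hω)).symm
  have hp0 : 0 < ms (cnd L.ν V v) (fun ω => S (L.ln ω)) := by
    rw [hmsS]
    exact hδ.trans_le hZ
  have hνp : IsProb (cE (cnd L.ν V v) (fun ω => S (L.ln ω))) :=
    cE_isProb (cnd_isProb L.prob hPrV) hp0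
  rw [hlaw] at hG ⊢
  set ν' := cE (cnd L.ν V v) (fun ω => S (L.ln ω)) with hν'
  set cel := c4 k₀ φ T (fun v => - ht x v) with hcel
  set Gd := NoGia q cel (Finset.Icc k₀ k₁) η τ ν' L.ln with hGd
  have hlogη : 0 ≤ Real.log (1 / η) := by
    apply Real.log_nonneg
    rw [le_div_iff₀ hη]
    linarith
  have key := L.contG ω₀ hr S hp0 (Bool × Bool) (ℤ × ℤ) cel
    (fun _ k _ v c => |v.1 - c.1| ≤ rad q k)
    (fun a k z v => by
      rw [sub_self, abs_zero]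
      exact (rad_pos q k).le) (Finset.Icc k₀ k₁)
    (fun a k _ k' _ hkk u v huv => cF_nest _ _ _ _ hkk huv) Gd
    (by
      show 0 < ms ν' (fun ω => Gd (L.ln ω))
      linarith)
    (by
      intro ω ω' hω hω' _ _ _ _ hne hcr
      have hlo : L.lo ω₀ ≤ L.hi ω₀ := (L.lo_lt ω₀).le
      obtain ⟨y, hy0, hy1, hy⟩ := hcr.exists_meet hlo
      have hh : |(fun v => - ht x v) (L.ln ω') - (fun v => - ht x v) (L.ln ω)| ≤
          2 ^ q * 2 ^ (-T) * |(L.ln ω').1 - (L.ln ω).1| := by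
        have h1 := abs_ht_sub_le hy (hx y hy0 hy1)
        simp only
        rw [neg_sub_neg, abs_sub_comm]
        exact h1
      obtain ⟨a, k, hk, h2, h3, h4⟩ := c4_sep (hf := fun v => - ht x v) φ T hh hne (htop ω ω')
      refine ⟨a, k, Finset.mem_Icc.2 ⟨hk, ?_⟩, h2, ?_⟩
      · by_contra hc
        push Not at hc
        have h5 := hbot ω ω' hne
        have h6 : (2 : ℝ) ^ (-(k + (q : ℤ))) / 3 ≤ 2 ^ (-(k₁ + (q : ℤ))) / 6 := by
          have h7 : (2 : ℝ) ^ (-(k + (q : ℤ))) ≤ 2 ^ (-(k₁ + (q : ℤ)) - 1) :=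
            zpow_le_zpow_right₀ (by norm_num) (by omega)
          rw [zpow_sub₀ (by norm_num), zpow_one] at h7
          linarith
        linarith
      · rintro c ⟨h5, h6⟩
        have h7 := abs_sub_le (L.ln ω').1 c.1 (L.ln ω).1
        rw [abs_sub_comm c.1 (L.ln ω).1] at h7
        linarith)
    η hη hη1
    (by
      refine hA.trans ?_
      have h1 : A * δ ≤ A * ms (cnd L.ν V v) (fun ω => S (L.ln ω)) := by
        rw [hmsS]
        exact mul_le_mul_of_nonneg_left hZ hA0.le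
      exact mul_le_mul_of_nonneg_right h1 hη.le)
  change (1 - γ) * Real.log (1 / η) ≤ 2 * Real.log (1 / ms (cnd L.ν V v) (fun ω => S (L.ln ω))) +
      Real.log (4 * Fintype.card (Bool × Bool)) + 12 +
      4 * (Real.log (1 / ms ν' (fun ω => Gd (L.ln ω))) +
        contentG cel (fun _ k _ v c => |v.1 - c.1| ≤ rad q k) ν' L.ln Gd (Finset.Icc k₀ k₁) η /
        ms ν' (fun ω => Gd (L.ln ω))) at key
  have hlog16 : Real.log (4 * Fintype.card (Bool × Bool)) ≤ 3 := by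
    have e : (4 * (Fintype.card (Bool × Bool) : ℝ)) = 16 := by
      simp
      norm_num
    rw [e, Real.log_le_iff_le_exp (by norm_num)]
    have h3 := Real.exp_one_gt_d9
    have h4 : Real.exp 3 = Real.exp 1 ^ 3 := by
      rw [← Real.exp_nat_mul]; norm_num
    rw [h4]
    calc (16 : ℝ) ≤ 2.7 ^ 3 := by norm_num
      _ ≤ Real.exp 1 ^ 3 := pow_le_pow_left₀ (by norm_num) (by linarith) 3
  have hlogp : Real.log (1 / ms (cnd L.ν V v) (fun ω => S (L.ln ω))) ≤ Real.log (1 / δ) := by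
    refine Real.log_le_log (by positivity) ?_
    rw [hmsS]
    exact one_div_le_one_div_of_le hδ hZ
  have hlow := class_lower (q := q) (cel := cel) (bl := b4 k₀ P) (adm := Adm q P) (ln := L.ln)
    (ε := ε) hνp hη (by linarith) hτ0 hτ (by
      rw [Fintype.card_fin]
      push_cast
      exact hε) hε0 k₀ k₁ (j := 6 + q)
    (fun a k u v h => cF_sub q _ _ _ _ k u v h)
    (fun a k u v h hb => cF_diam hP _ _ _ _ k u v h hb)
    (fun a k u v h hd => cF_adm q P _ _ _ _ k u v h hd)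
    (L := (1 - γ) * Real.log (1 / η) - 2 * Real.log (1 / δ) - 15) hG (by
      show _ ≤ 4 * (Real.log (1 / ms ν' (fun ω => Gd (L.ln ω))) +
        contentG cel (fun _ k _ v c => |v.1 - c.1| ≤ rad q k) ν' L.ln Gd (Finset.Icc k₀ k₁) η /
        ms ν' (fun ω => Gd (L.ln ω)))
      linarith)
  rw [Fintype.card_fin] at hlow
  have hc4 : (Fintype.card (Bool × Bool) : ℝ) = 4 := by
    rw [Fintype.card_prod, Fintype.card_bool]
    norm_num
  rw [hc4] at hlow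
  push_cast at hlow ⊢
  linarith

end Vale.Agent.P065.H725
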