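import Vale.Agent.P065.H725.Conv

/-!
# P065: towers over classes (helper725)
-/

set_option autoImplicit false

set_option linter.unusedSectionVars false

namespace Vale.Agent.P065.H725

open Finset Vale.Agent.P065.UB Vale.Agent.P065.UB.RankAux Vale.Agent.P065.H987
  Vale.Agent.P065.H859 Vale.Agent.P065.Ent

variable {Ω υ : Type*} [Fintype Ω] {μ : Ω → ℝ}

/-- total expectation, the integrand depends on the class -/
theorem tower_cls (hμ : IsProb μ) (V : Ω → υ) (F : Ω → Ω → ℝ)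
    (hF : ∀ ω ω', V ω = V ω' → F ω = F ω') :
    ∑ ω, μ ω * F ω ω = ∑ ω, μ ω * ∑ ω', cnd μ V (V ω) ω' * F ω ω' := by
  classical
  set G : υ → Ω → ℝ := fun v ω => if h : ∃ ω₀, V ω₀ = v then F h.choose ω else 0 with hG
  have hGV : ∀ ω, G (V ω) = F ω := by
    intro ω
    have h : ∃ ω₀, V ω₀ = V ω := ⟨ω, rfl⟩
    funext ω'
    show (if h : ∃ ω₀, V ω₀ = V ω then F h.choose ω' else 0) = F ω ω'
    rw [dif_pos h, hF _ _ h.choose_spec]
  have h1 := sum_cnd_fiber hμ V G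
  have h2 := sum_fiber μ V (fun v => ∑ ω', cnd μ V v ω' * G v ω')
  simp only [hGV] at h1 h2
  rw [h1, h2]

/-- masses, the event depends on the class -/
theorem tower_ms (hμ : IsProb μ) (V : Ω → υ) (Q : Ω → Ω → Prop)
    (hQ : ∀ ω ω', V ω = V ω' → Q ω = Q ω') :
    ms μ (fun ω => Q ω ω) = ∑ ω, μ ω * ms (cnd μ V (V ω)) (Q ω) := by
  classical
  have h := tower_cls hμ V (fun ω ω' => if Q ω ω' then 1 else 0) (fun ω ω' h => by
    funext ω''
    rw [hQ ω ω' h])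
  have e1 : ms μ (fun ω => Q ω ω) = ∑ ω, μ ω * (if Q ω ω then 1 else 0) := by
    rw [ms_eq]
    refine sum_congr rfl fun ω _ => ?_
    split_ifs <;> simp
  rw [e1, h]
  refine sum_congr rfl fun ω _ => ?_
  congr 1
  rw [ms_eq]
  refine sum_congr rfl fun ω' _ => ?_
  split_ifs <;> simp

/-- lower bound for an average -/
theorem avg_mu (hμ : IsProb μ) (V : Ω → υ) (F : Ω → Ω → ℝ)
    (hF : ∀ ω ω', V ω = V ω' → F ω = F ω') (G : Ω → Prop) {c : ℝ}
    (hF0 : ∀ ω, 0 < μ ω → 0 ≤ ∑ ω', cnd μ V (V ω) ω' * F ω ω')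
    (hFc : ∀ ω, 0 < μ ω → G ω → c ≤ ∑ ω', cnd μ V (V ω) ω' * F ω ω') :
    c * ms μ G ≤ ∑ ω, μ ω * F ω ω := by
  classical
  rw [tower_cls hμ V F hF, ms_eq, mul_sum]
  refine sum_le_sum fun ω _ => ?_
  rcases (hμ.nonneg ω).eq_or_lt with h0 | h0
  · rw [← h0]
    simp
  · by_cases hG : G ω
    · rw [if_pos hG, mul_comm]
      exact mul_le_mul_of_nonneg_left (hFc ω h0 hG) h0.le
    · rw [if_neg hG, mul_zero]
      exact mul_nonneg h0.le (hF0 ω h0)

/-- Markov: flags in whose class the event has probability more than one half -/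
theorem markov_cls (hμ : IsProb μ) (V : Ω → υ) (Q : Ω → Ω → Prop)
    (hQ : ∀ ω ω', V ω = V ω' → Q ω = Q ω') :
    ms μ (fun ω => 1 / 2 < ms (cnd μ V (V ω)) (Q ω)) ≤ 2 * ms μ (fun ω => Q ω ω) := by
  classical
  rw [tower_ms hμ V Q hQ, ms_eq, mul_sum]
  refine sum_le_sum fun ω _ => ?_
  rcases (hμ.nonneg ω).eq_or_lt with h0 | h0
  · rw [← h0]
    simp
  · have hp : 0 < Pr μ V (V ω) := Pr_pos hμ V h0
    have h1 := ms_nonneg (cnd_isProb hμ hp) (Q ω)
    split_ifs with h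
    · nlinarith
    · positivity

end Vale.Agent.P065.H725
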