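import Vale.Agent.P065.H725.ColClass
import Vale.Agent.P065.H725.ColTower

/-!
# P065: the boxes of the frame as cells of a class (helper725)
-/

set_option autoImplicit false

set_option linter.unusedSectionVars false

namespace Vale.Agent.P065.H725

open Finset Vale.Agent.P065.UB Vale.Agent.P065.UB.RankAux Vale.Agent.P065.H987
  Vale.Agent.P065.H859 Vale.Agent.P065.Ent Vale.Agent.P065.H154

section frame

variable {Ω : Type*} (F : Fr Ω) (ln : Ω → Pt) (p : Prm) {Lab : Type*} (lam : Ω → Lab)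

/-- the unit of the offsets, in absolute units -/
noncomputable def un : ℝ := (3 * 2 ^ ((p.K : ℤ) + p.M + p.k₀))⁻¹

/-- the offset of the heights -/
noncomputable def ph (ω : Ω) (j : ℤ) (a : Bool) : ℝ := F.P.x ω * os p.k₀ a - j * un p

/-- the cells of the class of a flag with the offset `j` -/
noncomputable def cj (ω : Ω) (j : ℤ) (a : Bool) : ℤ → Pt → ℤ × ℤ :=
  cF (os p.k₀ a) (ph F p ω j a) (F.T' ω) (fun v => - ht (F.P.x ω) v)

/-- the class of a flag -/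
def FV (ω : Ω) : ℕ × Lab := (F.P.W F.n ω, lam ω)

variable {F ln p lam}

theorem un_mul (c : p.Kap) : un p * 2 ^ Prm.sc c = 1 / (3 * 2 ^ Prm.ex c) := by
  have h1 := Prm.js_le c
  have e : (2 : ℝ) ^ ((p.K : ℤ) + p.M + p.k₀) = 2 ^ Prm.ex c * 2 ^ Prm.sc c := by
    rw [← zpow_natCast, ← zpow_add₀ (by norm_num)]
    congr 1
    unfold Prm.ex Prm.sc
    unfold Prm.js at h1
    push_cast [h1]
    ring
  unfold un
  rw [e]
  have h2 : (0 : ℝ) < 2 ^ Prm.ex c := by positivity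
  have h3 : (0 : ℝ) < 2 ^ Prm.sc c := by positivity
  field_simp

theorem ph_congr {ω ω' : Ω} (h : F.P.W F.n ω = F.P.W F.n ω') (j : ℤ) (a : Bool) :
    ph F p ω j a = ph F p ω' j a := by
  unfold ph
  rw [F.xW _ _ h]

theorem cj_congr {ω ω' : Ω} (h : F.P.W F.n ω = F.P.W F.n ω') (j : ℤ) (a : Bool) :
    cj F p ω j a = cj F p ω' j a := by
  unfold cj
  rw [ph_congr h, F.T'x _ _ (F.xW _ _ h), F.xW _ _ h]

theorem FV_W {ω ω' : Ω} (h : FV F lam ω = FV F lam ω') : F.P.W F.n ω = F.P.W F.n ω' :=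
  (Prod.mk.inj h).1

/-- the fine row -/
theorem Nr_eq (c : p.Col) (ω : Ω) {z : ℤ} (hz : 2 ^ F.T' ω * F.P.x ω = z) :
    Nr F ln p c ω = dy (ph F p ω (c.2 : ℕ) (Prm.sy c.1)) (F.T' ω + Prm.sc c.1)
      (- ht (F.P.x ω) (ln ω)) - z * Prm.S c.1 (ln ω) := by
  unfold Nr Prm.N Prm.h dy
  rw [← Int.floor_sub_intCast, hl_eq]
  congr 1
  have h1 := un_mul c.1
  have h2 : (2 : ℝ) ^ ((F.T' ω : ℤ) + Prm.sc c.1) = 2 ^ F.T' ω * 2 ^ Prm.sc c.1 := by
    rw [zpow_add₀ (by norm_num), zpow_natCast]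
  have h3 : ((c.2 : ℕ) : ℝ) / (3 * 2 ^ Prm.ex c.1) = (c.2 : ℕ) * (un p * 2 ^ Prm.sc c.1) := by
    rw [h1]
    ring
  have h4 : (Prm.S c.1 (ln ω) : ℝ) = H154.Sc p.k₀ (Prm.sy c.1) (Prm.sc c.1) (ln ω) := rfl
  rw [h2, h3]
  unfold ph
  push_cast
  rw [← hz, h4]
  ring

/-- equal boxes -/
theorem rho_eq_iff (c : p.Col) (ω ω' : Ω) :
    rho F ln p lam c ω' = rho F ln p lam c ω ↔ FV F lam ω' = FV F lam ω ∧
      cj F p ω (c.2 : ℕ) (Prm.sy c.1) (Prm.sc c.1) (ln ω') =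
        cj F p ω (c.2 : ℕ) (Prm.sy c.1) (Prm.sc c.1) (ln ω) := by
  obtain ⟨z, hz⟩ := F.dyadic ω
  obtain ⟨z', hz'⟩ := F.dyadic ω'
  show ((FV F lam ω', Prm.S c.1 (ln ω'), Nr F ln p c ω') =
    (FV F lam ω, Prm.S c.1 (ln ω), Nr F ln p c ω)) ↔ _
  rw [Prod.mk.injEq (FV F lam ω')]
  refine and_congr_right fun hV => ?_
  have hW : F.P.W F.n ω' = F.P.W F.n ω := (Prod.mk.inj hV).1
  have hx := F.xW _ _ hW
  have hT := F.T'x _ _ hx
  have hzz : z' = z := by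
    rw [hx, hT, hz] at hz'
    exact_mod_cast hz'.symm
  rw [Nr_eq c ω hz, Nr_eq c ω' hz', hzz, ph_congr hW, hx, hT]
  unfold cj cF
  rw [Prod.mk.injEq, Prod.mk.injEq]
  refine and_congr_right fun hS => ?_
  have hS' : Prm.S c.1 (ln ω') = Prm.S c.1 (ln ω) := hS
  rw [hS']
  constructor
  · intro h
    linarith
  · intro h
    rw [h]

/-- the slope block of a line -/
noncomputable def bl1 (p : Prm) (a : Bool) (k : ℤ) (v : Pt) : Fin (2 ^ p.PP) :=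
  blk (os p.k₀ a) p.PP k v.1

theorem bk_eq (a : Bool) (k : ℤ) (v : Pt) :
    bk p.k₀ a k p.PP v = (((bl1 p a k v : Fin (2 ^ p.PP)) : ℕ) : ℤ) := by
  unfold bl1
  rw [blk_val]
  have h := Sc_add p.k₀ a k p.PP v
  unfold H154.Sc at h
  linarith

/-- the block of a label -/
def bb (c : p.Kap) (b : Bool) : Fin (2 ^ p.PP) := if b then c.2.2.2 else c.2.2.1

/-- the label of a flag -/
theorem lb_iff {c : p.Col} (hc : c.1.2.2.1 ≠ c.1.2.2.2) (b : Bool) (ω : Ω) :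
    lb ln p c ω = some b ↔ bl1 p (Prm.sy c.1) (Prm.sc c.1) (ln ω) = bb c.1 b := by
  unfold lb bb Prm.b0 Prm.b1
  rw [bk_eq]
  have key : ∀ x y : Fin (2 ^ p.PP), (((x : ℕ) : ℤ) = ((y : ℕ) : ℤ)) ↔ x = y := by
    intro x y
    rw [Nat.cast_inj, Fin.val_inj]
  simp only [key]
  by_cases h1 : bl1 p (Prm.sy c.1) (Prm.sc c.1) (ln ω) = c.1.2.2.1
  · rw [if_pos h1]
    cases b
    · simp [h1]
    · simp [h1, hc]
  · rw [if_neg h1]
    by_cases h2 : bl1 p (Prm.sy c.1) (Prm.sc c.1) (ln ω) = c.1.2.2.2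
    · rw [if_pos h2]
      cases b
      · simp [h1]
      · simp [h2]
    · rw [if_neg h2]
      cases b
      · simp [h1]
      · simp [h2]

variable [Fintype Ω] {μ : Ω → ℝ}

/-- the mass of a box -/
theorem Pr_rho (hμ : IsProb μ) (c : p.Col) {ω : Ω} (hω : 0 < μ ω) :
    Pr μ (rho F ln p lam c) (rho F ln p lam c ω) = Pr μ (FV F lam) (FV F lam ω) *
      cm (fun _ : Unit => cj F p ω (c.2 : ℕ) (Prm.sy c.1)) (cnd μ (FV F lam) (FV F lam ω)) ln ()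
        (Prm.sc c.1) ω := by
  have hp : 0 < Pr μ (FV F lam) (FV F lam ω) := Pr_pos hμ _ hω
  unfold cm
  rw [ms_cnd', mul_div_cancel₀ _ hp.ne', ← ms_eq_Pr]
  exact ms_congr hμ fun ω' _ => rho_eq_iff c ω ω'

/-- the mass of a label in a box -/
theorem Pr_lb (hμ : IsProb μ) {c : p.Col} (hc : c.1.2.2.1 ≠ c.1.2.2.2) (b : Bool) {ω : Ω}
    (hω : 0 < μ ω) :
    Pr μ (fun ω' => (lb ln p c ω', rho F ln p lam c ω')) (some b, rho F ln p lam c ω) =
      Pr μ (FV F lam) (FV F lam ω) * ms (cnd μ (FV F lam) (FV F lam ω)) (fun ω' =>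
        cj F p ω (c.2 : ℕ) (Prm.sy c.1) (Prm.sc c.1) (ln ω') =
          cj F p ω (c.2 : ℕ) (Prm.sy c.1) (Prm.sc c.1) (ln ω) ∧
        bl1 p (Prm.sy c.1) (Prm.sc c.1) (ln ω') = bb c.1 b) := by
  have hp : 0 < Pr μ (FV F lam) (FV F lam ω) := Pr_pos hμ _ hω
  rw [ms_cnd', mul_div_cancel₀ _ hp.ne', ← ms_eq_Pr]
  refine ms_congr hμ fun ω' _ => ?_
  rw [Prod.mk.injEq, lb_iff hc, rho_eq_iff]
  tauto

/-- the share of a label in a box -/
theorem share_eq (hμ : IsProb μ) {c : p.Col} (hc : c.1.2.2.1 ≠ c.1.2.2.2) (b : Bool) {ω : Ω}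
    (hω : 0 < μ ω) :
    Pr μ (fun ω' => (lb ln p c ω', rho F ln p lam c ω')) (some b, rho F ln p lam c ω) /
      Pr μ (rho F ln p lam c) (rho F ln p lam c ω) =
      sh (fun _ : Unit => cj F p ω (c.2 : ℕ) (Prm.sy c.1))
        (fun _ => bl1 p (Prm.sy c.1)) (cnd μ (FV F lam) (FV F lam ω)) ln ()
        (Prm.sc c.1) ω (bb c.1 b) := by
  have hp : 0 < Pr μ (FV F lam) (FV F lam ω) := Pr_pos hμ _ hω
  rw [Pr_rho hμ c hω, Pr_lb hμ hc b hω, mul_div_mul_left _ _ hp.ne']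
  rfl

end frame

end Vale.Agent.P065.H725
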