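import Vale.Agent.P065.H725.ColFrame

/-!
# P065: the total weight of the columns of the frame (helper725)

The weights of the boxes are `(1 + log (1 / π)) / (1 + log (1 / ε))` for the big boxes of the classes
of mass at least `θ` and the admissible pairs of blocks whose smaller share `π` is at least `ε`, and
zero otherwise.
-/

set_option autoImplicit false

set_option linter.unusedSectionVars false

namespace Vale.Agent.P065.H725

open Finset Vale.Agent.P065.UB Vale.Agent.P065.UB.RankAux Vale.Agent.P065.H987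
  Vale.Agent.P065.H859 Vale.Agent.P065.Ent Vale.Agent.P065.H154

section frame

variable {Ω : Type*} (F : Fr Ω) (ln : Ω → Pt) (p : Prm) {Lab : Type*} (lam : Ω → Lab)
  [Fintype Ω] (μ : Ω → ℝ)

/-- the share of a label in a box -/
noncomputable def shr (c : p.Col) (b : Bool) (r : (ℕ × Lab) × ℤ × ℤ) : ℝ :=
  Pr μ (fun ω => (lb ln p c ω, rho F ln p lam c ω)) (some b, r) / Pr μ (rho F ln p lam c) r

/-- the smaller share -/
noncomputable def mpi (c : p.Col) (r : (ℕ × Lab) × ℤ × ℤ) : ℝ :=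
  min (shr F ln p lam μ c false r) (shr F ln p lam μ c true r)

open Classical in
/-- **the weights** -/
noncomputable def fw (θ : ℝ) (q : ℕ) (η ε : ℝ) (c : p.Col) (r : (ℕ × Lab) × ℤ × ℤ) : ℝ :=
  if θ ≤ Pr μ (FV F lam) r.1 ∧ η * Pr μ (FV F lam) r.1 ≤ Pr μ (rho F ln p lam c) r ∧
      Adm q p.PP c.1.2.2.1 c.1.2.2.2 ∧ ε ≤ mpi F ln p lam μ c r then
    (1 + Real.log (1 / mpi F ln p lam μ c r)) / (1 + Real.log (1 / ε)) else 0

variable {μ}

theorem shr_nonneg (hμ : IsProb μ) (c : p.Col) (b : Bool) (r : (ℕ × Lab) × ℤ × ℤ) :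
    0 ≤ shr F ln p lam μ c b r := div_nonneg (Pr_nonneg hμ _ _) (Pr_nonneg hμ _ _)

theorem shr_le_one (hμ : IsProb μ) (c : p.Col) (b : Bool) (r : (ℕ × Lab) × ℤ × ℤ) :
    shr F ln p lam μ c b r ≤ 1 := by
  unfold shr
  refine div_le_one_of_le₀ ?_ (Pr_nonneg hμ _ _)
  rw [← ms_eq_Pr, ← ms_eq_Pr]
  exact ms_mono hμ fun ω _ h => (Prod.mk.inj h).2

theorem mpi_nonneg (hμ : IsProb μ) (c : p.Col) (r : (ℕ × Lab) × ℤ × ℤ) :
    0 ≤ mpi F ln p lam μ c r := le_min (shr_nonneg F ln p lam hμ c _ r)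
  (shr_nonneg F ln p lam hμ c _ r)

theorem mpi_le_one (hμ : IsProb μ) (c : p.Col) (r : (ℕ × Lab) × ℤ × ℤ) :
    mpi F ln p lam μ c r ≤ 1 := (min_le_left _ _).trans (shr_le_one F ln p lam hμ c _ r)

theorem fw_nonneg (hμ : IsProb μ) (θ : ℝ) (q : ℕ) (η : ℝ) {ε : ℝ} (hε : 0 < ε) (hε1 : ε ≤ 1) (c : p.Col)
    (r : (ℕ × Lab) × ℤ × ℤ) : 0 ≤ fw F ln p lam μ θ q η ε c r := by
  classical
  unfold fw
  split_ifs with h
  · have h0 : 0 < mpi F ln p lam μ c r := hε.trans_le h.2.2.2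
    have h1 : 0 ≤ Real.log (1 / mpi F ln p lam μ c r) := Real.log_nonneg (by
      rw [le_div_iff₀ h0]
      linarith [mpi_le_one F ln p lam hμ c r])
    have h2 : 0 ≤ Real.log (1 / ε) := Real.log_nonneg (by
      rw [le_div_iff₀ hε]
      linarith)
    positivity
  · exact le_rfl

theorem fw_le_one (θ : ℝ) (q : ℕ) (η : ℝ) {ε : ℝ} (hε : 0 < ε) (hε1 : ε ≤ 1) (c : p.Col)
    (r : (ℕ × Lab) × ℤ × ℤ) : fw F ln p lam μ θ q η ε c r ≤ 1 := by
  classical
  unfold fw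
  split_ifs with h
  · have h0 : 0 < mpi F ln p lam μ c r := hε.trans_le h.2.2.2
    have h2 : 0 ≤ Real.log (1 / ε) := Real.log_nonneg (by
      rw [le_div_iff₀ hε]
      linarith)
    rw [div_le_one (by positivity)]
    have := Real.log_le_log (by positivity) (one_div_le_one_div_of_le hε h.2.2.2)
    linarith
  · exact zero_le_one

/-- **the columns** -/
noncomputable def colF (hμ : IsProb μ) (θ : ℝ) (q : ℕ) (η : ℝ) {ε : ℝ} (hε : 0 < ε) (hε1 : ε ≤ 1) :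
    H700.Cols Ω p.Col ((ℕ × Lab) × ℤ × ℤ) :=
  cols F ln p lam (fw F ln p lam μ θ q η ε) (fw_nonneg F ln p lam hμ θ q η hε hε1)
    (fw_le_one F ln p lam θ q η hε hε1)

variable {F ln p lam}

theorem colF_pi (hμ : IsProb μ) (θ : ℝ) (q : ℕ) (η : ℝ) {ε : ℝ} (hε : 0 < ε) (hε1 : ε ≤ 1) (c : p.Col)
    (r : (ℕ × Lab) × ℤ × ℤ) :
    (colF F ln p lam hμ θ q η hε hε1).pi μ c r = mpi F ln p lam μ c r := rfl

open Classical in
/-- the weights times the smaller share -/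
theorem colF_wt (hμ : IsProb μ) (θ : ℝ) (q : ℕ) (η : ℝ) {ε : ℝ} (hε : 0 < ε) (hε1 : ε ≤ 1) (c : p.Col)
    (r : (ℕ × Lab) × ℤ × ℤ) :
    (1 + Real.log (1 / ε)) * (colF F ln p lam hμ θ q η hε hε1).wt μ c r =
      if θ ≤ Pr μ (FV F lam) r.1 ∧ η * Pr μ (FV F lam) r.1 ≤ Pr μ (rho F ln p lam c) r ∧
        Adm q p.PP c.1.2.2.1 c.1.2.2.2 ∧ ε ≤ mpi F ln p lam μ c r then
        gw 1 (mpi F ln p lam μ c r) else 0 := by
  have h2 : 0 ≤ Real.log (1 / ε) := Real.log_nonneg (by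
    rw [le_div_iff₀ hε]
    linarith)
  have h3 : (colF F ln p lam hμ θ q η hε hε1).wt μ c r =
      fw F ln p lam μ θ q η ε c r * mpi F ln p lam μ c r := rfl
  rw [h3]
  unfold fw
  split_ifs with h
  · unfold gw
    field_simp
  · rw [zero_mul, mul_zero]

theorem Adm.ne {q P : ℕ} (hP : 6 + q ≤ P) {b b' : Fin (2 ^ P)} (h : Adm q P b b') : b ≠ b' := by
  rintro rfl
  unfold Adm at h
  rw [sub_self, abs_zero, zero_add, div_lt_one (by positivity)] at h
  obtain ⟨d, rfl⟩ : ∃ d, P = 6 + q + d := ⟨P - (6 + q), by omega⟩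
  rw [pow_add, pow_add] at h
  have h6 : (1 : ℝ) ≤ 2 ^ d := one_le_pow₀ (by norm_num)
  have h7 : (0 : ℝ) < 2 ^ q := by positivity
  nlinarith

variable (F ln p lam μ)

open Classical in
/-- the contribution of one scale of one system, for the class of the flag `ω₀` -/
noncomputable def Phi (θ : ℝ) (q : ℕ) (η ε : ℝ) (j : ℤ) (a : Bool) (k : ℤ) (ω₀ ω : Ω) : ℝ :=
  if θ ≤ Pr μ (FV F lam) (FV F lam ω₀) then
    (if η ≤ cm (fun _ : Unit => cj F p ω₀ j a) (cnd μ (FV F lam) (FV F lam ω₀)) ln () k ω then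
      pw (fun _ : Unit => cj F p ω₀ j a) (fun _ => bl1 p a) (Adm q p.PP) ε
      (cnd μ (FV F lam) (FV F lam ω₀)) ln () k ω else 0) else 0

/-- the weights of a class -/
noncomputable def Psi (q : ℕ) (η ε : ℝ) (j : ℤ) (ω₀ : Ω) : ℝ :=
  ∑ a : Bool, Sc1 (cj F p ω₀ j a) (bl1 p a) (Adm q p.PP) (Finset.Icc p.k₀ (p.k₀ + p.K)) η ε
    (cnd μ (FV F lam) (FV F lam ω₀)) ln

open Classical in
/-- the weights of a class, zero for the small classes -/
noncomputable def Ps (θ : ℝ) (q : ℕ) (η ε : ℝ) (j : ℤ) (ω₀ : Ω) : ℝ :=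
  if θ ≤ Pr μ (FV F lam) (FV F lam ω₀) then Psi F ln p lam μ q η ε j ω₀ else 0

variable {F ln p lam μ}

theorem Phi_congr (θ : ℝ) (q : ℕ) (η ε : ℝ) (j : ℤ) (a : Bool) (k : ℤ) {ω₀ ω₁ : Ω}
    (h : FV F lam ω₀ = FV F lam ω₁) (ω : Ω) :
    Phi F ln p lam μ θ q η ε j a k ω₀ ω = Phi F ln p lam μ θ q η ε j a k ω₁ ω := by
  unfold Phi
  rw [cj_congr (FV_W h), h]

/-- the sum over the pairs of blocks -/
theorem sum_blocks (hμ : IsProb μ) {θ : ℝ} {q : ℕ} (hq : 6 + q ≤ p.PP) {η : ℝ} {ε : ℝ}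
    (hε : 0 < ε) (hε1 : ε ≤ 1) (a : Bool) (j : Fin (p.K + 1)) (i : Fin p.nT) {ω : Ω}
    (hω : 0 < μ ω) :
    ∑ b₀ : Fin (2 ^ p.PP), ∑ b₁ : Fin (2 ^ p.PP), (1 + Real.log (1 / ε)) *
      (colF F ln p lam hμ θ q η hε hε1).wt μ ((a, j, b₀, b₁), i)
        (rho F ln p lam ((a, j, b₀, b₁), i) ω) =
      Phi F ln p lam μ θ q η ε (i : ℕ) a (p.k₀ + (j : ℕ)) ω ω := by
  classical
  have hp : 0 < Pr μ (FV F lam) (FV F lam ω) := Pr_pos hμ _ hω
  unfold Phi pw
  have key : ∀ b₀ b₁ : Fin (2 ^ p.PP), (1 + Real.log (1 / ε)) *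
      (colF F ln p lam hμ θ q η hε hε1).wt μ ((a, j, b₀, b₁), i)
        (rho F ln p lam ((a, j, b₀, b₁), i) ω) =
      if θ ≤ Pr μ (FV F lam) (FV F lam ω) then
        (if η ≤ cm (fun _ : Unit => cj F p ω (i : ℕ) a) (cnd μ (FV F lam) (FV F lam ω)) ln ()
          (p.k₀ + (j : ℕ)) ω then
        (if Adm q p.PP b₀ b₁ ∧ ε ≤ min
          (sh (fun _ : Unit => cj F p ω (i : ℕ) a) (fun _ => bl1 p a)
            (cnd μ (FV F lam) (FV F lam ω)) ln () (p.k₀ + (j : ℕ)) ω b₀)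
          (sh (fun _ : Unit => cj F p ω (i : ℕ) a) (fun _ => bl1 p a)
            (cnd μ (FV F lam) (FV F lam ω)) ln () (p.k₀ + (j : ℕ)) ω b₁) then
        gw 1 (min
          (sh (fun _ : Unit => cj F p ω (i : ℕ) a) (fun _ => bl1 p a)
            (cnd μ (FV F lam) (FV F lam ω)) ln () (p.k₀ + (j : ℕ)) ω b₀)
          (sh (fun _ : Unit => cj F p ω (i : ℕ) a) (fun _ => bl1 p a)
            (cnd μ (FV F lam) (FV F lam ω)) ln () (p.k₀ + (j : ℕ)) ω b₁)) else 0) else 0) else 0 := by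
    intro b₀ b₁
    rw [colF_wt]
    set c : p.Col := ((a, j, b₀, b₁), i) with hc
    have e : (rho F ln p lam c ω).1 = FV F lam ω := rfl
    have hbig : η * Pr μ (FV F lam) (rho F ln p lam c ω).1 ≤
        Pr μ (rho F ln p lam c) (rho F ln p lam c ω) ↔
        η ≤ cm (fun _ : Unit => cj F p ω (i : ℕ) a) (cnd μ (FV F lam) (FV F lam ω)) ln ()
          (p.k₀ + (j : ℕ)) ω := by
      rw [Pr_rho hμ c hω, e, mul_comm η]
      constructor
      · intro h
        exact le_of_mul_le_mul_left h hp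
      · intro h
        exact mul_le_mul_of_nonneg_left h hp.le
    by_cases h0 : θ ≤ Pr μ (FV F lam) (FV F lam ω)
    swap
    · rw [if_neg h0, if_neg (fun h => h0 (by rw [← e]; exact h.1))]
    rw [if_pos h0]
    by_cases hA : Adm q p.PP b₀ b₁
    · have hne : c.1.2.2.1 ≠ c.1.2.2.2 := hA.ne hq
      have hm : mpi F ln p lam μ c (rho F ln p lam c ω) = min
          (sh (fun _ : Unit => cj F p ω (i : ℕ) a) (fun _ => bl1 p a)
            (cnd μ (FV F lam) (FV F lam ω)) ln () (p.k₀ + (j : ℕ)) ω b₀)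
          (sh (fun _ : Unit => cj F p ω (i : ℕ) a) (fun _ => bl1 p a)
            (cnd μ (FV F lam) (FV F lam ω)) ln () (p.k₀ + (j : ℕ)) ω b₁) := by
        unfold mpi shr
        rw [share_eq hμ hne false hω, share_eq hμ hne true hω]
        rfl
      rw [hm]
      by_cases h1 : η ≤ cm (fun _ : Unit => cj F p ω (i : ℕ) a) (cnd μ (FV F lam) (FV F lam ω))
          ln () (p.k₀ + (j : ℕ)) ω
      · rw [if_pos h1]
        by_cases h2 : ε ≤ min
          (sh (fun _ : Unit => cj F p ω (i : ℕ) a) (fun _ => bl1 p a)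
            (cnd μ (FV F lam) (FV F lam ω)) ln () (p.k₀ + (j : ℕ)) ω b₀)
          (sh (fun _ : Unit => cj F p ω (i : ℕ) a) (fun _ => bl1 p a)
            (cnd μ (FV F lam) (FV F lam ω)) ln () (p.k₀ + (j : ℕ)) ω b₁)
        · rw [if_pos ⟨h0, hbig.2 h1, hA, h2⟩, if_pos ⟨hA, h2⟩]
        · rw [if_neg (fun h => h2 h.2.2.2), if_neg (fun h => h2 h.2)]
      · rw [if_neg h1, if_neg (fun h => h1 (hbig.1 h.2.1))]
    · rw [if_neg (fun h => hA h.2.2.1)]
      split_ifs with h1 h2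
      · exact absurd h2.1 hA
      · rfl
      · rfl
  rw [sum_congr rfl fun b₀ _ => sum_congr rfl fun b₁ _ => key b₀ b₁]
  by_cases h0 : θ ≤ Pr μ (FV F lam) (FV F lam ω)
  · simp only [if_pos h0]
    by_cases h1 : η ≤ cm (fun _ : Unit => cj F p ω (i : ℕ) a) (cnd μ (FV F lam) (FV F lam ω))
        ln () (p.k₀ + (j : ℕ)) ω
    · simp only [if_pos h1]
    · simp only [if_neg h1, sum_const_zero]
  · simp only [if_neg h0, sum_const_zero]

theorem sum_Icc_fin (k₀ : ℤ) (K : ℕ) (g : ℤ → ℝ) :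
    ∑ k ∈ Finset.Icc k₀ (k₀ + K), g k = ∑ j : Fin (K + 1), g (k₀ + (j : ℕ)) := by
  rw [Fin.sum_univ_eq_sum_range (fun j : ℕ => g (k₀ + (j : ℕ))) (K + 1)]
  symm
  refine sum_nbij (fun j : ℕ => k₀ + (j : ℤ)) ?_ ?_ ?_ ?_
  · intro j hj
    rw [mem_range] at hj
    rw [Finset.mem_Icc]
    constructor <;> omega
  · intro j _ j' _ h
    simp only at h
    omega
  · intro k hk
    rw [Finset.coe_Icc, Set.mem_Icc] at hk
    refine ⟨(k - k₀).toNat, ?_, ?_⟩
    · rw [Finset.coe_range, Set.mem_Iio]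
      omega
    · simp only
      omega
  · intro j _
    rfl

/-- **the total weight** of the columns -/
theorem colF_J (hμ : IsProb μ) {θ : ℝ} {q : ℕ} (hq : 6 + q ≤ p.PP) {η : ℝ} {ε : ℝ} (hε : 0 < ε)
    (hε1 : ε ≤ 1) :
    (1 + Real.log (1 / ε)) * (colF F ln p lam hμ θ q η hε hε1).J μ =
      ∑ i ∈ range p.nT, ∑ ω, μ ω * Ps F ln p lam μ θ q η ε (i : ℕ) ω := by
  classical
  -- move everything under the sum over the flags
  have h1 : (1 + Real.log (1 / ε)) * (colF F ln p lam hμ θ q η hε hε1).J μ =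
      ∑ i : Fin p.nT, ∑ a : Bool, ∑ j : Fin (p.K + 1), ∑ ω, μ ω *
        Phi F ln p lam μ θ q η ε (i : ℕ) a (p.k₀ + (j : ℕ)) ω ω := by
    unfold H700.Cols.J
    rw [mul_sum, Fintype.sum_prod_type, sum_comm]
    refine sum_congr rfl fun i _ => ?_
    rw [Fintype.sum_prod_type]
    refine sum_congr rfl fun a _ => ?_
    rw [Fintype.sum_prod_type]
    refine sum_congr rfl fun j _ => ?_
    rw [Fintype.sum_prod_type]
    have e : ∀ ω, μ ω * Phi F ln p lam μ θ q η ε (i : ℕ) a (p.k₀ + (j : ℕ)) ω ω =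
        ∑ b₀ : Fin (2 ^ p.PP), ∑ b₁ : Fin (2 ^ p.PP), (1 + Real.log (1 / ε)) * (μ ω *
          (colF F ln p lam hμ θ q η hε hε1).wt μ ((a, j, b₀, b₁), i)
            (rho F ln p lam ((a, j, b₀, b₁), i) ω)) := by
      intro ω
      rcases (hμ.nonneg ω).eq_or_lt with h0 | h0
      · rw [← h0]
        simp
      · rw [← sum_blocks hμ hq hε hε1 a j i h0, mul_sum]
        refine sum_congr rfl fun b₀ _ => ?_
        rw [mul_sum]
        refine sum_congr rfl fun b₁ _ => ?_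
        ring
    symm
    rw [sum_congr rfl fun ω _ => e ω, sum_comm]
    refine sum_congr rfl fun b₀ _ => ?_
    rw [sum_comm]
    refine sum_congr rfl fun b₁ _ => ?_
    rw [mul_sum]
    rfl
  rw [h1, ← Fin.sum_univ_eq_sum_range (fun i : ℕ => ∑ ω, μ ω * Ps F ln p lam μ θ q η ε (i : ℕ) ω)
    p.nT]
  refine sum_congr rfl fun i _ => ?_
  -- tower property
  have h2 : ∀ (a : Bool) (j : Fin (p.K + 1)), ∑ ω, μ ω *
      Phi F ln p lam μ θ q η ε (i : ℕ) a (p.k₀ + (j : ℕ)) ω ω =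
      ∑ ω, μ ω * ∑ ω', cnd μ (FV F lam) (FV F lam ω) ω' *
        Phi F ln p lam μ θ q η ε (i : ℕ) a (p.k₀ + (j : ℕ)) ω ω' := fun a j =>
    tower_cls hμ (FV F lam) (Phi F ln p lam μ θ q η ε (i : ℕ) a (p.k₀ + (j : ℕ)))
      (fun ω ω' h => by
        funext ω''
        exact Phi_congr θ q η ε _ a _ h ω'')
  rw [sum_congr rfl fun a _ => sum_congr rfl fun j _ => h2 a j]
  rw [sum_congr rfl fun a _ => sum_comm]
  rw [sum_comm]
  refine sum_congr rfl fun ω _ => ?_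
  unfold Ps
  by_cases h0 : θ ≤ Pr μ (FV F lam) (FV F lam ω)
  · rw [if_pos h0]
    unfold Psi
    rw [mul_sum]
    refine sum_congr rfl fun a _ => ?_
    rw [← mul_sum]
    congr 1
    unfold Sc1
    rw [sum_Icc_fin]
    refine sum_congr rfl fun j _ => sum_congr rfl fun ω' _ => ?_
    congr 1
    unfold Phi
    rw [if_pos h0]
  · rw [if_neg h0, mul_zero]
    refine sum_eq_zero fun a _ => sum_eq_zero fun j _ => ?_
    unfold Phi
    simp only [if_neg h0, mul_zero, sum_const_zero]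

end frame

end Vale.Agent.P065.H725
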