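import Vale.Agent.P065.H725.ColAbs
import Vale.Agent.P065.H859.LocF

/-!
# P065: the choice of the columns (helper725)

One window `L`, the law `μ` of the typical flags, the frame of `L`: either many offsets have many
slope giants (flags of a big box with few flags of the box in their neighbourhood), or the columns
`colF` have large total weight.
-/

set_option autoImplicit false

set_option linter.unusedSectionVars false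

namespace Vale.Agent.P065.H725

open Finset Vale.Agent.P065.UB Vale.Agent.P065.UB.RankAux Vale.Agent.P065.H987
  Vale.Agent.P065.H859 Vale.Agent.P065.Ent Vale.Agent.P065.H154

variable {B₀ : ℕ} {c₁ c₂ ρ γ ε₂ ε₃ b A : ℝ} {K₁ n g : ℕ}

theorem FV_fr (L : Loc B₀ c₁ c₂ ρ γ ε₂ ε₃ b A K₁ n g) {q₀ : ℕ} (hq₀ : 2 ≤ q₀) :
    FV (L.fr hq₀) L.lam = LV L := by
  funext ω
  unfold FV LV
  rw [L.fr_W, L.fr_n]

/-- in the class of a typical flag, the typical flags are the flags of `Z` -/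
theorem Zg_iff (L : Loc B₀ c₁ c₂ ρ γ ε₂ ε₃ b A K₁ n g) {B : ℕ} {s : ℝ} {ω₀ : L.Ω}
    (h₀ : L.Zg B s ω₀) {ω : L.Ω} (h : LV L ω = LV L ω₀) : L.Zg B s ω ↔ L.Z ω := by
  have h1 : L.P.W n ω₀ = L.P.W n ω := (Prod.mk.inj h).1.symm
  have h2 : L.lam ω₀ = L.lam ω := (Prod.mk.inj h).2.symm
  refine ⟨fun h => h.1, fun hZ => ⟨hZ, L.rich_congr ω₀ ω h1 h2 h₀.2.1, ?_, ?_⟩⟩
  · rw [← L.PrV_congr h1 h2]
    exact h₀.2.2.1
  · rw [← L.lsur_congr h1 h2]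
    exact h₀.2.2.2

/-- the law of the class of a typical flag -/
theorem cnd_mu (L : Loc B₀ c₁ c₂ ρ γ ε₂ ε₃ b A K₁ n g) {B : ℕ} {s : ℝ} {ω₀ : L.Ω}
    (h₀ : L.Zg B s ω₀) :
    cnd (L.mu B s) (LV L) (LV L ω₀) = cnd (cE L.ν L.Z) (LV L) (LV L ω₀) := by
  have hpos : ∀ Q : L.Ω → Prop, Q ω₀ → 0 < ms L.ν (fun ω => LV L ω = LV L ω₀ ∧ Q ω) := by
    intro Q hQ
    classical
    rw [ms_eq]
    refine sum_pos' (fun ω _ => ?_) ⟨ω₀, mem_univ _, ?_⟩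
    · split_ifs
      · exact L.prob.nonneg ω
      · exact le_rfl
    · rw [if_pos ⟨rfl, hQ⟩]
      exact L.pos ω₀
  have h1 : cnd (cE L.ν (L.Zg B s)) (LV L) (LV L ω₀) =
      cE (cnd L.ν (LV L) (LV L ω₀)) L.Z :=
    cnd_cE L.prob (L.Zg B s) (LV L) (LV L ω₀) L.Z (fun ω h => Zg_iff L h₀ h) (hpos _ h₀)
  have h2 : cnd (cE L.ν L.Z) (LV L) (LV L ω₀) = cE (cnd L.ν (LV L) (LV L ω₀)) L.Z :=
    cnd_cE L.prob L.Z (LV L) (LV L ω₀) L.Z (fun ω _ => Iff.rfl) (hpos _ h₀.1)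
  rw [h2, ← h1]
  rfl

/-- the mass of the class of a typical flag, if the typical flags are not rare in it -/
theorem Pr_mu_V (L : Loc B₀ c₁ c₂ ρ γ ε₂ ε₃ b A K₁ n g) {B : ℕ} {s : ℝ} {ω₀ : L.Ω}
    (h₀ : L.Zg B s ω₀) {δ : ℝ} (hδ : 0 < δ)
    (hZ : δ ≤ PE (cnd L.ν (LV L) (LV L ω₀)) (L.Zg B s)) :
    δ * (1 / 2) ^ B ≤ Pr (L.mu B s) (LV L) (LV L ω₀) := by
  have hm : 0 < PE L.ν (L.Zg B s) := by
    rw [← ms_eq_PE]
    classical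
    rw [ms_eq]
    refine sum_pos' (fun ω _ => ?_) ⟨ω₀, mem_univ _, ?_⟩
    · split_ifs
      · exact L.prob.nonneg ω
      · exact le_rfl
    · rw [if_pos h₀]
      exact L.pos ω₀
  have hPrV : 0 < Pr L.ν (LV L) (LV L ω₀) := Pr_pos L.prob _ (L.pos ω₀)
  have h1 : Pr (L.mu B s) (LV L) (LV L ω₀) =
      ms L.ν (fun ω => L.Zg B s ω ∧ LV L ω = LV L ω₀) / ms L.ν (L.Zg B s) := by
    rw [← ms_eq_Pr]
    exact ms_cE L.prob _ _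
  have h2 : PE (cnd L.ν (LV L) (LV L ω₀)) (L.Zg B s) =
      ms L.ν (fun ω => LV L ω = LV L ω₀ ∧ L.Zg B s ω) / Pr L.ν (LV L) (LV L ω₀) := by
    rw [← ms_eq_PE, ms_cnd']
  rw [h2, le_div_iff₀ hPrV] at hZ
  have h3 : ms L.ν (L.Zg B s) ≤ 1 := ms_le_one L.prob _
  rw [h1, le_div_iff₀ (by rwa [ms_eq_PE])]
  have h4 : (1 / 2 : ℝ) ^ B ≤ Pr L.ν (LV L) (LV L ω₀) := h₀.2.2.1
  have h5 : ms L.ν (fun ω => L.Zg B s ω ∧ LV L ω = LV L ω₀) =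
      ms L.ν (fun ω => LV L ω = LV L ω₀ ∧ L.Zg B s ω) :=
    ms_congr L.prob fun ω _ => and_comm
  rw [h5]
  refine le_trans ?_ hZ
  have h6 : 0 < δ * (1 / 2 : ℝ) ^ B := by positivity
  calc δ * (1 / 2) ^ B * ms L.ν (L.Zg B s) ≤ δ * (1 / 2) ^ B * 1 :=
        mul_le_mul_of_nonneg_left h3 h6.le
    _ ≤ δ * Pr L.ν (LV L) (LV L ω₀) := by
        rw [mul_one]
        exact mul_le_mul_of_nonneg_left h4 hδ.le

/-- the content of one class which is turned into columns -/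
noncomputable def clow (γ η τ δ : ℝ) (q : ℕ) : ℝ :=
  ((1 - γ) * Real.log (1 / η) - 2 * Real.log (1 / δ) - 15) / 8 - 1 -
    8 * ((6 + q : ℕ) * (Real.log (1 / η) / Real.log (1 / τ) + 1))

/-- **the choice of the columns** -/
theorem colsel (L : Loc B₀ c₁ c₂ ρ γ ε₂ ε₃ b A K₁ n g) {q₀ : ℕ} (hq₀ : 2 ≤ q₀) {B : ℕ} {s : ℝ}
    (hμ : IsProb (L.mu B s)) {δ : ℝ} (hδ : 0 < δ) (hδm : δ / PE L.ν (L.Zg B s) ≤ 3 / 8)
    (p : Prm) (hM : (L.fr hq₀).Tm ≤ p.K + p.M)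
    (htop : ∀ ω ω' : L.Ω, |(L.ln ω').1 - (L.ln ω).1| ≤ 2 ^ (-(p.k₀ + ((q₀ + 1 : ℕ) : ℤ))) / 3)
    (hbot : ∀ ω ω' : L.Ω, (L.ln ω').1 ≠ (L.ln ω).1 →
      (2 : ℝ) ^ (-(p.k₀ + p.K + ((q₀ + 1 : ℕ) : ℤ))) / 6 < |(L.ln ω').1 - (L.ln ω).1|)
    {η τ ε : ℝ} (hη : 0 < η) (hη1 : η ≤ 1 / 2) (hτ0 : 0 < τ) (hτ : τ ≤ 1 / 2)
    (hP : 6 + (q₀ + 1) ≤ p.PP) (hε : 4 * ((2 : ℝ) ^ p.PP) ^ 2 * ε ≤ τ) (hε0 : 0 < ε)
    (hε1 : ε ≤ 1) (hA : 16 * Real.log (1 / η) ≤ A * δ * η) (hA0 : 0 < A) :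
    (p.nT / 64 : ℝ) < ∑ i : Fin p.nT, ms (L.mu B s) (fun ω => ∃ κ : p.Kap,
      Big (L.fr hq₀) L.ln p L.lam (L.mu B s) (δ * (1 / 2) ^ B) η (κ, i) ω ∧
      Gnt (L.fr hq₀) L.ln p L.lam (L.mu B s) (q₀ + 1) τ (κ, i) ω) ∨
    clow γ η τ δ (q₀ + 1) * p.nT / 4 ≤ (4 * ((2 : ℝ) ^ p.PP) ^ 3 + 4) *
      ((1 + Real.log (1 / ε)) * (colF (L.fr hq₀) L.ln p L.lam hμ (δ * (1 / 2) ^ B) (q₀ + 1) η
        hε0 hε1).J (L.mu B s)) := by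
  classical
  set F := L.fr hq₀ with hF
  set μ := L.mu B s with hμd
  have hV : FV F L.lam = LV L := FV_fr L hq₀
  have hlε : 0 ≤ Real.log (1 / ε) := Real.log_nonneg (by
    rw [le_div_iff₀ hε0]
    linarith)
  by_cases hGI : ∑ i : Fin p.nT, ms μ (fun ω => ∃ κ : p.Kap,
      Big F L.ln p L.lam μ (δ * (1 / 2) ^ B) η (κ, i) ω ∧
      Gnt F L.ln p L.lam μ (q₀ + 1) τ (κ, i) ω) ≤ p.nT / 64
  swap
  · exact Or.inl (not_le.1 hGI)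
  refine Or.inr ?_
  by_cases hc : 0 ≤ clow γ η τ δ (q₀ + 1)
  swap
  · push Not at hc
    have h1 : clow γ η τ δ (q₀ + 1) * p.nT / 4 ≤ 0 := by
      have hn : (0 : ℝ) < p.nT := by exact_mod_cast p.nT_pos
      nlinarith
    refine h1.trans ?_
    have h2 := H700.Cols.J_nonneg (C := colF F L.ln p L.lam hμ (δ * (1 / 2) ^ B) (q₀ + 1) η
        hε0 hε1) hμ
    positivity
  refine colsel_abs hμ hP hε0 hε1 (fun ω => ?_)
    (fun ω => δ ≤ PE (cnd L.ν (LV L) (LV L ω)) (L.Zg B s)) ?_ ?_ hc (by positivity) ?_ hGI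
  · exact (F.T'_le ω).trans hM
  · intro ω hω h
    rw [hV]
    exact Pr_mu_V L (H859.Loc.Zg_of_mu hω) hδ h
  · have h1 := ms_thin_le L.prob (L.Zg B s) (LV L) hδ.le
    refine le_trans ?_ (h1.trans hδm)
    refine ms_mono hμ fun ω _ h => ?_
    exact not_le.1 h
  · intro ω₀ hω₀ hgood j hG
    have h₀ : L.Zg B s ω₀ := H859.Loc.Zg_of_mu hω₀
    rw [hV] at hG
    have e := cnd_mu L h₀
    rw [← hμd] at e
    have hZ : PE (cnd L.ν (LV L) (LV L ω₀)) (L.Zg B s) = PE (cnd L.ν (LV L) (LV L ω₀)) L.Z := by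
      rw [← ms_eq_PE, ← ms_eq_PE]
      refine ms_congr (cnd_isProb L.prob (Pr_pos L.prob _ (L.pos ω₀))) fun ω hω => ?_
      exact Zg_iff L h₀ (cnd_pos hω)
    rw [hZ] at hgood
    rw [e] at hG
    have key := loc_class L (ω₀ := ω₀) h₀.2.1 hδ hgood (x := F.P.x ω₀) (T := F.T' ω₀)
      (q := q₀ + 1) (fun y h1 h2 => by
        have h3 := L.fr_near hq₀ ω₀ h1 h2
        rw [zpow_neg, zpow_natCast, ← div_eq_mul_inv]
        exact h3)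
      (k₀ := p.k₀) (k₁ := p.k₀ + p.K) htop hbot (fun a => ph F p ω₀ j a) hη hη1 hτ0 hτ
      (P := p.PP) hP hε hε0 hA hA0 hG
    rw [← e, ← hV, Sc_four ω₀ ((F.T'_le ω₀).trans hM)] at key
    exact key

end Vale.Agent.P065.H725
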