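import Vale.Agent.P065.H725.Mass

/-!
# P065: random centres (helper725)

`exists_centres`: independent random centres of cells, derandomized. `select`: a set of lines whose
mass is at least `exp (- content)` and whose slopes are close inside every big cell.
-/

set_option autoImplicit false

namespace Vale.Agent.P065.H725

open Finset Vale.Agent.P065.UB Vale.Agent.P065.Ent

variable {Ω : Type*} [Fintype Ω]

theorem exists_ge_avg {lam : Ω → ℝ} (hl : IsProb lam) (T : Ω → ℝ) :
    ∃ c, ∑ ω, lam ω * T ω ≤ T c := by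
  by_contra hcon
  push Not at hcon
  set m := ∑ ω, lam ω * T ω with hm
  have h1 : ∑ ω, lam ω * T ω < ∑ ω, lam ω * m := by
    apply sum_lt_sum
    · intro ω _
      exact mul_le_mul_of_nonneg_left (hcon ω).le (hl.nonneg ω)
    · have h2 : ∃ ω, 0 < lam ω := by
        by_contra h3
        push Not at h3
        have h4 : ∑ ω, lam ω ≤ 0 := sum_nonpos fun ω _ => h3 ω
        rw [hl.sum] at h4
        linarith
      obtain ⟨ω, h4⟩ := h2
      exact ⟨ω, mem_univ _, mul_lt_mul_of_pos_left (hcon ω) h4⟩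
  rw [← sum_mul, hl.sum, one_mul] at h1
  exact lt_irrefl _ h1

open Classical in
/-- **random centres** -/
theorem exists_centres [Nonempty Ω] {β : Type*} (B : Finset β) (lam : β → Ω → ℝ)
    (hl : ∀ b ∈ B, IsProb (lam b)) (ok : β → Ω → Ω → Prop) :
    ∀ f : Ω → ℝ, (∀ ω, 0 ≤ f ω) → ∃ c : β → Ω,
      ∑ ω, f ω * ∏ b ∈ B, ms (lam b) (ok b ω) ≤ ms f (fun ω => ∀ b ∈ B, ok b ω (c b)) := by
  induction B using Finset.induction_on with
  | empty =>
    intro f hf
    obtain ⟨ω₀⟩ := ‹Nonempty Ω›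
    refine ⟨fun _ => ω₀, le_of_eq ?_⟩
    rw [ms_eq]
    refine sum_congr rfl fun ω _ => ?_
    rw [prod_empty, mul_one, if_pos]
    intro b hb
    exact absurd hb (notMem_empty b)
  | insert b₀ B hb ih =>
    intro f hf
    have hl' : ∀ b ∈ B, IsProb (lam b) := fun b hbB => hl b (mem_insert_of_mem hbB)
    have hl0 : IsProb (lam b₀) := hl b₀ (mem_insert_self _ _)
    obtain ⟨c0, hc0⟩ := exists_ge_avg hl0 (fun c => ∑ ω, (if ok b₀ ω c then f ω else 0) *
      ∏ b ∈ B, ms (lam b) (ok b ω))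
    obtain ⟨c, hc⟩ := ih hl' (fun ω => if ok b₀ ω c0 then f ω else 0) (fun ω => by
      show 0 ≤ if ok b₀ ω c0 then f ω else 0
      split_ifs
      · exact hf ω
      · exact le_rfl)
    refine ⟨fun b => if b = b₀ then c0 else c b, ?_⟩
    have h1 : ∑ ω, f ω * ∏ b ∈ insert b₀ B, ms (lam b) (ok b ω) =
        ∑ c, lam b₀ c * ∑ ω, (if ok b₀ ω c then f ω else 0) *
          ∏ b ∈ B, ms (lam b) (ok b ω) := by
      simp only [mul_sum]
      rw [sum_comm]
      refine sum_congr rfl fun ω _ => ?_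
      rw [prod_insert hb, ms_eq, sum_mul, mul_sum]
      refine sum_congr rfl fun c' _ => ?_
      split_ifs
      · ring
      · ring
    rw [h1]
    refine hc0.trans (hc.trans (le_of_eq ?_))
    rw [ms_eq, ms_eq]
    refine sum_congr rfl fun ω _ => ?_
    have h2 : (∀ b ∈ insert b₀ B, ok b ω (if b = b₀ then c0 else c b)) ↔
        (∀ b ∈ B, ok b ω (c b)) ∧ ok b₀ ω c0 := by
      constructor
      · intro h
        refine ⟨fun b hbB => ?_, ?_⟩
        · have h3 := h b (mem_insert_of_mem hbB)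
          rwa [if_neg (fun h4 : b = b₀ => hb (h4 ▸ hbB))] at h3
        · have h3 := h b₀ (mem_insert_self _ _)
          rwa [if_pos rfl] at h3
      · rintro ⟨h3, h4⟩ b hbB
        rcases mem_insert.1 hbB with rfl | h5
        · rwa [if_pos rfl]
        · rw [if_neg (fun h6 : b = b₀ => hb (h6 ▸ h5))]
          exact h3 b h5
    by_cases h3 : ∀ b ∈ B, ok b ω (c b)
    · by_cases h4 : ok b₀ ω c0
      · rw [if_pos h3, if_pos h4, if_pos (h2.2 ⟨h3, h4⟩)]
      · rw [if_pos h3, if_neg h4, if_neg (fun h => h4 (h2.1 h).2)]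
    · rw [if_neg h3, if_neg (fun h => h3 (h2.1 h).1)]

/-- a lower bound for an average of products (Jensen) -/
theorem exp_avg_log_le {ν : Ω → ℝ} (hν : IsProb ν) (x : Ω → ℝ) (hx : ∀ ω, 0 < ν ω → 0 < x ω) :
    Real.exp (∑ ω, ν ω * Real.log (x ω)) ≤ ∑ ω, ν ω * x ω := by
  set c := ∑ ω, ν ω * Real.log (x ω) with hc
  have h1 : ∀ ω, ν ω * (Real.exp c * (1 + Real.log (x ω) - c)) ≤ ν ω * x ω := by
    intro ω
    rcases (hν.nonneg ω).eq_or_lt with h0 | h0
    · rw [← h0]; simp
    · apply mul_le_mul_of_nonneg_left _ h0.le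
      have h2 := Real.add_one_le_exp (Real.log (x ω) - c)
      have h3 : x ω = Real.exp c * Real.exp (Real.log (x ω) - c) := by
        rw [← Real.exp_add, add_sub_cancel, Real.exp_log (hx ω h0)]
      conv_rhs => rw [h3]
      apply mul_le_mul_of_nonneg_left _ (Real.exp_pos c).le
      linarith
  have h2 := sum_le_sum fun ω (_ : ω ∈ univ) => h1 ω
  have h3 : ∑ ω, ν ω * (Real.exp c * (1 + Real.log (x ω) - c)) =
      Real.exp c * (1 * (∑ ω, ν ω) + (∑ ω, ν ω * Real.log (x ω)) - c * ∑ ω, ν ω) := by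
    rw [mul_sum, mul_sum, ← sum_add_distrib, ← sum_sub_distrib, mul_sum]
    refine sum_congr rfl fun ω _ => ?_
    ring
  rw [h3, hν.sum, ← hc] at h2
  calc Real.exp c = Real.exp c * (1 * 1 + c - c * 1) := by ring
    _ ≤ _ := h2

section select

variable {α ζ : Type*} (cel : α → ℤ → Pt → ζ) (r : ℤ → ℝ)

/-- the mass of the cell of a flag -/
noncomputable def cm (ν : Ω → ℝ) (ln : Ω → Pt) (a : α) (k : ℤ) (ω : Ω) : ℝ :=
  ms ν (fun ω' => cel a k (ln ω') = cel a k (ln ω))

/-- the relative mass of the lines of the cell with a slope close to the slope of the flag -/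
noncomputable def nr (ν : Ω → ℝ) (ln : Ω → Pt) (a : α) (k : ℤ) (ω : Ω) : ℝ :=
  ms ν (fun ω' => cel a k (ln ω') = cel a k (ln ω) ∧ |(ln ω').1 - (ln ω).1| ≤ r k) /
    cm cel ν ln a k ω

open Classical in
/-- the content of the big cells: `E ∑ log (1 / near mass)` -/
noncomputable def content [Fintype α] (ν : Ω → ℝ) (ln : Ω → Pt) (K : Finset ℤ) (η : ℝ) : ℝ :=
  ∑ a : α, ∑ k ∈ K, ∑ ω, ν ω *
    (if η ≤ cm cel ν ln a k ω then - Real.log (nr cel r ν ln a k ω) else 0)

theorem cm_nonneg {ν : Ω → ℝ} (hν : IsProb ν) (ln : Ω → Pt) (a : α) (k : ℤ) (ω : Ω) :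
    0 ≤ cm cel ν ln a k ω := ms_nonneg hν _

theorem ms_pos {ν : Ω → ℝ} (hν : IsProb ν) {Q : Ω → Prop} {ω : Ω} (h : 0 < ν ω) (hQ : Q ω) :
    0 < ms ν Q := by
  classical
  have h1 : (if Q ω then ν ω else 0) ≤ ∑ ω, if Q ω then ν ω else 0 :=
    single_le_sum (f := fun ω => if Q ω then ν ω else 0) (fun ω' _ => by
      show 0 ≤ if Q ω' then ν ω' else 0
      split_ifs
      · exact hν.nonneg ω'
      · exact le_rfl) (mem_univ ω)
  rw [if_pos hQ] at h1
  rw [ms_eq]
  linarith

theorem nr_pos {ν : Ω → ℝ} (hν : IsProb ν) (ln : Ω → Pt) (hr : ∀ k, 0 ≤ r k) (a : α) (k : ℤ)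
    {ω : Ω} (h : 0 < ν ω) : 0 < nr cel r ν ln a k ω := by
  unfold nr
  apply div_pos
  · exact ms_pos hν h ⟨rfl, by simp [hr k]⟩
  · exact ms_pos hν h rfl

theorem nr_le_one {ν : Ω → ℝ} (hν : IsProb ν) (ln : Ω → Pt) (a : α) (k : ℤ)
    (ω : Ω) : nr cel r ν ln a k ω ≤ 1 := by
  unfold nr
  exact div_le_one_of_le₀ (ms_mono hν fun _ _ h => h.1) (ms_nonneg hν _)

theorem nr_nonneg {ν : Ω → ℝ} (hν : IsProb ν) (ln : Ω → Pt) (a : α) (k : ℤ)
    (ω : Ω) : 0 ≤ nr cel r ν ln a k ω := by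
  unfold nr
  exact div_nonneg (ms_nonneg hν _) (ms_nonneg hν _)

theorem ms_eq_Pr {ν : Ω → ℝ} {κ : Type*} (Y : Ω → κ) (z : κ) :
    ms ν (fun ω => Y ω = z) = Pr ν Y z := by
  classical
  rw [ms_eq]
  unfold Pr
  refine sum_congr rfl fun ω _ => ?_
  split_ifs <;> rfl

theorem ms_true {ν : Ω → ℝ} (hν : IsProb ν) {Q : Ω → Prop} (h : ∀ ω, Q ω) : ms ν Q = 1 := by
  classical
  rw [ms_eq, ← hν.sum]
  exact sum_congr rfl fun ω _ => if_pos (h ω)

theorem ms_cnd {ν : Ω → ℝ} {κ : Type*} (Y : Ω → κ) (z : κ) (Q : Ω → Prop) :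
    ms (cnd ν Y z) Q = ms ν (fun ω => Y ω = z ∧ Q ω) / Pr ν Y z := by
  classical
  rw [ms_eq, ms_eq, sum_div]
  refine sum_congr rfl fun ω _ => ?_
  unfold cnd
  by_cases h1 : Y ω = z <;> by_cases h2 : Q ω <;> simp [h1, h2]

open Classical in
/-- **selection**: a set of lines whose slopes are close inside every big cell, of mass at least
`exp (- content)` -/
theorem select [Fintype α] {ν : Ω → ℝ} (hν : IsProb ν) (ln : Ω → Pt) (hr : ∀ k, 0 ≤ r k)
    (K : Finset ℤ) {η : ℝ} (hη : 0 < η) :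
    ∃ F : Pt → Prop, Real.exp (- content cel r ν ln K η) ≤ ms ν (fun ω => F (ln ω)) ∧
      ∀ a, ∀ k ∈ K, ∀ ω ω', F (ln ω) → F (ln ω') → cel a k (ln ω') = cel a k (ln ω) →
        η ≤ cm cel ν ln a k ω → |(ln ω').1 - (ln ω).1| ≤ 2 * r k := by
  have hΩ : Nonempty Ω := by
    by_contra h
    rw [not_nonempty_iff] at h
    have := hν.sum
    simp at this
  set Z : Finset ζ := ((univ : Finset α) ×ˢ K ×ˢ (univ : Finset Ω)).image
    (fun t => cel t.1 t.2.1 (ln t.2.2)) with hZ
  set B : Finset ((α × ℤ) × ζ) := ((univ : Finset α) ×ˢ K) ×ˢ Z with hB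
  let big : (α × ℤ) × ζ → Prop := fun b => η ≤ ms ν (fun ω => cel b.1.1 b.1.2 (ln ω) = b.2)
  let lam : (α × ℤ) × ζ → Ω → ℝ := fun b =>
    if big b then cnd ν (fun ω => cel b.1.1 b.1.2 (ln ω)) b.2 else ν
  let ok : (α × ℤ) × ζ → Ω → Ω → Prop := fun b ω c =>
    big b → cel b.1.1 b.1.2 (ln ω) = b.2 → |(ln ω).1 - (ln c).1| ≤ r b.1.2
  have hl : ∀ b ∈ B, IsProb (lam b) := by
    intro b _
    show IsProb (if big b then cnd ν (fun ω => cel b.1.1 b.1.2 (ln ω)) b.2 else ν)
    split_ifs with h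
    · apply cnd_isProb hν
      have h' : η ≤ ms ν (fun ω => cel b.1.1 b.1.2 (ln ω) = b.2) := h
      rw [ms_eq_Pr] at h'
      linarith
    · exact hν
  obtain ⟨c, hc⟩ := exists_centres B lam hl ok ν hν.nonneg
  refine ⟨fun v => ∀ b ∈ B, big b → cel b.1.1 b.1.2 v = b.2 → |v.1 - (ln (c b)).1| ≤ r b.1.2,
    ?_, ?_⟩
  · refine le_trans ?_ hc
    -- the product
    have h2 : ∀ ω, 0 < ν ω → ∏ b ∈ B, ms (lam b) (ok b ω) =
        ∏ p ∈ (univ : Finset α) ×ˢ K, (if η ≤ cm cel ν ln p.1 p.2 ω then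
          nr cel r ν ln p.1 p.2 ω else 1) := by
      intro ω _
      rw [hB, prod_product]
      refine prod_congr rfl fun p hp => ?_
      obtain ⟨-, hpK⟩ := mem_product.1 hp
      have hz : cel p.1 p.2 (ln ω) ∈ Z := mem_image.2 ⟨(p.1, p.2, ω), by simp [hpK], rfl⟩
      rw [prod_eq_single (cel p.1 p.2 (ln ω))]
      · have hcm : cm cel ν ln p.1 p.2 ω =
            Pr ν (fun ω => cel p.1 p.2 (ln ω)) (cel p.1 p.2 (ln ω)) := by
          unfold cm
          exact ms_eq_Pr (fun ω => cel p.1 p.2 (ln ω)) _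
        by_cases hbig : η ≤ cm cel ν ln p.1 p.2 ω
        · have hb1 : big (p, cel p.1 p.2 (ln ω)) := hbig
          have hlam : lam (p, cel p.1 p.2 (ln ω)) =
              cnd ν (fun ω => cel p.1 p.2 (ln ω)) (cel p.1 p.2 (ln ω)) := if_pos hb1
          rw [if_pos hbig, hlam, ms_cnd]
          unfold nr
          rw [hcm]
          congr 1
          apply ms_congr hν
          intro ω' _
          constructor
          · rintro ⟨h3, h4⟩
            refine ⟨h3, ?_⟩
            rw [abs_sub_comm]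
            exact h4 hb1 rfl
          · rintro ⟨h3, h4⟩
            refine ⟨h3, fun _ _ => ?_⟩
            rw [abs_sub_comm]
            exact h4
        · have hb1 : ¬ big (p, cel p.1 p.2 (ln ω)) := hbig
          have hlam : lam (p, cel p.1 p.2 (ln ω)) = ν := if_neg hb1
          rw [if_neg hbig, hlam]
          exact ms_true hν fun ω' h3 => absurd h3 hb1
      · intro z hzZ hne
        exact ms_true (hl (p, z) (mem_product.2 ⟨hp, hzZ⟩)) fun ω' _ h3 => absurd h3.symm hne
      · intro h; exact absurd hz h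
    have h3 : ∑ ω, ν ω * ∏ b ∈ B, ms (lam b) (ok b ω) =
        ∑ ω, ν ω * ∏ p ∈ (univ : Finset α) ×ˢ K, (if η ≤ cm cel ν ln p.1 p.2 ω then
          nr cel r ν ln p.1 p.2 ω else 1) := by
      refine sum_congr rfl fun ω _ => ?_
      rcases (hν.nonneg ω).eq_or_lt with h0 | h0
      · rw [← h0, zero_mul, zero_mul]
      · rw [h2 ω h0]
    rw [h3]
    refine le_trans (le_of_eq ?_) (exp_avg_log_le hν _ ?_)
    · congr 1
      unfold content
      have h4 : ∀ ω, ν ω * Real.log (∏ p ∈ (univ : Finset α) ×ˢ K,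
          (if η ≤ cm cel ν ln p.1 p.2 ω then nr cel r ν ln p.1 p.2 ω else 1)) =
          ∑ a : α, ∑ k ∈ K, - (ν ω *
            (if η ≤ cm cel ν ln a k ω then - Real.log (nr cel r ν ln a k ω) else 0)) := by
        intro ω
        rcases (hν.nonneg ω).eq_or_lt with h0 | h0
        · rw [← h0]; simp
        · rw [Real.log_prod, sum_product, mul_sum]
          · refine sum_congr rfl fun a _ => ?_
            rw [mul_sum]
            refine sum_congr rfl fun k _ => ?_
            show ν ω * Real.log (if η ≤ cm cel ν ln a k ω then nr cel r ν ln a k ω else 1) = _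
            split_ifs
            · ring
            · simp
          · intro p _
            split_ifs
            · exact (nr_pos cel r hν ln hr p.1 p.2 h0).ne'
            · exact one_ne_zero
      rw [sum_congr rfl fun ω _ => h4 ω, ← sum_neg_distrib, sum_comm]
      refine sum_congr rfl fun a _ => ?_
      rw [← sum_neg_distrib, sum_comm]
      refine sum_congr rfl fun k _ => ?_
      rw [sum_neg_distrib]
    · intro ω h0
      apply prod_pos
      intro p _
      split_ifs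
      · exact nr_pos cel r hν ln hr p.1 p.2 h0
      · exact one_pos
  · intro a k hk ω ω' hF hF' hcel hbig
    have hbB : ((a, k), cel a k (ln ω)) ∈ B :=
      mem_product.2 ⟨mem_product.2 ⟨mem_univ _, hk⟩, mem_image.2 ⟨(a, k, ω), by simp [hk], rfl⟩⟩
    have h1 := hF _ hbB hbig rfl
    have h2 := hF' _ hbB hbig hcel
    simp only at h1 h2
    have h3 := abs_sub_le (ln ω').1 (ln (c ((a, k), cel a k (ln ω)))).1 (ln ω).1
    rw [abs_sub_comm (ln (c ((a, k), cel a k (ln ω)))).1 (ln ω).1] at h3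
    linarith

end select

end Vale.Agent.P065.H725
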