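import Vale.Agent.P065.H725.Cross
import Vale.Agent.P065.H725.Select

/-!
# P065: the content lemma (helper725)

In an optimal class the slope splits of the big cells have content at least
`c log (1 / η) - C log (1 / p) - C`.
-/

set_option autoImplicit false

namespace Vale.Agent.P065.H725

open Finset Vale.Agent.P065.UB Vale.Agent.P065.UB.RankAux Vale.Agent.P065.H987
  Vale.Agent.P065.H859 Vale.Agent.P065.Ent

variable {Ω ι : Type*} [Fintype Ω]

theorem ms_cE {ν : Ω → ℝ} (hν : IsProb ν) (A Q : Ω → Prop) :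
    ms (cE ν A) Q = ms ν (fun ω => A ω ∧ Q ω) / ms ν A := by
  classical
  unfold cE
  rw [ms_cnd, ms_eq_PE ν A]
  congr 1
  apply ms_congr hν
  intro ω _
  simp

theorem cE_isProb {ν : Ω → ℝ} (hν : IsProb ν) {A : Ω → Prop} (h : 0 < ms ν A) :
    IsProb (cE ν A) := by
  rw [ms_eq_PE] at h
  exact cnd_isProb hν h

theorem exists_min_scale {K : Finset ℤ} {Q : ℤ → Prop} (h : ∃ k ∈ K, Q k) :
    ∃ k ∈ K, Q k ∧ ∀ k' ∈ K, Q k' → k ≤ k' := by
  classical
  obtain ⟨k, hk, hQ⟩ := h
  have hne : (K.filter Q).Nonempty := ⟨k, mem_filter.2 ⟨hk, hQ⟩⟩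
  refine ⟨(K.filter Q).min' hne, ?_, ?_, ?_⟩
  · exact (mem_filter.1 (min'_mem _ hne)).1
  · exact (mem_filter.1 (min'_mem _ hne)).2
  · intro k' h1 h2
    exact min'_le _ _ (mem_filter.2 ⟨h1, h2⟩)

/-- two flags rarely share a small cell -/
theorem small_cells {ν : Ω → ℝ} (hν : IsProb ν) (ln : Ω → Pt) {α ζ : Type*} [Fintype α]
    (cel : α → ℤ → Pt → ζ) (K : Finset ℤ) {η : ℝ} (hη : 0 ≤ η)
    (hnest : ∀ a, ∀ k ∈ K, ∀ k' ∈ K, k ≤ k' → ∀ u v, cel a k' u = cel a k' v →
      cel a k u = cel a k v) (ω : Ω) :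
    ms ν (fun ω' => ∃ a, ∃ k ∈ K, cel a k (ln ω') = cel a k (ln ω) ∧
      ¬ η ≤ cm cel ν ln a k ω) ≤ Fintype.card α * η := by
  classical
  have h1 : ∀ a, ms ν (fun ω' => ∃ k ∈ K, cel a k (ln ω') = cel a k (ln ω) ∧
      ¬ η ≤ cm cel ν ln a k ω) ≤ η := by
    intro a
    by_cases hex : ∃ k ∈ K, ¬ η ≤ cm cel ν ln a k ω
    · obtain ⟨k, hk, hkη, hmin⟩ := exists_min_scale hex
      have h2 : ms ν (fun ω' => ∃ k ∈ K, cel a k (ln ω') = cel a k (ln ω) ∧
          ¬ η ≤ cm cel ν ln a k ω) ≤ cm cel ν ln a k ω := by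
        refine ms_mono hν ?_
        rintro ω' - ⟨k', h3, h4, h5⟩
        exact hnest a k hk k' h3 (hmin k' h3 h5) _ _ h4
      linarith [not_le.1 hkη]
    · have h2 : ms ν (fun ω' => ∃ k ∈ K, cel a k (ln ω') = cel a k (ln ω) ∧
          ¬ η ≤ cm cel ν ln a k ω) ≤ 0 := by
        by_contra hcon
        obtain ⟨ω', -, k, h3, -, h5⟩ := ms_pos_iff (not_le.1 hcon)
        exact hex ⟨k, h3, h5⟩
      linarith
  have h2 : ms ν (fun ω' => ∃ a, ∃ k ∈ K, cel a k (ln ω') = cel a k (ln ω) ∧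
      ¬ η ≤ cm cel ν ln a k ω) ≤
      ∑ a : α, ms ν (fun ω' => ∃ k ∈ K, cel a k (ln ω') = cel a k (ln ω) ∧
        ¬ η ≤ cm cel ν ln a k ω) := by
    rw [ms_eq, sum_congr rfl fun a _ => ms_eq _ _, sum_comm]
    refine sum_le_sum fun ω' _ => ?_
    have hnn : ∀ (a : α), 0 ≤ if (∃ k ∈ K, cel a k (ln ω') = cel a k (ln ω) ∧
        ¬ η ≤ cm cel ν ln a k ω) then ν ω' else 0 := by
      intro a
      split_ifs
      · exact hν.nonneg ω'
      · exact le_rfl
    by_cases h : ∃ a, ∃ k ∈ K, cel a k (ln ω') = cel a k (ln ω) ∧ ¬ η ≤ cm cel ν ln a k ω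
    · rw [if_pos h]
      obtain ⟨a, ha⟩ := h
      have h3 := single_le_sum (f := fun a => if (∃ k ∈ K, cel a k (ln ω') = cel a k (ln ω) ∧
        ¬ η ≤ cm cel ν ln a k ω) then ν ω' else 0) (fun a _ => hnn a) (mem_univ a)
      rw [if_pos ha] at h3
      exact h3
    · rw [if_neg h]
      exact sum_nonneg fun a _ => hnn a
  refine h2.trans ((sum_le_sum fun a _ => h1 a).trans (le_of_eq ?_))
  rw [sum_const, nsmul_eq_mul, card_univ]

/-- **the content lemma** for a class of flags -/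
theorem Dat.content_bound (D : Dat Ω ι) {γ a : ℝ} (hγ0 : 0 ≤ γ) (hγ1 : γ ≤ 1) (ha1 : a ≤ 1)
    (hopt : D.Opt γ a) {x0 x1 : ℝ} (hx : ∀ e ∈ D.E, x0 < e.1 ∧ e.1 < x1) (A : Pt → Prop)
    (hp : 0 < ms D.ν (fun ω => A (D.ln ω))) {α ζ : Type*} [Fintype α] [Nonempty α]
    (cel : α → ℤ → Pt → ζ) (r : ℤ → ℝ) (hr : ∀ k, 0 ≤ r k) (K : Finset ℤ)
    (hnest : ∀ a, ∀ k ∈ K, ∀ k' ∈ K, k ≤ k' → ∀ u v, cel a k' u = cel a k' v →
      cel a k u = cel a k v)
    (hsep : ∀ ω ω', 0 < D.ν ω → 0 < D.ν ω' → A (D.ln ω) → A (D.ln ω') →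
      Cr x0 x1 (D.ln ω') (D.ln ω) → ∃ a, ∃ k ∈ K, cel a k (D.ln ω') = cel a k (D.ln ω) ∧
        2 * r k < |(D.ln ω').1 - (D.ln ω).1|)
    {η κ : ℝ} (hη : 0 < η) (hη1 : η ≤ 1 / 2)
    (hatom : ∀ v, ms D.ν (fun ω => D.ln ω = v) ≤ ms D.ν (fun ω => A (D.ln ω)) * η / 2)
    (hκ : ∀ a v, ms D.ν (fun ω => D.X ω = a ∧ D.ln ω = v) ≤ κ)
    (hfat : 16 * ne D.E * κ * Real.log (1 / η) ≤ ms D.ν (fun ω => A (D.ln ω)) * η) :
    (1 - γ) * Real.log (1 / η) ≤ 2 * Real.log (1 / ms D.ν (fun ω => A (D.ln ω))) +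
      Real.log (4 * Fintype.card α) + 12 +
      4 * content cel r (cE D.ν (fun ω => A (D.ln ω))) D.ln K η := by
  classical
  set p := ms D.ν (fun ω => A (D.ln ω)) with hpd
  set ν' := cE D.ν (fun ω => A (D.ln ω)) with hν'
  have hν'p : IsProb ν' := cE_isProb D.prob hp
  have hms : ∀ Q : Ω → Prop, ms ν' Q = ms D.ν (fun ω => A (D.ln ω) ∧ Q ω) / p :=
    fun Q => ms_cE D.prob _ Q
  set c := content cel r ν' D.ln K η with hc
  obtain ⟨F, hF1, hF2⟩ := select cel r hν'p D.ln hr K hη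
  set q := ms ν' (fun ω => F (D.ln ω)) with hq
  have hq0 : 0 < q := (Real.exp_pos _).trans_le hF1
  have hq1 : q ≤ 1 := ms_le_one hν'p _
  have hlogq : - Real.log q ≤ c := by
    have := Real.log_le_log (Real.exp_pos _) hF1
    rw [Real.log_exp] at this
    linarith
  have hlogq0 : 0 ≤ - Real.log q := by
    have := Real.log_nonpos hq0.le hq1
    linarith
  have hp1 : p ≤ 1 := ms_le_one D.prob _
  have hlogp : 0 ≤ Real.log (1 / p) := by
    apply Real.log_nonneg
    rw [le_div_iff₀ hp]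
    linarith
  have hn1 : (1 : ℝ) ≤ Fintype.card α := by
    have : 0 < Fintype.card α := Fintype.card_pos
    exact_mod_cast this
  set n : ℝ := ((Fintype.card α : ℕ) : ℝ) with hn
  have hn0 : 0 < n := by linarith
  have hlogη : 0 ≤ Real.log (1 / η) := by
    apply Real.log_nonneg
    rw [le_div_iff₀ hη]
    linarith
  have hpq : ms D.ν (fun ω => A (D.ln ω) ∧ F (D.ln ω)) = p * q := by
    rw [hq, hms, mul_div_cancel₀ _ hp.ne']
  set R := q ^ 2 / (2 * n * η) with hR
  have hR0 : 0 < R := by positivity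
  rcases lt_or_ge R 1 with hR1 | hR1
  · -- the selected mass is already small
    have h1 : q ^ 2 < 2 * n * η := by
      rw [hR, div_lt_one (by positivity)] at hR1
      exact hR1
    have h2 := Real.log_le_log (by positivity) h1.le
    rw [Real.log_pow, Real.log_mul (by positivity) hη.ne'] at h2
    have h3 : Real.log (2 * n) ≤ Real.log (4 * n) := by
      apply Real.log_le_log (by positivity)
      linarith
    have h4 : Real.log (1 / η) = - Real.log η := by
      rw [one_div, Real.log_inv]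
    have h5 : (1 - γ) * Real.log (1 / η) ≤ Real.log (1 / η) := by nlinarith
    push_cast at h2
    linarith
  · -- the crossing lemma for the selected lines
    have hcr : ∑ ω, D.ν ω * (ms D.ν (fun ω' => (A (D.ln ω') ∧ F (D.ln ω')) ∧
        Cr x0 x1 (D.ln ω') (D.ln ω) ∧ (A (D.ln ω) ∧ F (D.ln ω)))) ≤ p ^ 2 * (n * η) := by
      have h1 : ∀ ω, D.ν ω * (ms D.ν (fun ω' => (A (D.ln ω') ∧ F (D.ln ω')) ∧
          Cr x0 x1 (D.ln ω') (D.ln ω) ∧ (A (D.ln ω) ∧ F (D.ln ω)))) ≤
          (if A (D.ln ω) then D.ν ω else 0) * (p * (n * η)) := by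
        intro ω
        have h0 := D.prob.nonneg ω
        rcases h0.eq_or_lt with h0' | h0'
        · rw [← h0']
          simp
        by_cases hA : A (D.ln ω)
        · rw [if_pos hA]
          apply mul_le_mul_of_nonneg_left _ h0
          have h2 := small_cells hν'p D.ln cel K hη.le hnest ω
          rw [hms, div_le_iff₀ hp] at h2
          refine le_trans (ms_mono D.prob ?_) (h2.trans (le_of_eq (by rw [← hn]; ring)))
          rintro ω' hω' ⟨⟨h3, h4⟩, h5, -, h6⟩
          refine ⟨h3, ?_⟩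
          obtain ⟨a, k, hk, h7, h8⟩ := hsep ω ω' h0' hω' hA h3 h5
          refine ⟨a, k, hk, h7, fun h9 => ?_⟩
          have := hF2 a k hk ω ω' h6 h4 h7 h9
          linarith
        · rw [if_neg hA, zero_mul]
          have : ms D.ν (fun ω' => (A (D.ln ω') ∧ F (D.ln ω')) ∧
              Cr x0 x1 (D.ln ω') (D.ln ω) ∧ (A (D.ln ω) ∧ F (D.ln ω))) ≤ 0 := by
            by_contra hcon
            obtain ⟨ω', -, h3⟩ := ms_pos_iff (not_le.1 hcon)
            exact hA h3.2.2.1
          nlinarith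
      refine (sum_le_sum fun ω _ => h1 ω).trans (le_of_eq ?_)
      rw [← sum_mul]
      have h2 : (∑ ω, if A (D.ln ω) then D.ν ω else 0) = p := by rw [hpd, ms_eq]
      rw [h2]
      ring
    have hp' : 0 < ms D.ν (fun ω => A (D.ln ω) ∧ F (D.ln ω)) := by
      rw [hpq]
      positivity
    have hq2 : 2 * n * η ≤ q ^ 2 := by
      rw [hR, le_div_iff₀ (by positivity), one_mul] at hR1
      exact hR1
    have hηq : η ≤ q := by nlinarith
    have key := D.cross hγ0 hγ1 ha1 hopt hx (fun v => A v ∧ F v) hR1 hp' (κ := κ)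
      (by
        refine hcr.trans (le_of_eq ?_)
        show _ = ms D.ν (fun ω => A (D.ln ω) ∧ F (D.ln ω)) ^ 2 / (2 * R)
        rw [hpq, hR]
        field_simp)
      (by
        intro v
        refine (hatom v).trans ?_
        show _ ≤ ms D.ν (fun ω => A (D.ln ω) ∧ F (D.ln ω)) / (4 * R)
        have e1 : p * q / (4 * R) = p * η / 2 * (n / q) := by
          rw [hR]
          field_simp
          ring
        rw [hpq, e1]
        have e2 : 1 ≤ n / q := by
          rw [le_div_iff₀ hq0]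
          linarith
        have e3 : 0 ≤ p * η / 2 := by positivity
        nlinarith)
      hκ
      (by
        show _ ≤ ms D.ν (fun ω => A (D.ln ω) ∧ F (D.ln ω)) / 2
        rw [hpq]
        have hκ0 : 0 ≤ κ := by
          obtain ⟨ω, -, -⟩ := ms_pos_iff hp
          exact (ms_nonneg D.prob _).trans (hκ (D.X ω) (0, 0))
        have e1 : R + 1 ≤ 1 / η := by
          have e2 : R ≤ 1 / (2 * η) := by
            rw [hR]
            apply div_le_div₀ (by norm_num) (by nlinarith) (by positivity)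
            nlinarith
          have e3 : 1 ≤ 1 / (2 * η) := by
            rw [le_div_iff₀ (by positivity)]
            linarith
          have e4 : 1 / η = 1 / (2 * η) + 1 / (2 * η) := by
            field_simp
            ring
          linarith
        have e2 : Real.log (R + 1) ≤ Real.log (1 / η) := Real.log_le_log (by linarith) e1
        have e3 : 8 * (ne D.E : ℝ) * κ * Real.log (R + 1) ≤
            8 * ne D.E * κ * Real.log (1 / η) :=
          mul_le_mul_of_nonneg_left e2 (by positivity)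
        have e4 : p * η ≤ p * q := mul_le_mul_of_nonneg_left hηq hp.le
        linarith)
    have h1 : ms D.ν (fun ω => (fun v => A v ∧ F v) (D.ln ω)) = p * q := hpq
    rw [h1] at key
    have h2 : Real.log (R / 2) = 2 * Real.log q + Real.log (1 / η) - Real.log (4 * n) := by
      have e1 : R / 2 = q ^ 2 * (1 / η) / (4 * n) := by
        rw [hR]
        field_simp
        ring
      rw [e1, Real.log_div (by positivity) (by positivity), Real.log_mul (by positivity)
        (by positivity), Real.log_pow]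
      norm_num
    have h3 : Real.log (1 / (p * q)) = Real.log (1 / p) - Real.log q := by
      rw [one_div, Real.log_inv, Real.log_mul hp.ne' hq0.ne', one_div, Real.log_inv]
      ring
    rw [h2, h3] at key
    have h4 : 0 ≤ Real.log (4 * n) := by
      apply Real.log_nonneg
      linarith
    nlinarith

end Vale.Agent.P065.H725
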