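import Vale.Agent.P065.H725.Select

/-!
# P065: selection of lines, general form (helper725)

`near a k z v c` is any relation: the line `v` is near the centre `c` in the cell `(a, k, z)`.
`selectG`: a set of lines which are near one common centre in every big cell, of mass at least
`g₀ exp (- content / g₀)`, where only the lines of `Gd` (of mass `g₀`) count.
-/

set_option autoImplicit false

namespace Vale.Agent.P065.H725

open Finset Vale.Agent.P065.UB Vale.Agent.P065.Ent

variable {Ω : Type*} [Fintype Ω]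

/-- a lower bound for an average of products (Jensen), on a part of the space -/
theorem exp_avg_log_le' {ν : Ω → ℝ} (hν : IsProb ν) (G : Ω → Prop) (hG : 0 < ms ν G)
    (x : Ω → ℝ) (hx : ∀ ω, 0 < ν ω → 0 < x ω) [DecidablePred G] :
    ms ν G * Real.exp ((∑ ω, (if G ω then ν ω else 0) * Real.log (x ω)) / ms ν G) ≤
      ∑ ω, (if G ω then ν ω else 0) * x ω := by
  have hprob : IsProb (fun ω => (if G ω then ν ω else 0) / ms ν G) := by
    refine ⟨fun ω => ?_, ?_⟩
    · apply div_nonneg _ hG.le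
      split_ifs
      · exact hν.nonneg ω
      · exact le_rfl
    · rw [← sum_div, ← ms_eq, div_self hG.ne']
  have h1 := exp_avg_log_le hprob x (fun ω h => hx ω (by
    by_contra hc
    have h2 : ν ω = 0 := le_antisymm (not_lt.1 hc) (hν.nonneg ω)
    rw [h2] at h
    simp at h))
  have h2 : ∑ ω, (if G ω then ν ω else 0) / ms ν G * Real.log (x ω) =
      (∑ ω, (if G ω then ν ω else 0) * Real.log (x ω)) / ms ν G := by
    rw [sum_div]
    exact sum_congr rfl fun ω _ => by ring
  have h3 : ∑ ω, (if G ω then ν ω else 0) / ms ν G * x ω =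
      (∑ ω, (if G ω then ν ω else 0) * x ω) / ms ν G := by
    rw [sum_div]
    exact sum_congr rfl fun ω _ => by ring
  rw [h2, h3, le_div_iff₀ hG] at h1
  linarith

section select

variable {α ζ : Type*} (cel : α → ℤ → Pt → ζ) (near : α → ℤ → ζ → Pt → Pt → Prop)

/-- the relative mass of the lines of the cell which are near the line of the flag -/
noncomputable def nrG (ν : Ω → ℝ) (ln : Ω → Pt) (a : α) (k : ℤ) (ω : Ω) : ℝ :=
  ms ν (fun ω' => cel a k (ln ω') = cel a k (ln ω) ∧
    near a k (cel a k (ln ω)) (ln ω) (ln ω')) / cm cel ν ln a k ω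

open Classical in
/-- the content of the big cells, on the lines of `Gd` -/
noncomputable def contentG [Fintype α] (ν : Ω → ℝ) (ln : Ω → Pt) (Gd : Pt → Prop)
    (K : Finset ℤ) (η : ℝ) : ℝ :=
  ∑ a : α, ∑ k ∈ K, ∑ ω, (if Gd (ln ω) then ν ω else 0) *
    (if η ≤ cm cel ν ln a k ω then - Real.log (nrG cel near ν ln a k ω) else 0)

theorem nrG_pos {ν : Ω → ℝ} (hν : IsProb ν) (ln : Ω → Pt)
    (hr : ∀ a k z v, near a k z v v) (a : α) (k : ℤ)
    {ω : Ω} (h : 0 < ν ω) : 0 < nrG cel near ν ln a k ω := by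
  unfold nrG
  apply div_pos
  · exact ms_pos hν h ⟨rfl, hr _ _ _ _⟩
  · exact ms_pos hν h rfl

theorem nrG_le_one {ν : Ω → ℝ} (hν : IsProb ν) (ln : Ω → Pt) (a : α) (k : ℤ)
    (ω : Ω) : nrG cel near ν ln a k ω ≤ 1 := by
  unfold nrG
  exact div_le_one_of_le₀ (ms_mono hν fun _ _ h => h.1) (ms_nonneg hν _)

theorem nrG_nonneg {ν : Ω → ℝ} (hν : IsProb ν) (ln : Ω → Pt) (a : α) (k : ℤ)
    (ω : Ω) : 0 ≤ nrG cel near ν ln a k ω := by
  unfold nrG
  exact div_nonneg (ms_nonneg hν _) (ms_nonneg hν _)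

theorem contentG_nonneg [Fintype α] {ν : Ω → ℝ} (hν : IsProb ν) (ln : Ω → Pt) (Gd : Pt → Prop)
    (K : Finset ℤ) (η : ℝ) : 0 ≤ contentG cel near ν ln Gd K η := by
  classical
  unfold contentG
  refine sum_nonneg fun a _ => sum_nonneg fun k _ => sum_nonneg fun ω _ => ?_
  apply mul_nonneg
  · split_ifs
    · exact hν.nonneg ω
    · exact le_rfl
  · split_ifs
    · have := Real.log_nonpos (nrG_nonneg cel near hν ln a k ω) (nrG_le_one cel near hν ln a k ω)
      linarith
    · exact le_rfl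

open Classical in
/-- **selection**, general form -/
theorem selectG [Fintype α] {ν : Ω → ℝ} (hν : IsProb ν) (ln : Ω → Pt)
    (hr : ∀ a k z v, near a k z v v) (Gd : Pt → Prop) (hG : 0 < ms ν (fun ω => Gd (ln ω)))
    (K : Finset ℤ) {η : ℝ} (hη : 0 < η) :
    ∃ F : Pt → Prop, (∀ v, F v → Gd v) ∧
      ms ν (fun ω => Gd (ln ω)) * Real.exp (- (contentG cel near ν ln Gd K η /
        ms ν (fun ω => Gd (ln ω)))) ≤ ms ν (fun ω => F (ln ω)) ∧
      ∀ a, ∀ k ∈ K, ∀ ω ω', F (ln ω) → F (ln ω') → cel a k (ln ω') = cel a k (ln ω) →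
        η ≤ cm cel ν ln a k ω → ∃ c, near a k (cel a k (ln ω)) (ln ω) c ∧
          near a k (cel a k (ln ω)) (ln ω') c := by
  have hΩ : Nonempty Ω := by
    by_contra h
    rw [not_nonempty_iff] at h
    have := hν.sum
    simp at this
  set Z : Finset ζ := ((univ : Finset α) ×ˢ K ×ˢ (univ : Finset Ω)).image
    (fun t => cel t.1 t.2.1 (ln t.2.2)) with hZ
  set B : Finset ((α × ℤ) × ζ) := ((univ : Finset α) ×ˢ K) ×ˢ Z with hB
  let big : (α × ℤ) × ζ → Prop := fun b => η ≤ ms ν (fun ω => cel b.1.1 b.1.2 (ln ω) = b.2)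
  let lam : (α × ℤ) × ζ → Ω → ℝ := fun b =>
    if big b then cnd ν (fun ω => cel b.1.1 b.1.2 (ln ω)) b.2 else ν
  let ok : (α × ℤ) × ζ → Ω → Ω → Prop := fun b ω c =>
    big b → cel b.1.1 b.1.2 (ln ω) = b.2 → near b.1.1 b.1.2 b.2 (ln ω) (ln c)
  have hl : ∀ b ∈ B, IsProb (lam b) := by
    intro b _
    show IsProb (if big b then cnd ν (fun ω => cel b.1.1 b.1.2 (ln ω)) b.2 else ν)
    split_ifs with h
    · apply cnd_isProb hν
      have h' : η ≤ ms ν (fun ω => cel b.1.1 b.1.2 (ln ω) = b.2) := h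
      rw [ms_eq_Pr] at h'
      linarith
    · exact hν
  obtain ⟨c, hc⟩ := exists_centres B lam hl ok (fun ω => if Gd (ln ω) then ν ω else 0)
    (fun ω => by
      show 0 ≤ if Gd (ln ω) then ν ω else 0
      split_ifs
      · exact hν.nonneg ω
      · exact le_rfl)
  refine ⟨fun v => Gd v ∧ ∀ b ∈ B, big b → cel b.1.1 b.1.2 v = b.2 →
    near b.1.1 b.1.2 b.2 v (ln (c b)), fun v h => h.1, ?_, ?_⟩
  · have hc2 : ms (fun ω => if Gd (ln ω) then ν ω else 0) (fun ω => ∀ b ∈ B, ok b ω (c b)) ≤
        ms ν (fun ω => Gd (ln ω) ∧ ∀ b ∈ B, big b → cel b.1.1 b.1.2 (ln ω) = b.2 →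
          near b.1.1 b.1.2 b.2 (ln ω) (ln (c b))) := by
      rw [ms_eq, ms_eq]
      refine sum_le_sum fun ω _ => ?_
      by_cases h1 : Gd (ln ω)
      · by_cases h2 : ∀ b ∈ B, ok b ω (c b)
        · rw [if_pos h2, if_pos h1, if_pos ⟨h1, h2⟩]
        · rw [if_neg h2, if_neg (fun h => h2 h.2)]
      · have h3 := hν.nonneg ω
        have h4 : (if ∀ b ∈ B, ok b ω (c b) then (if Gd (ln ω) then ν ω else 0) else 0) = 0 := by
          rw [if_neg h1]
          split_ifs <;> rfl
        rw [h4]
        split_ifs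
        · exact h3
        · exact le_rfl
    refine le_trans ?_ (hc.trans hc2)
    -- the product
    have h2 : ∀ ω, 0 < ν ω → ∏ b ∈ B, ms (lam b) (ok b ω) =
        ∏ p ∈ (univ : Finset α) ×ˢ K, (if η ≤ cm cel ν ln p.1 p.2 ω then
          nrG cel near ν ln p.1 p.2 ω else 1) := by
      intro ω _
      rw [hB, prod_product]
      refine prod_congr rfl fun p hp => ?_
      obtain ⟨-, hpK⟩ := mem_product.1 hp
      have hz : cel p.1 p.2 (ln ω) ∈ Z := mem_image.2 ⟨(p.1, p.2, ω), by simp [hpK], rfl⟩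
      rw [prod_eq_single (cel p.1 p.2 (ln ω))]
      · have hcm : cm cel ν ln p.1 p.2 ω =
            Pr ν (fun ω => cel p.1 p.2 (ln ω)) (cel p.1 p.2 (ln ω)) := by
          unfold cm
          exact ms_eq_Pr (fun ω => cel p.1 p.2 (ln ω)) _
        by_cases hbig : η ≤ cm cel ν ln p.1 p.2 ω
        · have hb1 : big (p, cel p.1 p.2 (ln ω)) := hbig
          have hlam : lam (p, cel p.1 p.2 (ln ω)) =
              cnd ν (fun ω => cel p.1 p.2 (ln ω)) (cel p.1 p.2 (ln ω)) := if_pos hb1
          rw [if_pos hbig, hlam, ms_cnd]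
          unfold nrG
          rw [hcm]
          congr 1
          apply ms_congr hν
          intro ω' _
          constructor
          · rintro ⟨h3, h4⟩
            exact ⟨h3, h4 hb1 rfl⟩
          · rintro ⟨h3, h4⟩
            exact ⟨h3, fun _ _ => h4⟩
        · have hb1 : ¬ big (p, cel p.1 p.2 (ln ω)) := hbig
          have hlam : lam (p, cel p.1 p.2 (ln ω)) = ν := if_neg hb1
          rw [if_neg hbig, hlam]
          exact ms_true hν fun ω' h3 => absurd h3 hb1
      · intro z hzZ hne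
        exact ms_true (hl (p, z) (mem_product.2 ⟨hp, hzZ⟩)) fun ω' _ h3 => absurd h3.symm hne
      · intro h; exact absurd hz h
    have h3 : ∑ ω, (if Gd (ln ω) then ν ω else 0) * ∏ b ∈ B, ms (lam b) (ok b ω) =
        ∑ ω, (if Gd (ln ω) then ν ω else 0) * ∏ p ∈ (univ : Finset α) ×ˢ K,
          (if η ≤ cm cel ν ln p.1 p.2 ω then nrG cel near ν ln p.1 p.2 ω else 1) := by
      refine sum_congr rfl fun ω _ => ?_
      rcases (hν.nonneg ω).eq_or_lt with h0 | h0
      · rw [← h0]; simp
      · rw [h2 ω h0]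
    rw [h3]
    refine le_trans (le_of_eq ?_) (exp_avg_log_le' hν (fun ω => Gd (ln ω)) hG _ ?_)
    · congr 2
      rw [← neg_div]
      congr 1
      unfold contentG
      have h4 : ∀ ω, (if Gd (ln ω) then ν ω else 0) * Real.log (∏ p ∈ (univ : Finset α) ×ˢ K,
          (if η ≤ cm cel ν ln p.1 p.2 ω then nrG cel near ν ln p.1 p.2 ω else 1)) =
          ∑ a : α, ∑ k ∈ K, - ((if Gd (ln ω) then ν ω else 0) *
            (if η ≤ cm cel ν ln a k ω then - Real.log (nrG cel near ν ln a k ω) else 0)) := by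
        intro ω
        rcases (hν.nonneg ω).eq_or_lt with h0 | h0
        · rw [← h0]; simp
        · rw [Real.log_prod, sum_product, mul_sum]
          · refine sum_congr rfl fun a _ => ?_
            rw [mul_sum]
            refine sum_congr rfl fun k _ => ?_
            show (if Gd (ln ω) then ν ω else 0) * Real.log
              (if η ≤ cm cel ν ln a k ω then nrG cel near ν ln a k ω else 1) = _
            by_cases h5 : η ≤ cm cel ν ln a k ω
            · rw [if_pos h5, if_pos h5]
              ring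
            · rw [if_neg h5, if_neg h5]
              simp
          · intro p _
            split_ifs
            · exact (nrG_pos cel near hν ln hr p.1 p.2 h0).ne'
            · exact one_ne_zero
      rw [sum_congr rfl fun ω _ => h4 ω, ← sum_neg_distrib, sum_comm]
      refine sum_congr rfl fun a _ => ?_
      rw [← sum_neg_distrib, sum_comm]
      refine sum_congr rfl fun k _ => ?_
      rw [sum_neg_distrib]
    · intro ω h0
      apply prod_pos
      intro p _
      split_ifs
      · exact nrG_pos cel near hν ln hr p.1 p.2 h0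
      · exact one_pos
  · intro a k hk ω ω' hF hF' hcel hbig
    have hbB : ((a, k), cel a k (ln ω)) ∈ B :=
      mem_product.2 ⟨mem_product.2 ⟨mem_univ _, hk⟩, mem_image.2 ⟨(a, k, ω), by simp [hk], rfl⟩⟩
    have h1 := hF.2 _ hbB hbig rfl
    have h2 := hF'.2 _ hbB hbig hcel
    exact ⟨_, h1, h2⟩

end select

end Vale.Agent.P065.H725
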