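import Vale.Agent.P065.H725.Mass

/-!
# P065: the crossing lemma (helper725)

If a class of flags is optimal for the functional `log size + γ H + a H (. | X)`, then any set of
lines of mass `p` contains pairs of lines which change their order in the window, with probability
at least a power of `p`.
-/

set_option autoImplicit false

namespace Vale.Agent.P065.H725

open Finset Vale.Agent.P065.UB Vale.Agent.P065.UB.RankAux Vale.Agent.P065.H987
  Vale.Agent.P065.H859 Vale.Agent.P065.Ent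

/-- a law on flags with disjoint windows -/
structure Dat (Ω ι : Type*) [Fintype Ω] where
  ν : Ω → ℝ
  prob : IsProb ν
  tm : Ω → ℝ
  ln : Ω → Pt
  X : Ω → ι
  J : ι → Set ℝ
  E : Finset (ℝ × Pt)
  real : IsRealE E
  mem : ∀ ω, 0 < ν ω → (tm ω, ln ω) ∈ E
  conn : ∀ a, (J a).OrdConnected
  disj : ∀ a b, a ≠ b → Disjoint (J a) (J b)
  win : ∀ ω, 0 < ν ω → tm ω ∈ J (X ω)

variable {Ω ι : Type*} [Fintype Ω]

/-- exact optimality for all functions of the line -/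
def Dat.Opt (D : Dat Ω ι) (γ a : ℝ) : Prop := ∀ g : Pt → ℕ,
  Real.log (ne D.E) ≤ Ex D.ν (fun ω => Real.log (ne {e ∈ D.E | g e.2 = g (D.ln ω)})) +
    γ * H D.ν (fun ω => g (D.ln ω)) + a * Hc D.ν (fun ω => g (D.ln ω)) D.X

open Classical in
/-- the label of the crossing lemma: the index of the slow lines of `A`, and `0` elsewhere -/
noncomputable def lab (A : Pt → Prop) (i0 i1 : Pt → ℕ) (v : Pt) : ℕ :=
  if A v ∧ Slow i0 i1 v then i0 v + 1 else 0

theorem lab_eq_succ {A : Pt → Prop} {i0 i1 : Pt → ℕ} {v : Pt} {j : ℕ} :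
    lab A i0 i1 v = j + 1 ↔ (A v ∧ Slow i0 i1 v) ∧ i0 v = j := by
  classical
  unfold lab
  split_ifs with h
  · constructor
    · intro h1; exact ⟨h, Nat.succ.inj h1⟩
    · rintro ⟨-, h1⟩; rw [h1]
  · constructor
    · intro h1; exact absurd h1 (by simp)
    · rintro ⟨h1, -⟩; exact absurd h1 h

theorem lab_eq_zero {A : Pt → Prop} {i0 i1 : Pt → ℕ} {v : Pt} :
    lab A i0 i1 v = 0 ↔ ¬ (A v ∧ Slow i0 i1 v) := by
  classical
  unfold lab
  split_ifs with h
  · simp [h]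
  · simp [h]

theorem lab_lt {A : Pt → Prop} {i0 i1 : Pt → ℕ} {n : ℕ} (hn : ∀ v, i0 v ≤ n) (v : Pt) :
    lab A i0 i1 v < n + 2 := by
  classical
  have := hn v
  unfold lab
  split_ifs
  · omega
  · omega

namespace Dat

variable (D : Dat Ω ι)

open Classical in
/-- the events on the lines of `A` -/
noncomputable def EA (A : Pt → Prop) : Finset (ℝ × Pt) := {e ∈ D.E | A e.2}

theorem mem_EA {A : Pt → Prop} {e : ℝ × Pt} : e ∈ D.EA A ↔ e ∈ D.E ∧ A e.2 := by
  classical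
  unfold EA
  exact mem_filter

theorem EA_subset (A : Pt → Prop) : D.EA A ⊆ D.E := fun _ h => (D.mem_EA.1 h).1

theorem lab_events (A : Pt → Prop) (i0 i1 : Pt → ℕ) (j : ℕ) :
    ({e ∈ D.E | lab A i0 i1 e.2 = j + 1} : Finset (ℝ × Pt)) = EGrp (D.EA A) i0 i1 j := by
  ext e
  rw [mem_filter, lab_eq_succ, mem_EGrp, D.mem_EA]
  constructor
  · rintro ⟨h1, ⟨h2, h3⟩, h4⟩; exact ⟨⟨h1, h2⟩, h3, h4⟩
  · rintro ⟨⟨h1, h2⟩, h3, h4⟩; exact ⟨h1, ⟨h2, h3⟩, h4⟩

variable {D}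

/-- the size part -/
theorem size_part {x0 x1 : ℝ} (hx : ∀ e ∈ D.E, x0 < e.1 ∧ e.1 < x1) {A : Pt → Prop}
    {i0 i1 : Pt → ℕ} (hi : Idx x0 x1 i0 i1) {n : ℕ} (hn : ∀ v, i0 v ≤ n)
    (hp : 0 < ms D.ν (fun ω => A (D.ln ω) ∧ Slow i0 i1 (D.ln ω))) :
    Ex D.ν (fun ω => Real.log (ne {e ∈ D.E | lab A i0 i1 e.2 = lab A i0 i1 (D.ln ω)})) ≤
      Real.log (ne D.E) + ms D.ν (fun ω => A (D.ln ω) ∧ Slow i0 i1 (D.ln ω)) *
        Real.log (33 / ms D.ν (fun ω => A (D.ln ω) ∧ Slow i0 i1 (D.ln ω))) +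
      ∑ ω, D.ν ω * (if lab A i0 i1 (D.ln ω) = 0 then 0 else
        Real.log (Pr D.ν (fun ω => lab A i0 i1 (D.ln ω)) (lab A i0 i1 (D.ln ω)))) := by
  classical
  set p' := ms D.ν (fun ω => A (D.ln ω) ∧ Slow i0 i1 (D.ln ω)) with hp'
  set g : Pt → ℕ := lab A i0 i1 with hg
  set N : ℝ := ((ne D.E : ℕ) : ℝ) with hN
  let nn : ℕ → ℝ := fun x => ne {e ∈ D.E | g e.2 = x}
  let π : ℕ → ℝ := fun x => Pr D.ν (fun ω => g (D.ln ω)) x
  have hE : D.E.Nonempty := by
    obtain ⟨ω, h1, -⟩ := ms_pos_iff hp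
    exact ⟨_, D.mem ω h1⟩
  have hN2 : 2 ≤ N := by
    have := two_le_ne D.real hE
    rw [hN]
    exact_mod_cast this
  have hN0 : 0 < N := by linarith
  have hnnpos : ∀ ω, 0 < D.ν ω → 2 ≤ nn (g (D.ln ω)) := by
    intro ω h0
    have : 2 ≤ ne {e ∈ D.E | g e.2 = g (D.ln ω)} :=
      two_le_ne (D.real.mono (filter_subset _ _)) ⟨_, mem_filter.2 ⟨D.mem ω h0, rfl⟩⟩
    show (2 : ℝ) ≤ ((ne {e ∈ D.E | g e.2 = g (D.ln ω)} : ℕ) : ℝ)
    exact_mod_cast this
  have hnnle : ∀ x, nn x ≤ N := by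
    intro x
    have : ne {e ∈ D.E | g e.2 = x} ≤ ne D.E := ne_mono (filter_subset _ _) D.real
    show ((ne {e ∈ D.E | g e.2 = x} : ℕ) : ℝ) ≤ _
    rw [hN]
    exact_mod_cast this
  have hπpos : ∀ ω, 0 < D.ν ω → 0 < π (g (D.ln ω)) := fun ω h0 =>
    Pr_pos D.prob (fun ω => g (D.ln ω)) h0
  set c : ℝ := p' / (33 * N) with hc
  have hc0 : 0 < c := by positivity
  -- pointwise
  have hpt : ∀ ω, D.ν ω * Real.log (nn (g (D.ln ω))) ≤
      D.ν ω * (if g (D.ln ω) = 0 then Real.log N else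
        Real.log (π (g (D.ln ω))) + (c * (nn (g (D.ln ω)) / π (g (D.ln ω))) - 1 - Real.log c)) := by
    intro ω
    rcases (D.prob.nonneg ω).eq_or_lt with h0 | h0
    · rw [← h0]; simp
    · apply mul_le_mul_of_nonneg_left _ h0.le
      have h2 := hnnpos ω h0
      have h3 := hπpos ω h0
      split_ifs with h
      · exact Real.log_le_log (by linarith) (hnnle _)
      · have h4 : 0 < nn (g (D.ln ω)) := by linarith
        have h5 := Real.log_le_sub_one_of_pos (x := c * (nn (g (D.ln ω)) / π (g (D.ln ω))))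
          (by positivity)
        rw [Real.log_mul hc0.ne' (by positivity), Real.log_div h4.ne' h3.ne'] at h5
        linarith
  have hsum := sum_le_sum fun ω (_ : ω ∈ univ) => hpt ω
  have hEx : Ex D.ν (fun ω => Real.log (ne {e ∈ D.E | g e.2 = g (D.ln ω)})) =
      ∑ ω, D.ν ω * Real.log (nn (g (D.ln ω))) := rfl
  rw [hEx]
  refine hsum.trans ?_
  -- split the sum
  have hsplit : ∀ ω, D.ν ω * (if g (D.ln ω) = 0 then Real.log N else
        Real.log (π (g (D.ln ω))) + (c * (nn (g (D.ln ω)) / π (g (D.ln ω))) - 1 - Real.log c)) =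
      (D.ν ω - if A (D.ln ω) ∧ Slow i0 i1 (D.ln ω) then D.ν ω else 0) * Real.log N +
      D.ν ω * (if g (D.ln ω) = 0 then 0 else Real.log (π (g (D.ln ω)))) +
      c * (D.ν ω * (if g (D.ln ω) = 0 then 0 else nn (g (D.ln ω)) / π (g (D.ln ω)))) -
      (if A (D.ln ω) ∧ Slow i0 i1 (D.ln ω) then D.ν ω else 0) * (1 + Real.log c) := by
    intro ω
    have h1 : g (D.ln ω) = 0 ↔ ¬ (A (D.ln ω) ∧ Slow i0 i1 (D.ln ω)) := lab_eq_zero
    by_cases h : A (D.ln ω) ∧ Slow i0 i1 (D.ln ω)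
    · have h2 : g (D.ln ω) ≠ 0 := fun h3 => (h1.1 h3) h
      rw [if_neg h2, if_neg h2, if_neg h2, if_pos h]
      ring
    · have h2 : g (D.ln ω) = 0 := h1.2 h
      rw [if_pos h2, if_pos h2, if_pos h2, if_neg h]
      ring
  rw [sum_congr rfl fun ω _ => hsplit ω, sum_sub_distrib, sum_add_distrib, sum_add_distrib,
    ← sum_mul, ← sum_mul, ← mul_sum, sum_sub_distrib, D.prob.sum]
  have hms : (∑ ω, if A (D.ln ω) ∧ Slow i0 i1 (D.ln ω) then D.ν ω else 0) = p' := by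
    rw [hp']
    unfold ms
    exact sum_congr rfl fun ω _ => by split_ifs <;> rfl
  rw [hms]
  -- the sum of the sizes of the groups
  have hgr : ∑ ω, D.ν ω * (if g (D.ln ω) = 0 then 0 else nn (g (D.ln ω)) / π (g (D.ln ω))) ≤
      33 * N := by
    have h1 := sum_fiber D.ν (fun ω => g (D.ln ω)) (fun x => if x = 0 then 0 else nn x / π x)
    rw [h1]
    have h2 : ∀ x ∈ univ.image (fun ω => g (D.ln ω)),
        Pr D.ν (fun ω => g (D.ln ω)) x * (if x = 0 then 0 else nn x / π x) ≤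
          if x = 0 then 0 else nn x := by
      intro x _
      have hx0 : 0 ≤ nn x := Nat.cast_nonneg _
      split_ifs with hx
      · simp
      · rcases (Pr_nonneg D.prob (fun ω => g (D.ln ω)) x).eq_or_lt with h0 | h0
        · rw [← h0, zero_mul]; exact hx0
        · show π x * (nn x / π x) ≤ nn x
          have h0' : 0 < π x := h0
          rw [mul_div_cancel₀ _ h0'.ne']
    refine (sum_le_sum h2).trans ?_
    have h3 : univ.image (fun ω => g (D.ln ω)) ⊆ range (n + 2) := by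
      intro x hx
      obtain ⟨ω, -, rfl⟩ := mem_image.1 hx
      exact mem_range.2 (lab_lt hn _)
    have h4 : ∀ x, 0 ≤ if x = 0 then (0 : ℝ) else nn x := by
      intro x
      split_ifs
      · exact le_rfl
      · exact Nat.cast_nonneg _
    refine (sum_le_sum_of_subset_of_nonneg h3 fun x _ _ => h4 x).trans ?_
    rw [sum_range_succ']
    simp only [if_true, Nat.succ_ne_zero, if_false, add_zero]
    have h5 : ∀ j, nn (j + 1) = ((ne (EGrp (D.EA A) i0 i1 j) : ℕ) : ℝ) := by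
      intro j
      show ((ne {e ∈ D.E | g e.2 = j + 1} : ℕ) : ℝ) = _
      rw [hg, D.lab_events]
    rw [sum_congr rfl fun j _ => h5 j]
    have h6 := sum_ne_Grp (E := D.EA A) (D.real.mono (D.EA_subset A)) hi
      (fun e he => hx e (D.EA_subset A he)) (range (n + 1))
    have h7 : ne (D.EA A) ≤ ne D.E := ne_mono (D.EA_subset A) D.real
    have h8 : ∑ j ∈ range (n + 1), ne (EGrp (D.EA A) i0 i1 j) ≤ 33 * ne D.E := by omega
    rw [hN]
    exact_mod_cast h8
  have h9 : c * ∑ ω, D.ν ω * (if g (D.ln ω) = 0 then 0 else nn (g (D.ln ω)) / π (g (D.ln ω))) ≤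
      p' := by
    calc _ ≤ c * (33 * N) := mul_le_mul_of_nonneg_left hgr hc0.le
      _ = p' := by rw [hc]; field_simp
  have h10 : Real.log c = - Real.log (33 / p') - Real.log N := by
    rw [hc, Real.log_div hp.ne' (by positivity), Real.log_mul (by norm_num) hN0.ne',
      Real.log_div (by norm_num) hp.ne']
    ring
  rw [h10]
  have h11 : (1 - p') * Real.log N + ∑ ω, D.ν ω *
      (if g (D.ln ω) = 0 then 0 else Real.log (π (g (D.ln ω)))) + p' -
      p' * (1 + (- Real.log (33 / p') - Real.log N)) =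
      Real.log N + p' * Real.log (33 / p') + ∑ ω, D.ν ω *
      (if g (D.ln ω) = 0 then 0 else Real.log (π (g (D.ln ω)))) := by ring
  linarith

theorem neg_log_one_sub_le {x : ℝ} (h1 : x ≤ 1) :
    (1 - x) * (- Real.log (1 - x)) ≤ x := by
  rcases h1.eq_or_lt with rfl | h2
  · simp
  · have h3 : 0 < 1 - x := by linarith
    have h4 := Real.one_sub_inv_le_log_of_pos h3
    have h5 : (1 - x) * (1 - (1 - x)⁻¹) = (1 - x) - 1 := by
      rw [mul_sub, mul_inv_cancel₀ h3.ne']; ring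
    nlinarith [mul_le_mul_of_nonneg_left h4 h3.le]

/-- the entropy of the label -/
theorem ent_part {A : Pt → Prop} {i0 i1 : Pt → ℕ} :
    H D.ν (fun ω => lab A i0 i1 (D.ln ω)) ≤
      - (∑ ω, D.ν ω * (if lab A i0 i1 (D.ln ω) = 0 then 0 else
        Real.log (Pr D.ν (fun ω => lab A i0 i1 (D.ln ω)) (lab A i0 i1 (D.ln ω))))) +
      ms D.ν (fun ω => A (D.ln ω) ∧ Slow i0 i1 (D.ln ω)) := by
  classical
  set p' := ms D.ν (fun ω => A (D.ln ω) ∧ Slow i0 i1 (D.ln ω)) with hp'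
  set g : Pt → ℕ := lab A i0 i1 with hg
  have h1 : Pr D.ν (fun ω => g (D.ln ω)) 0 = 1 - p' := by
    rw [hp', ← ms_not D.prob]
    unfold Pr ms
    refine sum_congr rfl fun ω _ => ?_
    have : g (D.ln ω) = 0 ↔ ¬ (A (D.ln ω) ∧ Slow i0 i1 (D.ln ω)) := lab_eq_zero
    by_cases h : A (D.ln ω) ∧ Slow i0 i1 (D.ln ω)
    · rw [if_neg (fun h2 => (this.1 h2) h), if_neg (not_not.2 h)]
    · rw [if_pos (this.2 h), if_pos h]
  have h2 : H D.ν (fun ω => g (D.ln ω)) =
      - (∑ ω, D.ν ω * (if g (D.ln ω) = 0 then 0 else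
        Real.log (Pr D.ν (fun ω => g (D.ln ω)) (g (D.ln ω))))) +
      (∑ ω, if ¬ (A (D.ln ω) ∧ Slow i0 i1 (D.ln ω)) then D.ν ω else 0) *
        (- Real.log (1 - p')) := by
    unfold H
    rw [sum_mul, ← sum_neg_distrib, ← sum_add_distrib]
    refine sum_congr rfl fun ω _ => ?_
    have : g (D.ln ω) = 0 ↔ ¬ (A (D.ln ω) ∧ Slow i0 i1 (D.ln ω)) := lab_eq_zero
    show D.ν ω * -Real.log (Pr D.ν (fun ω => g (D.ln ω)) (g (D.ln ω))) = _
    by_cases h : A (D.ln ω) ∧ Slow i0 i1 (D.ln ω)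
    · rw [if_neg (fun h2 => (this.1 h2) h), if_neg (not_not.2 h)]
      ring
    · rw [if_pos (this.2 h), if_pos h, this.2 h, h1]
      ring
  have h3 : (∑ ω, if ¬ (A (D.ln ω) ∧ Slow i0 i1 (D.ln ω)) then D.ν ω else 0) = 1 - p' := by
    rw [hp', ← ms_not D.prob]
    unfold ms
    refine sum_congr rfl fun ω _ => ?_
    by_cases h : A (D.ln ω) ∧ Slow i0 i1 (D.ln ω)
    · rw [if_neg (not_not.2 h), if_neg (not_not.2 h)]
    · rw [if_pos h, if_pos h]
  rw [h2, h3]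
  have h4 := neg_log_one_sub_le (ms_le_one D.prob (fun ω => A (D.ln ω) ∧ Slow i0 i1 (D.ln ω)))
  linarith

open Classical in
/-- the groups touched by the events of `E` in the window `J` which are not swept -/
noncomputable def NS (E : Finset (ℝ × Pt)) (J : Set ℝ) (i0 i1 : Pt → ℕ) (n : ℕ) : Finset ℕ :=
  {j ∈ range (n + 1) | (∃ e ∈ E, e.1 ∈ J ∧ Slow i0 i1 e.2 ∧ i0 e.2 = j) ∧ ¬ Swept E J i0 i1 j}

theorem mem_NS {E : Finset (ℝ × Pt)} {J : Set ℝ} {i0 i1 : Pt → ℕ} {n j : ℕ} :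
    j ∈ NS E J i0 i1 n ↔ j ≤ n ∧ (∃ e ∈ E, e.1 ∈ J ∧ Slow i0 i1 e.2 ∧ i0 e.2 = j) ∧
      ¬ Swept E J i0 i1 j := by
  classical
  unfold NS
  rw [mem_filter, mem_range, Nat.lt_succ_iff]

theorem card_NS_le (E : Finset (ℝ × Pt)) (J : Set ℝ) (i0 i1 : Pt → ℕ) (n : ℕ) :
    #(NS E J i0 i1 n) ≤ 6 := by
  classical
  rcases (NS E J i0 i1 n).eq_empty_or_nonempty with h0 | h0
  · rw [h0, card_empty]; omega
  · set m := (NS E J i0 i1 n).min' h0 with hm
    set M := (NS E J i0 i1 n).max' h0 with hM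
    obtain ⟨-, ⟨e, e1, e2, e3, e4⟩, -⟩ := mem_NS.1 (min'_mem _ h0)
    obtain ⟨-, ⟨f, f1, f2, f3, f4⟩, -⟩ := mem_NS.1 (max'_mem _ h0)
    have hsub : NS E J i0 i1 n ⊆ {m, m + 1, m + 2, M, M - 1, M - 2} := by
      intro j hj
      have h1 : m ≤ j := min'_le _ _ hj
      have h2 : j ≤ M := le_max' _ _ hj
      obtain ⟨-, -, h3⟩ := mem_NS.1 hj
      have h4 : ¬ (m + 3 ≤ j ∧ j + 3 ≤ M) := by
        rintro ⟨h5, h6⟩
        exact h3 ⟨⟨e, e1, e2, e3, by rw [e4]; exact h5⟩, ⟨f, f1, f2, f3, by rw [f4]; exact h6⟩⟩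
      simp only [mem_insert, mem_singleton]
      omega
    exact (card_le_card hsub).trans card_le_six

/-- the flags in swept groups have small mass -/
theorem bad_mass {x0 x1 : ℝ} (hx : ∀ e ∈ D.E, x0 < e.1 ∧ e.1 < x1) {A : Pt → Prop}
    {i0 i1 : Pt → ℕ} (hi : Idx x0 x1 i0 i1) {n : ℕ} (hn : ∀ v, i0 v ≤ n) {κ : ℝ}
    (hκ : ∀ a v, ms D.ν (fun ω => D.X ω = a ∧ D.ln ω = v) ≤ κ) :
    ms D.ν (fun ω => (A (D.ln ω) ∧ Slow i0 i1 (D.ln ω)) ∧
      Swept (D.EA A) (D.J (D.X ω)) i0 i1 (i0 (D.ln ω))) ≤ 8 * ne D.E * κ := by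
  classical
  let Fa : ι → Finset Pt := fun a => {v ∈ (D.EA A).image Prod.snd | Slow i0 i1 v ∧
    i0 v ∈ range (n + 1) ∧ Swept (D.EA A) (D.J a) i0 i1 (i0 v)}
  have h1 : ms D.ν (fun ω => (A (D.ln ω) ∧ Slow i0 i1 (D.ln ω)) ∧
      Swept (D.EA A) (D.J (D.X ω)) i0 i1 (i0 (D.ln ω))) ≤
      ∑ a ∈ univ.image D.X, ∑ v ∈ Fa a, ms D.ν (fun ω => D.X ω = a ∧ D.ln ω = v) := by
    simp only [ms_eq]
    rw [sum_congr rfl fun a _ => sum_comm, sum_comm]
    refine sum_le_sum fun ω _ => ?_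
    have h0 := D.prob.nonneg ω
    have hnn : ∀ a v, 0 ≤ if D.X ω = a ∧ D.ln ω = v then D.ν ω else 0 := by
      intro a v
      split_ifs
      · exact h0
      · exact le_rfl
    split_ifs with h
    · rcases h0.eq_or_lt with h1 | h1
      · rw [← h1]
        simp
      · have hv : D.ln ω ∈ Fa (D.X ω) := by
          refine mem_filter.2 ⟨mem_image.2 ⟨_, D.mem_EA.2 ⟨D.mem ω h1, h.1.1⟩, rfl⟩, h.1.2, ?_, h.2⟩
          exact mem_range.2 (Nat.lt_succ_of_le (hn _))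
        calc D.ν ω = if D.X ω = D.X ω ∧ D.ln ω = D.ln ω then D.ν ω else 0 := by
              rw [if_pos ⟨rfl, rfl⟩]
          _ ≤ ∑ v ∈ Fa (D.X ω), if D.X ω = D.X ω ∧ D.ln ω = v then D.ν ω else 0 :=
            single_le_sum (f := fun v => if D.X ω = D.X ω ∧ D.ln ω = v then D.ν ω else 0)
              (fun v _ => hnn _ v) hv
          _ ≤ _ := single_le_sum
              (f := fun a => ∑ v ∈ Fa a, if D.X ω = a ∧ D.ln ω = v then D.ν ω else 0)
              (fun a _ => sum_nonneg fun v _ => hnn a v) (mem_image_of_mem D.X (mem_univ ω))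
    · exact sum_nonneg fun a _ => sum_nonneg fun v _ => hnn a v
  refine h1.trans ?_
  have h2 : ∑ a ∈ univ.image D.X, #(Fa a) ≤ 8 * ne (D.EA A) :=
    sum_swept' (E := D.EA A) (D.real.mono (D.EA_subset A)) hi _ D.J (fun a _ => D.conn a)
      (fun a _ b _ hab => D.disj a b hab) (fun e he => hx e (D.EA_subset A he)) (range (n + 1))
  have h3 : ne (D.EA A) ≤ ne D.E := ne_mono (D.EA_subset A) D.real
  rcases (univ.image D.X).eq_empty_or_nonempty with h4 | ⟨a, ha⟩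
  · rw [h4, sum_empty]
    have hO : IsEmpty Ω := by
      rw [image_eq_empty] at h4
      exact univ_eq_empty_iff.1 h4
    have := D.prob.sum
    simp at this
  have hκ0 : 0 ≤ κ := (ms_nonneg D.prob _).trans (hκ a (0, 0))
  calc ∑ a ∈ univ.image D.X, ∑ v ∈ Fa a, ms D.ν (fun ω => D.X ω = a ∧ D.ln ω = v)
      ≤ ∑ a ∈ univ.image D.X, ∑ _v ∈ Fa a, κ :=
        sum_le_sum fun a _ => sum_le_sum fun v _ => hκ a v
    _ = ((∑ a ∈ univ.image D.X, #(Fa a) : ℕ) : ℝ) * κ := by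
        rw [Nat.cast_sum, sum_mul]
        exact sum_congr rfl fun a _ => by rw [sum_const, nsmul_eq_mul]
    _ ≤ 8 * ne D.E * κ := by
        apply mul_le_mul_of_nonneg_right _ hκ0
        have : ∑ a ∈ univ.image D.X, #(Fa a) ≤ 8 * ne D.E := by omega
        exact_mod_cast this

/-- the conditional entropy of the label -/
theorem cond_part {x0 x1 : ℝ} (hx : ∀ e ∈ D.E, x0 < e.1 ∧ e.1 < x1) {A : Pt → Prop}
    {i0 i1 : Pt → ℕ} (hi : Idx x0 x1 i0 i1) {n : ℕ} (hn : ∀ v, i0 v ≤ n) {κ : ℝ}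
    (hκ : ∀ a v, ms D.ν (fun ω => D.X ω = a ∧ D.ln ω = v) ≤ κ)
    (hp : 0 < ms D.ν (fun ω => A (D.ln ω) ∧ Slow i0 i1 (D.ln ω))) :
    Hc D.ν (fun ω => lab A i0 i1 (D.ln ω)) D.X ≤
      ms D.ν (fun ω => A (D.ln ω) ∧ Slow i0 i1 (D.ln ω)) *
        (Real.log (24 / ms D.ν (fun ω => A (D.ln ω) ∧ Slow i0 i1 (D.ln ω))) + 1) +
      8 * ne D.E * κ * Real.log (n + 1) := by
  classical
  set p' := ms D.ν (fun ω => A (D.ln ω) ∧ Slow i0 i1 (D.ln ω)) with hp'
  have hp1 : p' ≤ 1 := ms_le_one D.prob _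
  set g : Pt → ℕ := lab A i0 i1 with hg
  let q : ι → ℕ → ℝ := fun a x => if x = 0 then 1 - p' / 2 else
    p' / 4 * ((if x - 1 ∈ NS (D.EA A) (D.J a) i0 i1 n then 1 / 6 else 0) + 1 / ((n : ℝ) + 1))
  have hn0 : (0 : ℝ) < (n : ℝ) + 1 := by positivity
  have hqpos : ∀ a x, 0 < q a x := by
    intro a x
    show 0 < if x = 0 then 1 - p' / 2 else
      p' / 4 * ((if x - 1 ∈ NS (D.EA A) (D.J a) i0 i1 n then 1 / 6 else 0) + 1 / ((n : ℝ) + 1))
    split_ifs
    · linarith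
    · positivity
    · positivity
  have hsum : ∀ a, ∑ x ∈ univ.image (fun ω => g (D.ln ω)), q a x ≤ 1 := by
    intro a
    have h3 : univ.image (fun ω => g (D.ln ω)) ⊆ range (n + 2) := by
      intro x hx
      obtain ⟨ω, -, rfl⟩ := mem_image.1 hx
      exact mem_range.2 (lab_lt hn _)
    refine (sum_le_sum_of_subset_of_nonneg h3 fun x _ _ => (hqpos a x).le).trans ?_
    rw [sum_range_succ']
    have h4 : ∀ j, q a (j + 1) = p' / 4 * ((if j ∈ NS (D.EA A) (D.J a) i0 i1 n then 1 / 6 else 0) +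
        1 / ((n : ℝ) + 1)) := fun j => rfl
    have h5 : q a 0 = 1 - p' / 2 := rfl
    rw [sum_congr rfl fun j _ => h4 j, h5, ← mul_sum, sum_add_distrib, sum_const, card_range,
      nsmul_eq_mul, ← sum_filter, sum_const, nsmul_eq_mul]
    have h6 : #({j ∈ range (n + 1) | j ∈ NS (D.EA A) (D.J a) i0 i1 n} : Finset ℕ) ≤ 6 := by
      refine (card_le_card ?_).trans (card_NS_le (D.EA A) (D.J a) i0 i1 n)
      intro j hj
      exact (mem_filter.1 hj).2
    have h7 : (#({j ∈ range (n + 1) | j ∈ NS (D.EA A) (D.J a) i0 i1 n} : Finset ℕ) : ℝ) ≤ 6 := by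
      exact_mod_cast h6
    have h8 : ((n + 1 : ℕ) : ℝ) * (1 / ((n : ℝ) + 1)) = 1 := by
      push_cast
      field_simp
    rw [h8]
    nlinarith
  have hgb := gibbs D.prob (fun ω => g (D.ln ω)) D.X q (fun ω _ => hqpos _ _)
    (fun ω x _ => (hqpos _ _).le) (fun ω => hsum _)
  refine hgb.trans ?_
  have hlog24 : 0 ≤ Real.log (24 / p') := by
    apply Real.log_nonneg
    rw [le_div_iff₀ hp]
    linarith
  have hlogn : 0 ≤ Real.log ((n : ℝ) + 1) := by
    apply Real.log_nonneg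
    have : (0 : ℝ) ≤ n := Nat.cast_nonneg n
    linarith
  have hpt : ∀ ω, D.ν ω * (- Real.log (q (D.X ω) (g (D.ln ω)))) ≤
      (if ¬ (A (D.ln ω) ∧ Slow i0 i1 (D.ln ω)) then D.ν ω else 0) * p' +
      (if A (D.ln ω) ∧ Slow i0 i1 (D.ln ω) then D.ν ω else 0) * Real.log (24 / p') +
      (if (A (D.ln ω) ∧ Slow i0 i1 (D.ln ω)) ∧
        Swept (D.EA A) (D.J (D.X ω)) i0 i1 (i0 (D.ln ω)) then D.ν ω else 0) *
        Real.log ((n : ℝ) + 1) := by
    intro ω
    rcases (D.prob.nonneg ω).eq_or_lt with h0 | h0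
    · rw [← h0]; simp
    · by_cases h : A (D.ln ω) ∧ Slow i0 i1 (D.ln ω)
      · have hg1 : g (D.ln ω) = i0 (D.ln ω) + 1 := lab_eq_succ.2 ⟨h, rfl⟩
        have hq1 : q (D.X ω) (g (D.ln ω)) =
            p' / 4 * ((if i0 (D.ln ω) ∈ NS (D.EA A) (D.J (D.X ω)) i0 i1 n then 1 / 6 else 0) +
              1 / ((n : ℝ) + 1)) := by
          rw [hg1]
          rfl
        rw [if_neg (not_not.2 h), if_pos h, hq1, zero_mul, zero_add, ← neg_mul_comm, neg_mul]
        by_cases hs : Swept (D.EA A) (D.J (D.X ω)) i0 i1 (i0 (D.ln ω))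
        · have hh : (A (D.ln ω) ∧ Slow i0 i1 (D.ln ω)) ∧
              Swept (D.EA A) (D.J (D.X ω)) i0 i1 (i0 (D.ln ω)) := ⟨h, hs⟩
          rw [if_pos hh]
          have h1 : p' / 24 / ((n : ℝ) + 1) ≤
              p' / 4 * ((if i0 (D.ln ω) ∈ NS (D.EA A) (D.J (D.X ω)) i0 i1 n then 1 / 6 else 0) +
              1 / ((n : ℝ) + 1)) := by
            have h2 : p' / 24 / ((n : ℝ) + 1) ≤ p' / 4 * (1 / ((n : ℝ) + 1)) := by
              rw [div_div, mul_one_div, div_div]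
              apply div_le_div_of_nonneg_left hp.le (by positivity)
              nlinarith
            refine h2.trans (mul_le_mul_of_nonneg_left ?_ (by positivity))
            split_ifs
            · linarith
            · linarith
          have h3 := Real.log_le_log (by positivity) h1
          have h4 : Real.log (p' / 24 / ((n : ℝ) + 1)) =
              - Real.log (24 / p') - Real.log ((n : ℝ) + 1) := by
            rw [Real.log_div (by positivity) hn0.ne', Real.log_div hp.ne' (by norm_num),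
              Real.log_div (by norm_num) hp.ne']
            ring
          rw [h4] at h3
          nlinarith
        · have hh : ¬ ((A (D.ln ω) ∧ Slow i0 i1 (D.ln ω)) ∧
              Swept (D.EA A) (D.J (D.X ω)) i0 i1 (i0 (D.ln ω))) := fun hh => hs hh.2
          rw [if_neg hh]
          have hmem : i0 (D.ln ω) ∈ NS (D.EA A) (D.J (D.X ω)) i0 i1 n :=
            mem_NS.2 ⟨hn _, ⟨_, D.mem_EA.2 ⟨D.mem ω h0, h.1⟩, D.win ω h0, h.2, rfl⟩, hs⟩
          rw [if_pos hmem]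
          have h1 : p' / 24 ≤ p' / 4 * (1 / 6 + 1 / ((n : ℝ) + 1)) := by
            have : 0 ≤ 1 / ((n : ℝ) + 1) := by positivity
            nlinarith
          have h3 := Real.log_le_log (by positivity) h1
          have h4 : Real.log (p' / 24) = - Real.log (24 / p') := by
            rw [Real.log_div hp.ne' (by norm_num), Real.log_div (by norm_num) hp.ne']
            ring
          rw [h4] at h3
          nlinarith
      · have hg1 : g (D.ln ω) = 0 := lab_eq_zero.2 h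
        have hq1 : q (D.X ω) (g (D.ln ω)) = 1 - p' / 2 := by
          rw [hg1]
          rfl
        rw [if_pos h, if_neg h, if_neg (fun hh => h hh.1), hq1]
        have h1 : 0 < 1 - p' / 2 := by linarith
        have h2 := Real.one_sub_inv_le_log_of_pos h1
        have h3 : (1 - p' / 2)⁻¹ ≤ 1 + p' := by
          rw [inv_le_comm₀ h1 (by linarith), inv_eq_one_div, div_le_iff₀ (by linarith)]
          nlinarith
        nlinarith
  refine (sum_le_sum fun ω _ => hpt ω).trans ?_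
  rw [sum_add_distrib, sum_add_distrib, ← sum_mul, ← sum_mul, ← sum_mul]
  have e1 : (∑ ω, if ¬ (A (D.ln ω) ∧ Slow i0 i1 (D.ln ω)) then D.ν ω else 0) = 1 - p' := by
    rw [hp', ← ms_not D.prob, ms_eq]
  have e2 : (∑ ω, if A (D.ln ω) ∧ Slow i0 i1 (D.ln ω) then D.ν ω else 0) = p' := by
    rw [hp', ms_eq]
  have e3 : (∑ ω, if (A (D.ln ω) ∧ Slow i0 i1 (D.ln ω)) ∧
        Swept (D.EA A) (D.J (D.X ω)) i0 i1 (i0 (D.ln ω)) then D.ν ω else 0) ≤
        8 * ne D.E * κ := by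
    have := bad_mass (D := D) hx hi hn hκ (A := A)
    rw [ms_eq] at this
    exact this
  rw [e1, e2]
  have h5 := mul_le_mul_of_nonneg_right e3 hlogn
  nlinarith

/-- the entropy of the groups is large -/
theorem low_part {R x0 x1 : ℝ} (hR : 0 < R) {A : Pt → Prop}
    (hp : 0 < ms D.ν (fun ω => A (D.ln ω)))
    (hatom : ∀ v, ms D.ν (fun ω => D.ln ω = v) ≤ ms D.ν (fun ω => A (D.ln ω)) / (4 * R)) :
    ms D.ν (fun ω => A (D.ln ω) ∧ Slow (ix D.ν D.ln A R x0) (ix D.ν D.ln A R x1) (D.ln ω)) *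
      Real.log (R / 2) ≤
    - (∑ ω, D.ν ω * (if lab A (ix D.ν D.ln A R x0) (ix D.ν D.ln A R x1) (D.ln ω) = 0 then 0 else
        Real.log (Pr D.ν (fun ω => lab A (ix D.ν D.ln A R x0) (ix D.ν D.ln A R x1) (D.ln ω))
          (lab A (ix D.ν D.ln A R x0) (ix D.ν D.ln A R x1) (D.ln ω))))) := by
  classical
  set i0 := ix D.ν D.ln A R x0 with hi0
  set i1 := ix D.ν D.ln A R x1 with hi1
  obtain ⟨P, k, ⟨hP, hPE⟩⟩ := D.real
  have hln : ∀ ω, 0 < D.ν ω → D.ln ω ∈ P := fun ω h => (hPE _ (D.mem ω h)).mem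
  rw [ms_eq, sum_mul, ← sum_neg_distrib]
  refine sum_le_sum fun ω _ => ?_
  rcases (D.prob.nonneg ω).eq_or_lt with h0 | h0
  · rw [← h0]; simp
  · by_cases h : A (D.ln ω) ∧ Slow i0 i1 (D.ln ω)
    · have hg1 : lab A i0 i1 (D.ln ω) = i0 (D.ln ω) + 1 := lab_eq_succ.2 ⟨h, rfl⟩
      have hne : lab A i0 i1 (D.ln ω) ≠ 0 := by rw [hg1]; exact Nat.succ_ne_zero _
      rw [if_pos h, if_neg hne]
      have h1 : Pr D.ν (fun ω => lab A i0 i1 (D.ln ω)) (lab A i0 i1 (D.ln ω)) ≤ 2 / R := by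
        have h2 := group_mass (A := A) D.prob hR (x := x0) hP hln hp hatom (i0 (D.ln ω))
        have h3 : Pr D.ν (fun ω => lab A i0 i1 (D.ln ω)) (lab A i0 i1 (D.ln ω)) ≤
            ms D.ν (fun ω' => A (D.ln ω') ∧ ix D.ν D.ln A R x0 (D.ln ω') = i0 (D.ln ω)) := by
          rw [hg1, ms_eq]
          unfold Pr
          refine sum_le_sum fun ω' _ => ?_
          have h0' := D.prob.nonneg ω'
          by_cases h4 : lab A i0 i1 (D.ln ω') = i0 (D.ln ω) + 1
          · have h5 := lab_eq_succ.1 h4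
            rw [if_pos h4, if_pos ⟨h5.1.1, h5.2⟩]
          · rw [if_neg h4]
            split_ifs
            · exact h0'
            · exact le_rfl
        have h4 : ms D.ν (fun ω => A (D.ln ω)) ≤ 1 := ms_le_one D.prob _
        refine (h3.trans h2).trans ?_
        apply div_le_div_of_nonneg_right _ hR.le
        linarith
      have h2 := Pr_pos D.prob (fun ω => lab A i0 i1 (D.ln ω)) h0
      have h3 := Real.log_le_log h2 h1
      have h4 : Real.log (R / 2) = - Real.log (2 / R) := by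
        rw [Real.log_div hR.ne' (by norm_num), Real.log_div (by norm_num) hR.ne']
        ring
      rw [h4]
      nlinarith
    · rw [if_neg h, if_pos (lab_eq_zero.2 h)]
      simp

/-- **the crossing lemma** -/
theorem cross {γ a : ℝ} (hγ0 : 0 ≤ γ) (hγ1 : γ ≤ 1) (ha1 : a ≤ 1) (hopt : D.Opt γ a)
    {x0 x1 : ℝ} (hx : ∀ e ∈ D.E, x0 < e.1 ∧ e.1 < x1) (A : Pt → Prop) {R κ : ℝ} (hR : 1 ≤ R)
    (hp : 0 < ms D.ν (fun ω => A (D.ln ω)))
    (hc : ∑ ω, D.ν ω * (ms D.ν (fun ω' => A (D.ln ω') ∧ Cr x0 x1 (D.ln ω') (D.ln ω) ∧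
      A (D.ln ω))) ≤ ms D.ν (fun ω => A (D.ln ω)) ^ 2 / (2 * R))
    (hatom : ∀ v, ms D.ν (fun ω => D.ln ω = v) ≤ ms D.ν (fun ω => A (D.ln ω)) / (4 * R))
    (hκ : ∀ a v, ms D.ν (fun ω => D.X ω = a ∧ D.ln ω = v) ≤ κ)
    (hfat : 8 * ne D.E * κ * Real.log (R + 1) ≤ ms D.ν (fun ω => A (D.ln ω)) / 2) :
    (1 - γ) * Real.log (R / 2) ≤ 2 * Real.log (1 / ms D.ν (fun ω => A (D.ln ω))) + 12 := by
  classical
  have hR0 : 0 < R := by linarith
  set p := ms D.ν (fun ω => A (D.ln ω)) with hpd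
  set i0 := ix D.ν D.ln A R x0 with hi0
  set i1 := ix D.ν D.ln A R x1 with hi1
  have hidx : Idx x0 x1 i0 i1 := ix_Idx D.prob hR0.le x0 x1
  have hn : ∀ v, i0 v ≤ ⌊R⌋₊ := fun v => ix_le D.prob hR0.le x0 v
  set p' := ms D.ν (fun ω => A (D.ln ω) ∧ Slow i0 i1 (D.ln ω)) with hp'd
  have hfast := fast_mass D.prob hR0 hp hc
  have hp' : p / 2 ≤ p' := by
    have h1 := ms_split D.ν (fun ω => A (D.ln ω)) (fun ω => Slow i0 i1 (D.ln ω))
    have h2 : ms D.ν (fun ω => A (D.ln ω) ∧ ¬ Slow i0 i1 (D.ln ω)) ≤ p / 2 := hfast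
    have h3 : p = p' + ms D.ν (fun ω => A (D.ln ω) ∧ ¬ Slow i0 i1 (D.ln ω)) := h1
    linarith
  have hp'0 : 0 < p' := by linarith
  have hp'1 : p' ≤ 1 := ms_le_one D.prob _
  have s1 := size_part (D := D) hx hidx hn hp'0
  have s2 := ent_part (D := D) (A := A) (i0 := i0) (i1 := i1)
  have s3 := cond_part (D := D) hx hidx hn hκ hp'0
  have s4 := low_part (D := D) (x0 := x0) (x1 := x1) hR0 hp hatom
  rw [← hi0, ← hi1] at s4
  have s5 := hopt (lab A i0 i1)
  have s6 := Hc_nonneg D.prob (fun ω => lab A i0 i1 (D.ln ω)) D.X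
  set S := - (∑ ω, D.ν ω * (if lab A i0 i1 (D.ln ω) = 0 then 0 else
        Real.log (Pr D.ν (fun ω => lab A i0 i1 (D.ln ω)) (lab A i0 i1 (D.ln ω))))) with hS
  have hκ0 : 0 ≤ κ := by
    obtain ⟨ω, -, -⟩ := ms_pos_iff hp
    exact (ms_nonneg D.prob _).trans (hκ (D.X ω) (0, 0))
  have hB : 8 * ne D.E * κ * Real.log ((⌊R⌋₊ : ℝ) + 1) ≤ p' := by
    have h1 : Real.log ((⌊R⌋₊ : ℝ) + 1) ≤ Real.log (R + 1) := by
      apply Real.log_le_log (by positivity)
      have := Nat.floor_le hR0.le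
      linarith
    have h2 : 0 ≤ 8 * (ne D.E : ℝ) * κ := by positivity
    have h3 := mul_le_mul_of_nonneg_left h1 h2
    linarith
  have s7 : a * Hc D.ν (fun ω => lab A i0 i1 (D.ln ω)) D.X ≤
      Hc D.ν (fun ω => lab A i0 i1 (D.ln ω)) D.X := by nlinarith
  have s8 : γ * H D.ν (fun ω => lab A i0 i1 (D.ln ω)) ≤ γ * S + p' := by
    have h1 := mul_le_mul_of_nonneg_left s2 hγ0
    have h2 : γ * p' ≤ p' := by nlinarith
    linarith
  -- the logarithms
  have l1 : Real.log (33 / p') ≤ Real.log 66 + Real.log (1 / p) := by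
    rw [← Real.log_mul (by norm_num) (by positivity)]
    apply Real.log_le_log (by positivity)
    rw [mul_one_div, div_le_div_iff₀ hp'0 hp]
    linarith
  have l2 : Real.log (24 / p') ≤ Real.log 48 + Real.log (1 / p) := by
    rw [← Real.log_mul (by norm_num) (by positivity)]
    apply Real.log_le_log (by positivity)
    rw [mul_one_div, div_le_div_iff₀ hp'0 hp]
    linarith
  have l3 : Real.log 66 + Real.log 48 ≤ 9 := by
    rw [← Real.log_mul (by norm_num) (by norm_num), Real.log_le_iff_le_exp (by norm_num)]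
    have h1 := Real.exp_one_gt_d9
    have h2 : Real.exp 9 = Real.exp 1 ^ 9 := by
      rw [← Real.exp_nat_mul]; norm_num
    rw [h2]
    calc (66 * 48 : ℝ) ≤ 2.7 ^ 9 := by norm_num
      _ ≤ Real.exp 1 ^ 9 := pow_le_pow_left₀ (by norm_num) (by linarith) 9
  have key : p' * ((1 - γ) * Real.log (R / 2)) ≤ p' * (2 * Real.log (1 / p) + 12) := by
    have h1 : (1 - γ) * S ≤ p' * Real.log (33 / p') + p' + (p' * (Real.log (24 / p') + 1) + p') := by
      linarith
    have h2 := mul_le_mul_of_nonneg_left s4 (by linarith : 0 ≤ 1 - γ)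
    have h3 := mul_le_mul_of_nonneg_left l1 hp'0.le
    have h4 := mul_le_mul_of_nonneg_left l2 hp'0.le
    have h5 := mul_le_mul_of_nonneg_left l3 hp'0.le
    nlinarith
  exact le_of_mul_le_mul_left key hp'0

end Dat

end Vale.Agent.P065.H725
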