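import Vale.Agent.P065.H725.Poles

/-!
# P065: the crossing lemma for a greedy class (helper725)
-/

set_option autoImplicit false

namespace Vale.Agent.P065.H725

open Finset Vale.Agent.P065.UB Vale.Agent.P065.UB.RankAux Vale.Agent.P065.H987
  Vale.Agent.P065.H859 Vale.Agent.P065.Ent

variable {p w : ℕ}

/-- **the crossing lemma for a greedy class**: `A` is any set of lines of mass `P0`; if the pairs
of lines of `A` which change their order in the window have mass at most `P0 ^ 2 / (2 R)`, then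
`R` is bounded by a power of `1 / P0` -/
theorem cross_cls {U : UFlags p w} {ι ζ : Type*} {Wn : Fin p × Fin w → ι} {γ δ : ℝ}
    {L : Fin p × Fin w → ζ} (hγ0 : 0 ≤ γ) (hγ1 : γ ≤ 1) (hδ : δ ≤ 1)
    (hX : Det (Prod.fst : Fin p × Fin w → Fin p) Wn)
    (h : Opt U Wn γ δ L) (ω₀ : Fin p × Fin w) {Q : ℝ} (hQ : 0 < Q)
    (hfl : Q * U.sz (fun ω => (Wn ω, L ω)) ω₀ ≤
      p * w * Pr U.μ (fun ω => (Wn ω, L ω)) (Wn ω₀, L ω₀))
    (hat : ∀ ω', (Wn ω', L ω') = (Wn ω₀, L ω₀) →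
      Q * Pr U.μ (fun ω => ((Wn ω, L ω), U.ln ω)) ((Wn ω₀, L ω₀), U.ln ω') ≤
      Pr U.μ (fun ω => (Wn ω, L ω)) (Wn ω₀, L ω₀))
    {x0 x1 : ℝ} (hx : ∀ ω, (Wn ω, L ω) = (Wn ω₀, L ω₀) → x0 < U.tm ω ∧ U.tm ω < x1)
    (A : Pt → Prop)
    (hp : 0 < ms (cnd U.μ (fun ω => (Wn ω, L ω)) (Wn ω₀, L ω₀)) (fun ω => A (U.ln ω)))
    {R : ℝ} (hR : 1 ≤ R)
    (hc : ∑ ω, cnd U.μ (fun ω => (Wn ω, L ω)) (Wn ω₀, L ω₀) ω *
        ms (cnd U.μ (fun ω => (Wn ω, L ω)) (Wn ω₀, L ω₀))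
          (fun ω' => A (U.ln ω') ∧ Cr x0 x1 (U.ln ω') (U.ln ω) ∧ A (U.ln ω)) ≤
      ms (cnd U.μ (fun ω => (Wn ω, L ω)) (Wn ω₀, L ω₀)) (fun ω => A (U.ln ω)) ^ 2 / (2 * R))
    (hQR : 16 * R ≤
      Q * ms (cnd U.μ (fun ω => (Wn ω, L ω)) (Wn ω₀, L ω₀)) (fun ω => A (U.ln ω))) :
    (1 - γ) * Real.log (R / 2) ≤ 2 * Real.log (1 /
        ms (cnd U.μ (fun ω => (Wn ω, L ω)) (Wn ω₀, L ω₀)) (fun ω => A (U.ln ω))) + 12 := by
  classical
  set D := clsDat U (fun ω => (Wn ω, L ω)) ω₀ with hD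
  obtain ⟨hp0, hw0⟩ := U.pos
  have hp' : (0 : ℝ) < p := by exact_mod_cast hp0
  have hw' : (0 : ℝ) < w := by exact_mod_cast hw0
  have hPr := Pr_pos U.prob (fun ω => (Wn ω, L ω)) (mu_pos U ω₀)
  set P0 := ms (cnd U.μ (fun ω => (Wn ω, L ω)) (Wn ω₀, L ω₀)) (fun ω => A (U.ln ω)) with hP0
  have hR0 : 0 < R := by linarith
  have hsz : U.sz (fun ω => (Wn ω, L ω)) ω₀ = ((ne D.E : ℕ) : ℝ) := rfl
  refine D.cross hγ0 hγ1 hδ (clsDat_opt hX h ω₀) (x0 := x0) (x1 := x1)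
    (by
      intro e he
      obtain ⟨ω, h1, rfl⟩ := U.mem_cls.1 he
      exact hx ω h1)
    A hR hp hc (κ := 1 / (p * w * Pr U.μ (fun ω => (Wn ω, L ω)) (Wn ω₀, L ω₀))) ?_
    (fun a v => clsDat_flag U (fun ω => (Wn ω, L ω)) ω₀ a v) ?_
  · intro v
    have h1 := clsDat_line U (fun ω => (Wn ω, L ω)) ω₀ hQ hat v
    refine h1.trans ?_
    show 1 / Q ≤ P0 / (4 * R)
    rw [div_le_div_iff₀ hQ (by positivity)]
    nlinarith
  · show _ ≤ P0 / 2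
    rw [← hsz]
    have h1 : U.sz (fun ω => (Wn ω, L ω)) ω₀ *
        (1 / (p * w * Pr U.μ (fun ω => (Wn ω, L ω)) (Wn ω₀, L ω₀))) ≤ 1 / Q := by
      rw [mul_one_div, div_le_div_iff₀ (by positivity) hQ]
      linarith
    have h2 : Real.log (R + 1) ≤ R := by
      have := Real.log_le_sub_one_of_pos (x := R + 1) (by linarith)
      linarith
    have h3 : 0 ≤ Real.log (R + 1) := Real.log_nonneg (by linarith)
    calc 8 * U.sz (fun ω => (Wn ω, L ω)) ω₀ *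
          (1 / (p * w * Pr U.μ (fun ω => (Wn ω, L ω)) (Wn ω₀, L ω₀))) * Real.log (R + 1)
        = 8 * Real.log (R + 1) * (U.sz (fun ω => (Wn ω, L ω)) ω₀ *
          (1 / (p * w * Pr U.μ (fun ω => (Wn ω, L ω)) (Wn ω₀, L ω₀)))) := by ring
      _ ≤ 8 * Real.log (R + 1) * (1 / Q) := mul_le_mul_of_nonneg_left h1 (by positivity)
      _ ≤ 8 * R * (1 / Q) := mul_le_mul_of_nonneg_right (by linarith) (by positivity)
      _ ≤ P0 / 2 := by
        rw [mul_one_div, div_le_div_iff₀ hQ (by norm_num)]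
        linarith

end Vale.Agent.P065.H725
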