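import Vale.Agent.P065.H725.Mom
import Vale.Agent.P065.H859.EntF

/-!
# P065: sizes of the groups of slow lines (helper725)
-/

set_option autoImplicit false

namespace Vale.Agent.P065.H725

open Finset Vale.Agent.P065.UB Vale.Agent.P065.UB.RankAux Vale.Agent.P065.H987
  Vale.Agent.P065.H859

open Classical in
/-- the events on the points of `J` are carried by few points -/
theorem ne_class_le {P : Finset Pt} (hP : Good P) {k : ℕ} {J : Finset Pt} (hJ : J ⊆ P) {I : Set ℝ}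
    (hI : I.OrdConnected) {E : Finset (ℝ × Pt)}
    (hE : ∀ e ∈ E, EvE P k e.1 e.2 ∧ e.2 ∈ J ∧ e.1 ∈ I) :
    ne E ≤ #J + 4 * #(EdBd P k J I) := by
  rcases E.eq_empty_or_nonempty with h0 | h0
  · rw [h0, ne_empty]; exact Nat.zero_le _
  obtain ⟨Q, κ, q1, q2, -, q4, q5⟩ := strip_touch hP hJ hI (E := E)
    (fun e he => ⟨(hE e he).1.touch, (hE e he).2.1, (hE e he).2.2⟩)
    (fun _ => ()) (fun _ => J) (fun _ => 0) (fun _ => hJ)
    (fun e he => (hE e he).2.1)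
    (fun e _ => by simp) (μ := 1) (fun a => Finset.card_le_one.2 (fun _ _ _ _ => rfl)) 0
  have h2 : E.image (fun _ => ()) = {()} := Finset.image_const h0 ()
  rw [h2] at q5
  simp only [sum_singleton] at q5
  obtain ⟨Q', κ', r1, r2⟩ := ne_le_of_touch (E := E) (Q := Q ()) (κ := κ ())
    ⟨q1 (), fun e he => q4 e he⟩
  -- the lonely events are boundary edges
  have hl : #(lone E (Q ())) ≤ #(EdBd P k J I) := by
    have hmap : ∀ m ∈ lone E (Q ()), ∃ f ∈ EdBd P k J I, sl f.1 f.2 = m := by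
      intro m hm
      obtain ⟨⟨m', v⟩, he, rfl⟩ := mem_image.1 hm
      obtain ⟨heE, hno⟩ := mem_filter.1 he
      obtain ⟨⟨⟨p, q⟩, hf, hfs, hfv⟩, hv, hmI⟩ := hE _ heE
      have hc := mem_Ed.1 hf
      have hpq : ht m' p = ht m' q := (ht_eq_iff hc.2.2.1 m').2 hfs.symm
      simp only at hno hfs hfv hv hmI
      have hpart : ∀ u, u ∈ J → u ≠ v → ht m' u ≠ ht m' v := fun u hu huv =>
        hno u (q2 () hu) huv
      refine ⟨(p, q), ?_, hfs⟩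
      rw [mem_EdBd]
      refine ⟨hf, ?_, by rw [hfs]; exact hmI⟩
      have hne : p ≠ q := by rintro rfl; exact lt_irrefl _ hc.2.2.1
      rcases hfv with h5 | h5
      · subst h5
        left
        exact ⟨hv, fun hq => hpart q hq hne.symm hpq.symm⟩
      · subst h5
        right
        exact ⟨fun hp => hpart p hp hne hpq, hv⟩
    choose! f hf hfs using hmap
    refine card_le_card_of_injOn f hf ?_
    intro m hm m' hm' hmm
    rw [← hfs m hm, ← hfs m' hm', hmm]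
  have := ne_le r1
  omega

open Classical in
/-- the events of `E` on slow lines of index `j` -/
noncomputable def EGrp (E : Finset (ℝ × Pt)) (i0 i1 : Pt → ℕ) (j : ℕ) : Finset (ℝ × Pt) :=
  {e ∈ E | Slow i0 i1 e.2 ∧ i0 e.2 = j}

theorem mem_EGrp {E : Finset (ℝ × Pt)} {i0 i1 : Pt → ℕ} {j : ℕ} {e : ℝ × Pt} :
    e ∈ EGrp E i0 i1 j ↔ e ∈ E ∧ Slow i0 i1 e.2 ∧ i0 e.2 = j := by
  classical
  unfold EGrp
  rw [mem_filter]

variable {x0 x1 : ℝ} {i0 i1 : Pt → ℕ}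

open Classical in
theorem sum_card_Grp (P : Finset Pt) (s : Finset ℕ) : ∑ j ∈ s, #(Grp P i0 i1 j) ≤ #P := by
  have h : ∑ j ∈ s, #(Grp P i0 i1 j) = #(s.biUnion fun j => Grp P i0 i1 j) := by
    rw [card_biUnion]
    intro i _ j _ hij
    rw [Function.onFun, disjoint_left]
    intro v hv hv'
    exact hij ((mem_Grp.1 hv).2.2.symm.trans (mem_Grp.1 hv').2.2)
  rw [h]
  apply card_le_card
  intro v hv
  obtain ⟨j, -, hj⟩ := mem_biUnion.1 hv
  exact (mem_Grp.1 hj).1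

/-- **the total size of the groups** -/
theorem sum_ne_Grp {E : Finset (ℝ × Pt)} (hE : IsRealE E) (h : Idx x0 x1 i0 i1)
    (hx : ∀ e ∈ E, x0 < e.1 ∧ e.1 < x1) (s : Finset ℕ) :
    ∑ j ∈ s, ne (EGrp E i0 i1 j) ≤ 33 * ne E := by
  classical
  obtain ⟨P, k, ⟨hP, hPE⟩, hc⟩ := ne_spec hE
  have hI : (Set.Ioo x0 x1).OrdConnected := Set.ordConnected_Ioo
  have h1 : ∀ j ∈ s, ne (EGrp E i0 i1 j) ≤
      #(Grp P i0 i1 j) + 4 * #(EdBd P k (Grp P i0 i1 j) (Set.Ioo x0 x1)) := by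
    intro j _
    refine ne_class_le hP (Grp_subset P i0 i1 j) hI ?_
    intro e he
    obtain ⟨e1, e2, e3⟩ := mem_EGrp.1 he
    have h2 := hPE e e1
    exact ⟨h2, mem_Grp.2 ⟨h2.mem, e2, e3⟩, hx e e1⟩
  have h2 := sum_EdBd_Grp hP (k := k) h hI (fun x hx => hx) s
  have h3 := sum_card_Grp (i0 := i0) (i1 := i1) P s
  calc ∑ j ∈ s, ne (EGrp E i0 i1 j)
      ≤ ∑ j ∈ s, (#(Grp P i0 i1 j) + 4 * #(EdBd P k (Grp P i0 i1 j) (Set.Ioo x0 x1))) :=
        sum_le_sum h1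
    _ = ∑ j ∈ s, #(Grp P i0 i1 j) + 4 * ∑ j ∈ s, #(EdBd P k (Grp P i0 i1 j) (Set.Ioo x0 x1)) := by
        rw [sum_add_distrib, mul_sum]
    _ ≤ 33 * ne E := by rw [← hc]; omega

/-- the group `j` is swept in the window `J` by the events `E` -/
def Swept (E : Finset (ℝ × Pt)) (J : Set ℝ) (i0 i1 : Pt → ℕ) (j : ℕ) : Prop :=
  (∃ e ∈ E, e.1 ∈ J ∧ Slow i0 i1 e.2 ∧ i0 e.2 + 3 ≤ j) ∧
  (∃ e ∈ E, e.1 ∈ J ∧ Slow i0 i1 e.2 ∧ j + 3 ≤ i0 e.2)

open Classical in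
/-- **few lines lie in swept groups** -/
theorem sum_swept {E : Finset (ℝ × Pt)} (hE : IsRealE E) (h : Idx x0 x1 i0 i1)
    {ι : Type*} (A : Finset ι) (J : ι → Set ℝ) (hJ : ∀ a ∈ A, (J a).OrdConnected)
    (hd : ∀ a ∈ A, ∀ b ∈ A, a ≠ b → Disjoint (J a) (J b))
    (hx : ∀ a ∈ A, ∀ x ∈ J a, x0 < x ∧ x < x1) (s : Finset ℕ) :
    ∑ a ∈ A, #{v ∈ E.image Prod.snd | Slow i0 i1 v ∧ i0 v ∈ s ∧ Swept E (J a) i0 i1 (i0 v)} ≤
      8 * ne E := by
  obtain ⟨P, k, ⟨hP, hPE⟩, hc⟩ := ne_spec hE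
  have hI : (Set.Ioo x0 x1).OrdConnected := Set.ordConnected_Ioo
  have h1 : ∀ a ∈ A, #{v ∈ E.image Prod.snd | Slow i0 i1 v ∧ i0 v ∈ s ∧
      Swept E (J a) i0 i1 (i0 v)} ≤ ∑ j ∈ s, #(EdBd P k (Grp P i0 i1 j) (J a)) := by
    intro a ha
    have hsub : ({v ∈ E.image Prod.snd | Slow i0 i1 v ∧ i0 v ∈ s ∧
        Swept E (J a) i0 i1 (i0 v)} : Finset Pt) ⊆
        (s.filter fun j => Swept E (J a) i0 i1 j).biUnion fun j => Grp P i0 i1 j := by
      intro v hv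
      obtain ⟨v1, v2, v3, v4⟩ := mem_filter.1 hv
      obtain ⟨e, he, rfl⟩ := mem_image.1 v1
      rw [mem_biUnion]
      exact ⟨i0 e.2, mem_filter.2 ⟨v3, v4⟩, mem_Grp.2 ⟨(hPE e he).mem, v2, rfl⟩⟩
    refine (card_le_card hsub).trans (card_biUnion_le.trans ?_)
    refine (sum_le_sum (g := fun j => #(EdBd P k (Grp P i0 i1 j) (J a))) ?_).trans
      (sum_le_sum_of_subset (filter_subset _ _))
    intro j hj
    obtain ⟨⟨e, he, he1, he2, he3⟩, ⟨e', he', he1', he2', he3'⟩⟩ := (mem_filter.1 hj).2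
    exact sweep hP h (hJ a ha) (hx a ha) he1 he1' (hPE e he) (hPE e' he') he2 he2' he3 he3'
  calc ∑ a ∈ A, #{v ∈ E.image Prod.snd | Slow i0 i1 v ∧ i0 v ∈ s ∧ Swept E (J a) i0 i1 (i0 v)}
      ≤ ∑ a ∈ A, ∑ j ∈ s, #(EdBd P k (Grp P i0 i1 j) (J a)) := sum_le_sum h1
    _ = ∑ j ∈ s, ∑ a ∈ A, #(EdBd P k (Grp P i0 i1 j) (J a)) := sum_comm
    _ ≤ ∑ j ∈ s, #(EdBd P k (Grp P i0 i1 j) (Set.Ioo x0 x1)) := by
        refine sum_le_sum fun j _ => ?_
        rw [← card_biUnion]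
        · apply card_le_card
          intro e he
          obtain ⟨a, ha, hea⟩ := mem_biUnion.1 he
          rw [mem_EdBd] at hea ⊢
          exact ⟨hea.1, hea.2.1, hx a ha _ hea.2.2⟩
        · intro a ha b hb hab
          rw [Function.onFun, disjoint_left]
          intro e he he'
          rw [mem_EdBd] at he he'
          exact Set.disjoint_left.1 (hd a ha b hb hab) he.2.2 he'.2.2
    _ ≤ 8 * #P := sum_EdBd_Grp hP (k := k) h hI (fun x hx => hx) s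
    _ = 8 * ne E := by rw [hc]

open Classical in
/-- **few lines lie in swept groups**, the windows may be larger than `(x0, x1)` -/
theorem sum_swept' {E : Finset (ℝ × Pt)} (hE : IsRealE E) (h : Idx x0 x1 i0 i1)
    {ι : Type*} (A : Finset ι) (J : ι → Set ℝ) (hJ : ∀ a ∈ A, (J a).OrdConnected)
    (hd : ∀ a ∈ A, ∀ b ∈ A, a ≠ b → Disjoint (J a) (J b))
    (hxE : ∀ e ∈ E, x0 < e.1 ∧ e.1 < x1) (s : Finset ℕ) :
    ∑ a ∈ A, #{v ∈ E.image Prod.snd | Slow i0 i1 v ∧ i0 v ∈ s ∧ Swept E (J a) i0 i1 (i0 v)} ≤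
      8 * ne E := by
  have h1 := sum_swept hE h A (fun a => J a ∩ Set.Ioo x0 x1)
    (fun a ha => (hJ a ha).inter Set.ordConnected_Ioo)
    (fun a ha b hb hab => (hd a ha b hb hab).mono Set.inter_subset_left Set.inter_subset_left)
    (fun a _ x hx => hx.2) s
  refine le_trans (le_of_eq ?_) h1
  refine sum_congr rfl fun a _ => ?_
  congr 1
  refine filter_congr fun v _ => ?_
  have : Swept E (J a) i0 i1 (i0 v) ↔ Swept E (J a ∩ Set.Ioo x0 x1) i0 i1 (i0 v) := by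
    unfold Swept
    constructor
    · rintro ⟨⟨e, e1, e2, e3⟩, ⟨f, f1, f2, f3⟩⟩
      exact ⟨⟨e, e1, ⟨e2, hxE e e1⟩, e3⟩, ⟨f, f1, ⟨f2, hxE f f1⟩, f3⟩⟩
    · rintro ⟨⟨e, e1, e2, e3⟩, ⟨f, f1, f2, f3⟩⟩
      exact ⟨⟨e, e1, e2.1, e3⟩, ⟨f, f1, f2.1, f3⟩⟩
  rw [this]

end Vale.Agent.P065.H725
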