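import Vale.Agent.P065.H725.SysI
import Vale.Agent.P065.H806.Sys
import Vale.Agent.P065.H859.LocDef

/-!
# P065: assembly, statement of the plug (helper725)
-/

set_option autoImplicit false

namespace Vale.Agent.P065.H725

/-- **statement of the plug**: every window `Loc` with large `g` gives a system of case (I) or a
system of case (II) -/
def HSplit : Prop := ∀ (B₀ : ℕ) (c₁ c₂ ρ γ e : ℝ), 2 ≤ B₀ → 0 < c₁ → 0 < c₂ → 0 < ρ → ρ < 1 →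
  0 ≤ γ → γ < 1 → 0 < e → ∃ PP₀ : ℕ, ∀ PP ≥ PP₀, ∀ K₁ ≥ 1, ∀ Γ s₀ : ℕ, ∃ ΛI : ℕ, ∀ kt ≥ 1,
  ∃ Λ : ℕ, ∀ kN : ℕ, ∃ ε₃ : ℝ, 0 < ε₃ ∧ ∃ b : ℝ, 0 < b ∧ ∃ g₁ : ℕ, ∀ (ε₂ : ℝ) (n g : ℕ), g₁ ≤ g →
    H859.Loc B₀ c₁ c₂ ρ γ ε₂ ε₃ b (Real.exp ((g : ℝ) ^ 2)) K₁ n g →
      Nonempty (SysI B₀ Γ s₀ 3 ΛI kt kN c₂ n g) ∨
        Nonempty (H806.Sys B₀ K₁ PP Γ s₀ Λ kN c₂ ρ ε₂ e n g)

end Vale.Agent.P065.H725
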