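import Vale.Agent.P065.H725.Groups

/-!
# P065: masses, quantiles and slow lines (helper725)
-/

set_option autoImplicit false

namespace Vale.Agent.P065.H725

open Finset Vale.Agent.P065.UB Vale.Agent.P065.UB.RankAux Vale.Agent.P065.H987
  Vale.Agent.P065.H859 Vale.Agent.P065.Ent

variable {Ω : Type*} [Fintype Ω]

open Classical in
/-- the mass of an event -/
noncomputable def ms (ν : Ω → ℝ) (Q : Ω → Prop) : ℝ := ∑ ω, if Q ω then ν ω else 0

theorem ms_eq_PE (ν : Ω → ℝ) (Q : Ω → Prop) : ms ν Q = PE ν Q := by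
  classical
  rw [PE_eq]
  unfold ms
  refine sum_congr rfl fun ω _ => ?_
  split_ifs <;> rfl

theorem ms_eq (ν : Ω → ℝ) (Q : Ω → Prop) [DecidablePred Q] :
    ms ν Q = ∑ ω, if Q ω then ν ω else 0 := by
  classical
  unfold ms
  refine sum_congr rfl fun ω _ => ?_
  split_ifs <;> rfl

variable {ν : Ω → ℝ}

theorem ms_nonneg (hν : IsProb ν) (Q : Ω → Prop) : 0 ≤ ms ν Q := by
  classical
  unfold ms
  refine sum_nonneg fun ω _ => ?_
  split_ifs
  · exact hν.nonneg ω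
  · exact le_rfl

/-- monotonicity, only the flags of positive mass matter -/
theorem ms_mono (hν : IsProb ν) {Q Q' : Ω → Prop} (h : ∀ ω, 0 < ν ω → Q ω → Q' ω) :
    ms ν Q ≤ ms ν Q' := by
  classical
  unfold ms
  refine sum_le_sum fun ω _ => ?_
  rcases (hν.nonneg ω).eq_or_lt with h0 | h0
  · rw [← h0]; simp
  · by_cases h1 : Q ω
    · rw [if_pos h1, if_pos (h ω h0 h1)]
    · rw [if_neg h1]
      split_ifs
      · exact h0.le
      · exact le_rfl

theorem ms_congr (hν : IsProb ν) {Q Q' : Ω → Prop} (h : ∀ ω, 0 < ν ω → (Q ω ↔ Q' ω)) :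
    ms ν Q = ms ν Q' :=
  le_antisymm (ms_mono hν fun ω h0 => (h ω h0).1) (ms_mono hν fun ω h0 => (h ω h0).2)

theorem ms_le_one (hν : IsProb ν) (Q : Ω → Prop) : ms ν Q ≤ 1 := by
  rw [ms_eq_PE]
  exact Pr_le_one hν _ _

theorem ms_or_le (hν : IsProb ν) (Q Q' : Ω → Prop) :
    ms ν (fun ω => Q ω ∨ Q' ω) ≤ ms ν Q + ms ν Q' := by
  classical
  unfold ms
  rw [← sum_add_distrib]
  refine sum_le_sum fun ω _ => ?_
  have h0 := hν.nonneg ω
  by_cases h1 : Q ω <;> by_cases h2 : Q' ω <;> simp [h1, h2, h0]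

theorem ms_split (ν : Ω → ℝ) (Q Q' : Ω → Prop) :
    ms ν Q = ms ν (fun ω => Q ω ∧ Q' ω) + ms ν (fun ω => Q ω ∧ ¬ Q' ω) := by
  classical
  unfold ms
  rw [← sum_add_distrib]
  refine sum_congr rfl fun ω _ => ?_
  by_cases h1 : Q ω <;> by_cases h2 : Q' ω <;> simp [h1, h2]

theorem ms_not (hν : IsProb ν) (Q : Ω → Prop) : ms ν (fun ω => ¬ Q ω) = 1 - ms ν Q := by
  classical
  rw [← hν.sum]
  unfold ms
  rw [← sum_sub_distrib]
  refine sum_congr rfl fun ω _ => ?_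
  by_cases h1 : Q ω <;> simp [h1]

theorem ms_pos_iff {Q : Ω → Prop} (h : 0 < ms ν Q) : ∃ ω, 0 < ν ω ∧ Q ω := by
  classical
  by_contra hcon
  push Not at hcon
  have : ms ν Q ≤ 0 := by
    unfold ms
    refine sum_nonpos fun ω _ => ?_
    split_ifs with h1
    · by_contra h2
      exact hcon ω (not_le.1 h2) h1
    · exact le_rfl
  linarith

/-! ## quantiles -/

/-- the two lines change their order between `x0` and `x1` -/
def Cr (x0 x1 : ℝ) (u v : Pt) : Prop :=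
  ¬ ((ht x0 u < ht x0 v ↔ ht x1 u < ht x1 v) ∧ (ht x0 v < ht x0 u ↔ ht x1 v < ht x1 u))

theorem Cr.symm {x0 x1 : ℝ} {u v : Pt} (h : Cr x0 x1 u v) : Cr x0 x1 v u := fun hc =>
  h ⟨hc.2, hc.1⟩

/-- lines which change their order are close at the start of the window -/
theorem Cr.close {x0 x1 : ℝ} {u v : Pt} (h : Cr x0 x1 u v) (hx : x0 ≤ x1) :
    |ht x0 u - ht x0 v| ≤ (x1 - x0) * |u.1 - v.1| := by
  have h1 : (ht x0 u - ht x0 v) * (ht x1 u - ht x1 v) ≤ 0 := by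
    unfold Cr at h
    by_contra hc
    push Not at hc
    apply h
    rcases pos_and_pos_or_neg_and_neg_of_mul_pos hc with ⟨h2, h3⟩ | ⟨h2, h3⟩
    · exact ⟨⟨fun h4 => by linarith, fun h4 => by linarith⟩,
        ⟨fun _ => by linarith, fun _ => by linarith⟩⟩
    · exact ⟨⟨fun _ => by linarith, fun _ => by linarith⟩,
        ⟨fun h4 => by linarith, fun h4 => by linarith⟩⟩
  have h2 : (ht x0 u - ht x0 v) - (ht x1 u - ht x1 v) = (x1 - x0) * (u.1 - v.1) := by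
    unfold ht
    ring
  have h3 : |ht x0 u - ht x0 v| ≤ |(ht x0 u - ht x0 v) - (ht x1 u - ht x1 v)| := by
    rw [← sq_le_sq]
    nlinarith [sq_nonneg (ht x1 u - ht x1 v)]
  rw [h2, abs_mul, abs_of_nonneg (by linarith : 0 ≤ x1 - x0)] at h3
  exact h3

variable (ν) in
/-- the relative mass of the lines of `A` below `v` at `x` -/
noncomputable def qt (ln : Ω → Pt) (A : Pt → Prop) (x : ℝ) (v : Pt) : ℝ :=
  ms ν (fun ω => A (ln ω) ∧ ht x (ln ω) < ht x v) / ms ν (fun ω => A (ln ω))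

variable {ln : Ω → Pt} {A : Pt → Prop}

theorem qt_nonneg (hν : IsProb ν) (x : ℝ) (v : Pt) : 0 ≤ qt ν ln A x v :=
  div_nonneg (ms_nonneg hν _) (ms_nonneg hν _)

theorem qt_le_one (hν : IsProb ν) (x : ℝ) (v : Pt) : qt ν ln A x v ≤ 1 :=
  div_le_one_of_le₀ (ms_mono hν fun _ _ h => h.1) (ms_nonneg hν _)

theorem qt_mono (hν : IsProb ν) {x : ℝ} {u v : Pt} (h : ht x u ≤ ht x v) :
    qt ν ln A x u ≤ qt ν ln A x v :=
  div_le_div_of_nonneg_right (ms_mono hν fun _ _ h' => ⟨h'.1, h'.2.trans_le h⟩)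
    (ms_nonneg hν _)

/-- the index of the quantile -/
noncomputable def ix (ν : Ω → ℝ) (ln : Ω → Pt) (A : Pt → Prop) (R x : ℝ) (v : Pt) : ℕ :=
  ⌊R * qt ν ln A x v⌋₊

theorem ix_Idx (hν : IsProb ν) {R : ℝ} (hR : 0 ≤ R) (x0 x1 : ℝ) :
    Idx x0 x1 (ix ν ln A R x0) (ix ν ln A R x1) where
  m0 _ _ h := Nat.floor_mono (mul_le_mul_of_nonneg_left (qt_mono hν h) hR)
  m1 _ _ h := Nat.floor_mono (mul_le_mul_of_nonneg_left (qt_mono hν h) hR)

theorem ix_le (hν : IsProb ν) {R : ℝ} (hR : 0 ≤ R) (x : ℝ) (v : Pt) :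
    ix ν ln A R x v ≤ ⌊R⌋₊ := by
  refine Nat.floor_mono ?_
  calc R * qt ν ln A x v ≤ R * 1 := mul_le_mul_of_nonneg_left (qt_le_one hν x v) hR
    _ = R := mul_one R

/-- the quantiles at the two ends differ at most by the mass of the crossing lines -/
theorem qt_diff (hν : IsProb ν) (x0 x1 : ℝ) (v : Pt) :
    |qt ν ln A x0 v - qt ν ln A x1 v| ≤
      ms ν (fun ω => A (ln ω) ∧ Cr x0 x1 (ln ω) v) / ms ν (fun ω => A (ln ω)) := by
  unfold qt
  rw [← sub_div, abs_div, abs_of_nonneg (ms_nonneg hν _)]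
  refine div_le_div_of_nonneg_right ?_ (ms_nonneg hν _)
  have key : ∀ y0 y1 : ℝ, (∀ ω, ht y0 (ln ω) < ht y0 v → ¬ ht y1 (ln ω) < ht y1 v →
      Cr x0 x1 (ln ω) v) → ms ν (fun ω => A (ln ω) ∧ ht y0 (ln ω) < ht y0 v) -
      ms ν (fun ω => A (ln ω) ∧ ht y1 (ln ω) < ht y1 v) ≤
      ms ν (fun ω => A (ln ω) ∧ Cr x0 x1 (ln ω) v) := by
    intro y0 y1 h
    have h1 := ms_split ν (fun ω => A (ln ω) ∧ ht y0 (ln ω) < ht y0 v)
      (fun ω => ht y1 (ln ω) < ht y1 v)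
    have h2 : ms ν (fun ω => (A (ln ω) ∧ ht y0 (ln ω) < ht y0 v) ∧ ht y1 (ln ω) < ht y1 v) ≤
        ms ν (fun ω => A (ln ω) ∧ ht y1 (ln ω) < ht y1 v) :=
      ms_mono hν fun ω _ h => ⟨h.1.1, h.2⟩
    have h3 : ms ν (fun ω => (A (ln ω) ∧ ht y0 (ln ω) < ht y0 v) ∧ ¬ ht y1 (ln ω) < ht y1 v) ≤
        ms ν (fun ω => A (ln ω) ∧ Cr x0 x1 (ln ω) v) :=
      ms_mono hν fun ω _ h' => ⟨h'.1.1, h ω h'.1.2 h'.2⟩
    linarith
  rw [abs_sub_le_iff]
  refine ⟨key x0 x1 fun ω h1 h2 hc => h2 (hc.1.1 h1), ?_⟩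
  exact key x1 x0 fun ω h1 h2 hc => h2 (hc.1.2 h1)

/-- a line crossed by little mass is slow -/
theorem slow_of_lt (hν : IsProb ν) {R : ℝ} (hR : 0 < R) {x0 x1 : ℝ} {v : Pt}
    (hp : 0 < ms ν (fun ω => A (ln ω)))
    (h : R * ms ν (fun ω => A (ln ω) ∧ Cr x0 x1 (ln ω) v) < ms ν (fun ω => A (ln ω))) :
    Slow (ix ν ln A R x0) (ix ν ln A R x1) v := by
  have h1 := qt_diff hν (ln := ln) (A := A) x0 x1 v
  have h2 : ms ν (fun ω => A (ln ω) ∧ Cr x0 x1 (ln ω) v) / ms ν (fun ω => A (ln ω)) < 1 / R := by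
    rw [div_lt_div_iff₀ hp hR]
    linarith
  have h3 := h1.trans_lt h2
  rw [abs_sub_lt_iff] at h3
  have key : ∀ a b : ℝ, 0 ≤ b → a - b < 1 / R → ⌊R * a⌋₊ ≤ ⌊R * b⌋₊ + 1 := by
    intro a b hb hab
    have h4 : R * a ≤ R * b + 1 := by
      have : R * (a - b) < R * (1 / R) := mul_lt_mul_of_pos_left hab hR
      rw [mul_one_div_cancel hR.ne'] at this
      linarith
    rw [← Nat.floor_add_one (by positivity)]
    exact Nat.floor_mono h4
  exact ⟨key _ _ (qt_nonneg hν _ _) h3.1, key _ _ (qt_nonneg hν _ _) h3.2⟩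

/-- the flags on fast lines of `A` have mass at most half of `A` -/
theorem fast_mass (hν : IsProb ν) {R : ℝ} (hR : 0 < R) {x0 x1 : ℝ}
    (hp : 0 < ms ν (fun ω => A (ln ω)))
    (hc : ∑ ω, ν ω * (ms ν (fun ω' => A (ln ω') ∧ Cr x0 x1 (ln ω') (ln ω) ∧ A (ln ω))) ≤
      ms ν (fun ω => A (ln ω)) ^ 2 / (2 * R)) :
    ms ν (fun ω => A (ln ω) ∧ ¬ Slow (ix ν ln A R x0) (ix ν ln A R x1) (ln ω)) ≤
      ms ν (fun ω => A (ln ω)) / 2 := by
  classical
  set p := ms ν (fun ω => A (ln ω)) with hpd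
  have h1 : ms ν (fun ω => A (ln ω) ∧ ¬ Slow (ix ν ln A R x0) (ix ν ln A R x1) (ln ω)) * (p / R) ≤
      ∑ ω, ν ω * (ms ν (fun ω' => A (ln ω') ∧ Cr x0 x1 (ln ω') (ln ω) ∧ A (ln ω))) := by
    unfold ms
    rw [sum_mul]
    refine sum_le_sum fun ω _ => ?_
    have h0 := hν.nonneg ω
    split_ifs with h
    · apply mul_le_mul_of_nonneg_left _ h0
      by_contra hcon
      push Not at hcon
      apply h.2
      apply slow_of_lt hν hR hp
      have h3 : ms ν (fun ω' => A (ln ω') ∧ Cr x0 x1 (ln ω') (ln ω) ∧ A (ln ω)) =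
          ms ν (fun ω' => A (ln ω') ∧ Cr x0 x1 (ln ω') (ln ω)) :=
        ms_congr hν fun ω' _ => ⟨fun h' => ⟨h'.1, h'.2.1⟩, fun h' => ⟨h'.1, h'.2, h.1⟩⟩
      have h4 : ms ν (fun ω' => A (ln ω') ∧ Cr x0 x1 (ln ω') (ln ω) ∧ A (ln ω)) < p / R := hcon
      rw [h3, lt_div_iff₀ hR] at h4
      linarith
    · rw [zero_mul]
      exact mul_nonneg h0 (ms_nonneg hν _)
  have h2 := h1.trans hc
  have hpR : 0 < p / R := by positivity
  have h3 : p ^ 2 / (2 * R) = p / 2 * (p / R) := by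
    field_simp
  rw [h3] at h2
  exact le_of_mul_le_mul_right h2 hpR

/-- **the groups have small masses** -/
theorem group_mass (hν : IsProb ν) {R : ℝ} (hR : 0 < R) {x : ℝ} {P : Finset Pt} (hP : Good P)
    (hln : ∀ ω, 0 < ν ω → ln ω ∈ P) (hp : 0 < ms ν (fun ω => A (ln ω)))
    (hatom : ∀ v, ms ν (fun ω => ln ω = v) ≤ ms ν (fun ω => A (ln ω)) / (4 * R)) (j : ℕ) :
    ms ν (fun ω => A (ln ω) ∧ ix ν ln A R x (ln ω) = j) ≤ 2 * ms ν (fun ω => A (ln ω)) / R := by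
  classical
  set p := ms ν (fun ω => A (ln ω)) with hpd
  set S : Finset Ω := {ω | 0 < ν ω ∧ A (ln ω) ∧ ix ν ln A R x (ln ω) = j} with hS
  rcases S.eq_empty_or_nonempty with h0 | h0
  · have : ms ν (fun ω => A (ln ω) ∧ ix ν ln A R x (ln ω) = j) ≤ 0 := by
      by_contra hcon
      push Not at hcon
      obtain ⟨ω, h1, h2⟩ := ms_pos_iff hcon
      have : ω ∈ S := mem_filter.2 ⟨mem_univ _, h1, h2⟩
      rw [h0] at this
      exact notMem_empty _ this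
    have : 0 ≤ 2 * p / R := by positivity
    linarith
  · obtain ⟨ω1, hω1, hmax⟩ := exists_max_image S (fun ω => ht x (ln ω)) h0
    obtain ⟨ω0, hω0, hmin⟩ := exists_min_image S (fun ω => ht x (ln ω)) h0
    obtain ⟨-, p1, a1, i1⟩ := mem_filter.1 hω1
    obtain ⟨-, p0, a0, i0⟩ := mem_filter.1 hω0
    -- the middle part
    have m1 : ms ν (fun ω => A (ln ω) ∧ ht x (ln ω0) ≤ ht x (ln ω) ∧ ht x (ln ω) < ht x (ln ω1)) ≤
        p / R := by
      have h1 := ms_split ν (fun ω => A (ln ω) ∧ ht x (ln ω) < ht x (ln ω1))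
        (fun ω => ht x (ln ω) < ht x (ln ω0))
      have h2 : ms ν (fun ω => A (ln ω) ∧ ht x (ln ω) < ht x (ln ω0)) =
          ms ν (fun ω => (A (ln ω) ∧ ht x (ln ω) < ht x (ln ω1)) ∧ ht x (ln ω) < ht x (ln ω0)) :=
        ms_congr hν fun ω _ => ⟨fun h => ⟨⟨h.1, h.2.trans_le (hmin ω1 hω1)⟩, h.2⟩,
          fun h => ⟨h.1.1, h.2⟩⟩
      have h3 : ms ν (fun ω => A (ln ω) ∧ ht x (ln ω0) ≤ ht x (ln ω) ∧ ht x (ln ω) < ht x (ln ω1)) =
          ms ν (fun ω => (A (ln ω) ∧ ht x (ln ω) < ht x (ln ω1)) ∧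
            ¬ ht x (ln ω) < ht x (ln ω0)) :=
        ms_congr hν fun ω _ => ⟨fun h => ⟨⟨h.1, h.2.2⟩, not_lt.2 h.2.1⟩,
          fun h => ⟨h.1.1, not_lt.1 h.2, h.1.2⟩⟩
      have h4 : qt ν ln A x (ln ω1) - qt ν ln A x (ln ω0) ≤ 1 / R := by
        have e1 := Nat.lt_floor_add_one (R * qt ν ln A x (ln ω1))
        have e0 := Nat.floor_le (mul_nonneg hR.le (qt_nonneg hν (ln := ln) (A := A) x (ln ω0)))
        unfold ix at i1 i0
        rw [i1] at e1
        rw [i0] at e0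
        rw [le_div_iff₀ hR]
        nlinarith
      unfold qt at h4
      rw [← sub_div, div_le_div_iff₀ hp hR] at h4
      rw [h3, le_div_iff₀ hR]
      rw [← h2] at h1
      nlinarith
    -- the top part
    have m2 : ms ν (fun ω => ht x (ln ω) = ht x (ln ω1)) ≤ 2 * (p / (4 * R)) := by
      by_cases hex : ∃ u ∈ P, u ≠ ln ω1 ∧ ht x u = ht x (ln ω1)
      · obtain ⟨u, u1, u2, u3⟩ := hex
        have h1 : ms ν (fun ω => ht x (ln ω) = ht x (ln ω1)) ≤
            ms ν (fun ω => ln ω = ln ω1 ∨ ln ω = u) := by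
          refine ms_mono hν fun ω h2 h3 => ?_
          by_contra hcon
          push Not at hcon
          exact hP.gen x (ln ω1) (hln ω1 p1) u u1 (ln ω) (hln ω h2) u2.symm hcon.1.symm
            hcon.2.symm u3.symm h3.symm
        have h2 := ms_or_le hν (fun ω => ln ω = ln ω1) (fun ω => ln ω = u)
        have h3 := hatom (ln ω1)
        have h4 := hatom u
        linarith
      · push Not at hex
        have h1 : ms ν (fun ω => ht x (ln ω) = ht x (ln ω1)) ≤ ms ν (fun ω => ln ω = ln ω1) := by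
          refine ms_mono hν fun ω h2 h3 => ?_
          by_contra hcon
          exact hex (ln ω) (hln ω h2) hcon h3
        have h3 := hatom (ln ω1)
        have : 0 ≤ p / (4 * R) := by positivity
        linarith
    have m3 : ms ν (fun ω => A (ln ω) ∧ ix ν ln A R x (ln ω) = j) ≤
        ms ν (fun ω => (A (ln ω) ∧ ht x (ln ω0) ≤ ht x (ln ω) ∧ ht x (ln ω) < ht x (ln ω1)) ∨
          ht x (ln ω) = ht x (ln ω1)) := by
      refine ms_mono hν fun ω h1 h2 => ?_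
      have h3 : ω ∈ S := mem_filter.2 ⟨mem_univ _, h1, h2⟩
      rcases (hmax ω h3).lt_or_eq with h4 | h4
      · exact Or.inl ⟨h2.1, hmin ω h3, h4⟩
      · exact Or.inr h4
    have m4 := ms_or_le hν (fun ω => A (ln ω) ∧ ht x (ln ω0) ≤ ht x (ln ω) ∧
      ht x (ln ω) < ht x (ln ω1)) (fun ω => ht x (ln ω) = ht x (ln ω1))
    have h5 : p / R + 2 * (p / (4 * R)) ≤ 2 * p / R := by
      have : 2 * p / R - (p / R + 2 * (p / (4 * R))) = p / R / 2 := by
        field_simp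
        ring
      have : 0 ≤ p / R / 2 := by positivity
      linarith
    linarith

end Vale.Agent.P065.H725
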