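import Vale.Agent.P065.H859.EStrip

/-!
# P065: momentum for an index function (helper725)

`mom_class`: if at every `k`-edge `(p, q)` of a window `q ∈ J` implies `p ∈ J`, then at most `#J`
of these edges leave `J`. `mom_index`: the same for an index function `G` which decreases along the
edges.
-/

set_option autoImplicit false

namespace Vale.Agent.P065.H725

open Finset Vale.Agent.P065.UB Vale.Agent.P065.UB.RankAux Vale.Agent.P065.H987
  Vale.Agent.P065.H859

theorem ed_c {P : Finset Pt} {k : ℕ} {e : Pt × Pt} (he : e ∈ Ed P k) :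
    e.1 ∈ P ∧ e.2 ∈ P ∧ e.1.1 < e.2.1 := by
  obtain ⟨p, q⟩ := e
  have := mem_Ed.1 he
  exact ⟨this.1, this.2.1, this.2.2.1⟩

/-- order at the two ends of a window containing the slope of an edge -/
theorem ends_order {p q : Pt} (hx : p.1 < q.1) {x : ℝ} :
    (x < sl p q → ht x p < ht x q) ∧ (sl p q < x → ht x q < ht x p) := by
  have h' : 0 < q.1 - p.1 := by linarith
  unfold sl ht
  constructor <;> intro h
  · rw [lt_div_iff₀ h'] at h
    nlinarith
  · rw [div_lt_iff₀ h'] at h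
    nlinarith

open Classical in
/-- the edges of the window which leave the class `J` -/
noncomputable def Out (P : Finset Pt) (k : ℕ) (J : Finset Pt) (I : Set ℝ) : Finset (Pt × Pt) :=
  {e ∈ Ed P k | sl e.1 e.2 ∈ I ∧ e.1 ∈ J ∧ e.2 ∉ J}

theorem mem_Out {P : Finset Pt} {k : ℕ} {J : Finset Pt} {I : Set ℝ} {e : Pt × Pt} :
    e ∈ Out P k J I ↔ e ∈ Ed P k ∧ sl e.1 e.2 ∈ I ∧ e.1 ∈ J ∧ e.2 ∉ J := by
  classical
  unfold Out
  rw [mem_filter]

open Classical in
theorem mom_aux {P : Finset Pt} (hP : Good P) {k : ℕ} {J : Finset Pt} (hJ : J ⊆ P) {I : Set ℝ}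
    (hI : I.OrdConnected)
    (hdec : ∀ e ∈ Ed P k, sl e.1 e.2 ∈ I → e.2 ∈ J → e.1 ∈ J) :
    ∀ (n : ℕ) (e : Pt × Pt), e ∈ Ed P k → sl e.1 e.2 ∈ I →
      #{g ∈ Ed P k | sl g.1 g.2 ∈ I ∧ sl e.1 e.2 < sl g.1 g.2} < n →
      #{f ∈ Out P k J I | sl e.1 e.2 ≤ sl f.1 f.2} ≤ bef J e := by
  intro n
  induction n with
  | zero => intro e _ _ h; omega
  | succ n ih =>
    intro e he heI hn
    -- the edge `e` itself
    have hself : #{f ∈ Out P k J I | sl e.1 e.2 ≤ sl f.1 f.2} ≤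
        (if e.1 ∈ J ∧ e.2 ∉ J then 1 else 0) +
          #{f ∈ Out P k J I | sl e.1 e.2 < sl f.1 f.2} := by
      have hsub : {f ∈ Out P k J I | sl e.1 e.2 ≤ sl f.1 f.2} ⊆
          (if e.1 ∈ J ∧ e.2 ∉ J then {e} else ∅) ∪
            {f ∈ Out P k J I | sl e.1 e.2 < sl f.1 f.2} := by
        intro f hf
        obtain ⟨h1, h2⟩ := mem_filter.1 hf
        rw [mem_union]
        rcases h2.lt_or_eq with h3 | h3
        · right; exact mem_filter.2 ⟨h1, h3⟩
        · left
          have h4 := mem_Out.1 h1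
          obtain ⟨h5, h6⟩ := Ed_unique hP he h4.1 h3
          have h7 : e = f := Prod.ext h5 h6
          subst h7
          rw [if_pos ⟨h4.2.2.1, h4.2.2.2⟩]
          exact mem_singleton_self _
      refine (card_le_card hsub).trans ((card_union_le _ _).trans ?_)
      apply Nat.add_le_add_right
      split_ifs
      · simp
      · simp
    have hbef : (if e.1 ∈ J ∧ e.2 ∉ J then 1 else 0) + aft J e = bef J e := by
      have hd := hdec e he heI
      unfold aft bef
      by_cases h1 : e.1 ∈ J <;> by_cases h2 : e.2 ∈ J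
      · simp [h1, h2]
      · simp [h1, h2]; omega
      · exact absurd (hd h2) h1
      · simp [h1, h2]
    rcases ({g ∈ Ed P k | sl g.1 g.2 ∈ I ∧ sl e.1 e.2 < sl g.1 g.2} :
        Finset (Pt × Pt)).eq_empty_or_nonempty with h0 | h0
    · have : {f ∈ Out P k J I | sl e.1 e.2 < sl f.1 f.2} = ∅ := by
        rw [eq_empty_iff_forall_notMem]
        intro f hf
        obtain ⟨h1, h2⟩ := mem_filter.1 hf
        have h3 := mem_Out.1 h1
        have h4 : f ∈ ({g ∈ Ed P k | sl g.1 g.2 ∈ I ∧ sl e.1 e.2 < sl g.1 g.2} :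
            Finset (Pt × Pt)) := mem_filter.2 ⟨h3.1, h3.2.1, h2⟩
        rw [h0] at h4
        exact notMem_empty _ h4
      rw [this, card_empty] at hself
      omega
    · obtain ⟨e', he', hmin⟩ := exists_min_image _ (fun g : Pt × Pt => sl g.1 g.2) h0
      obtain ⟨c1, c2, c3⟩ := mem_filter.1 he'
      have hstep := step_eq hP hJ he c1 c3 (fun g hg hl => by
        by_contra hcon
        push Not at hcon
        have hgI : sl g.1 g.2 ∈ I := hI.out heI c2 ⟨hl.le, hcon.le⟩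
        exact absurd (hmin g (mem_filter.2 ⟨hg, hgI, hl⟩)) (not_le.2 hcon))
      have hlt : #{g ∈ Ed P k | sl g.1 g.2 ∈ I ∧ sl e'.1 e'.2 < sl g.1 g.2} < n := by
        have : #{g ∈ Ed P k | sl g.1 g.2 ∈ I ∧ sl e'.1 e'.2 < sl g.1 g.2} <
            #{g ∈ Ed P k | sl g.1 g.2 ∈ I ∧ sl e.1 e.2 < sl g.1 g.2} := by
          apply card_lt_card
          rw [ssubset_iff_of_subset]
          · exact ⟨e', he', fun h => lt_irrefl _ (mem_filter.1 h).2.2⟩
          · intro g hg
            obtain ⟨g1, g2, g3⟩ := mem_filter.1 hg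
            exact mem_filter.2 ⟨g1, g2, c3.trans g3⟩
        omega
      have h5 := ih e' c1 c2 hlt
      have h6 : #{f ∈ Out P k J I | sl e.1 e.2 < sl f.1 f.2} ≤
          #{f ∈ Out P k J I | sl e'.1 e'.2 ≤ sl f.1 f.2} := by
        apply card_le_card
        intro f hf
        obtain ⟨h1, h2⟩ := mem_filter.1 hf
        have h3 := mem_Out.1 h1
        exact mem_filter.2 ⟨h1, hmin f (mem_filter.2 ⟨h3.1, h3.2.1, h2⟩)⟩
      omega

/-- **momentum** for a class which the cursor only leaves -/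
theorem mom_class {P : Finset Pt} (hP : Good P) {k : ℕ} {J : Finset Pt} (hJ : J ⊆ P) {I : Set ℝ}
    (hI : I.OrdConnected)
    (hdec : ∀ e ∈ Ed P k, sl e.1 e.2 ∈ I → e.2 ∈ J → e.1 ∈ J) :
    #(Out P k J I) ≤ #J := by
  classical
  rcases ({g ∈ Ed P k | sl g.1 g.2 ∈ I} : Finset (Pt × Pt)).eq_empty_or_nonempty with h0 | h0
  · have : Out P k J I = ∅ := by
      rw [eq_empty_iff_forall_notMem]
      intro f hf
      have h3 := mem_Out.1 hf
      have h4 : f ∈ ({g ∈ Ed P k | sl g.1 g.2 ∈ I} : Finset (Pt × Pt)) :=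
        mem_filter.2 ⟨h3.1, h3.2.1⟩
      rw [h0] at h4
      exact notMem_empty _ h4
    rw [this, card_empty]
    exact Nat.zero_le _
  · obtain ⟨e, he, hmin⟩ := exists_min_image _ (fun g : Pt × Pt => sl g.1 g.2) h0
    obtain ⟨c1, c2⟩ := mem_filter.1 he
    have h1 := mom_aux hP hJ hI hdec _ e c1 c2 (Nat.lt_succ_self _)
    have h2 : {f ∈ Out P k J I | sl e.1 e.2 ≤ sl f.1 f.2} = Out P k J I := by
      rw [filter_eq_self]
      intro f hf
      have h3 := mem_Out.1 hf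
      exact hmin f (mem_filter.2 ⟨h3.1, h3.2.1⟩)
    rw [h2] at h1
    obtain ⟨L, -, -, h5⟩ := bef_eq hP hJ c1
    rw [← h5] at h1
    exact h1.trans (card_le_card inter_subset_right)

open Classical in
/-- **momentum** for an index which decreases along the edges -/
theorem mom_index {P : Finset Pt} (hP : Good P) {k : ℕ} {I : Set ℝ} (hI : I.OrdConnected)
    (G : Pt → ℕ) {g : ℕ} (hg : ∀ v, G v ≤ g) (M : Pt × Pt → Prop)
    (hdec : ∀ e ∈ Ed P k, sl e.1 e.2 ∈ I → G e.2 ≤ G e.1)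
    (hM : ∀ e ∈ Ed P k, sl e.1 e.2 ∈ I → M e → G e.2 < G e.1) :
    #{e ∈ Ed P k | sl e.1 e.2 ∈ I ∧ M e} ≤ g * #P := by
  have hsub : ({e ∈ Ed P k | sl e.1 e.2 ∈ I ∧ M e} : Finset (Pt × Pt)) ⊆
      (range g).biUnion fun t => Out P k {v ∈ P | t + 1 ≤ G v} I := by
    intro e he
    obtain ⟨h1, h2, h3⟩ := mem_filter.1 he
    have h4 := hM e h1 h2 h3
    have h5 := hg e.1
    have hc := ed_c h1
    rw [mem_biUnion]
    refine ⟨G e.1 - 1, mem_range.2 (by omega), mem_Out.2 ⟨h1, h2, ?_, ?_⟩⟩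
    · exact mem_filter.2 ⟨hc.1, by omega⟩
    · intro h
      have := (mem_filter.1 h).2
      omega
  refine (card_le_card hsub).trans (card_biUnion_le.trans ?_)
  calc ∑ t ∈ range g, #(Out P k {v ∈ P | t + 1 ≤ G v} I)
      ≤ ∑ _t ∈ range g, #P := by
        refine sum_le_sum fun t _ => ?_
        refine (mom_class hP (filter_subset _ _) hI ?_).trans (card_le_card (filter_subset _ _))
        intro e he hs h
        have hc := ed_c he
        have h1 := (mem_filter.1 h).2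
        have h2 := hdec e he hs
        exact mem_filter.2 ⟨hc.1, by omega⟩
    _ = g * #P := by rw [sum_const, card_range, smul_eq_mul]

/-! ## Groups -/

/-- a line is slow if its indices at the two ends of the window differ by at most one -/
def Slow (i0 i1 : Pt → ℕ) (v : Pt) : Prop := i0 v ≤ i1 v + 1 ∧ i1 v ≤ i0 v + 1

open Classical in
/-- the group `j`: the slow lines with index `j` at the start -/
noncomputable def Grp (P : Finset Pt) (i0 i1 : Pt → ℕ) (j : ℕ) : Finset Pt :=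
  {v ∈ P | Slow i0 i1 v ∧ i0 v = j}

theorem mem_Grp {P : Finset Pt} {i0 i1 : Pt → ℕ} {j : ℕ} {v : Pt} :
    v ∈ Grp P i0 i1 j ↔ v ∈ P ∧ Slow i0 i1 v ∧ i0 v = j := by
  classical
  unfold Grp
  rw [mem_filter]

theorem Grp_subset (P : Finset Pt) (i0 i1 : Pt → ℕ) (j : ℕ) : Grp P i0 i1 j ⊆ P := fun _ h =>
  (mem_Grp.1 h).1

/-- the indices are monotone in the heights at the two ends -/
structure Idx (x0 x1 : ℝ) (i0 i1 : Pt → ℕ) : Prop where
  m0 : ∀ u v : Pt, ht x0 u ≤ ht x0 v → i0 u ≤ i0 v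
  m1 : ∀ u v : Pt, ht x1 u ≤ ht x1 v → i1 u ≤ i1 v

variable {P : Finset Pt} {k : ℕ} {x0 x1 : ℝ} {i0 i1 : Pt → ℕ}

theorem Idx.edge (h : Idx x0 x1 i0 i1) {e : Pt × Pt} (he : e ∈ Ed P k) (h0 : x0 < sl e.1 e.2)
    (h1 : sl e.1 e.2 < x1) : i0 e.1 ≤ i0 e.2 ∧ i1 e.2 ≤ i1 e.1 := by
  have hc := ed_c he
  have h2 := ends_order (x := x0) hc.2.2
  have h3 := ends_order (x := x1) hc.2.2
  exact ⟨h.m0 _ _ (h2.1 h0).le, h.m1 _ _ (h3.2 h1).le⟩

open Classical in
/-- the groups have few boundary edges in total -/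
theorem sum_EdBd_Grp (hP : Good P) (h : Idx x0 x1 i0 i1) {I : Set ℝ} (hI : I.OrdConnected)
    (hx : ∀ x ∈ I, x0 < x ∧ x < x1) (s : Finset ℕ) :
    ∑ j ∈ s, #(EdBd P k (Grp P i0 i1 j) I) ≤ 8 * #P := by
  set M : Pt × Pt → Prop := fun e => ∃ j, (e.1 ∈ Grp P i0 i1 j ∧ e.2 ∉ Grp P i0 i1 j) ∨
    (e.1 ∉ Grp P i0 i1 j ∧ e.2 ∈ Grp P i0 i1 j) with hM
  have key := mom_index hP (k := k) hI (fun v => min 4 (i1 v + 2 - i0 v)) (g := 4)
    (fun v => min_le_left _ _) M
    (by
      intro e he hs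
      obtain ⟨h1, h2⟩ := h.edge he (hx _ hs).1 (hx _ hs).2
      show min 4 (i1 e.2 + 2 - i0 e.2) ≤ min 4 (i1 e.1 + 2 - i0 e.1)
      omega)
    (by
      intro e he hs hMe
      obtain ⟨h1, h2⟩ := h.edge he (hx _ hs).1 (hx _ hs).2
      have hc := ed_c he
      obtain ⟨j, hj⟩ := hMe
      simp only [mem_Grp, Slow, hc.1, hc.2.1, true_and] at hj
      show min 4 (i1 e.2 + 2 - i0 e.2) < min 4 (i1 e.1 + 2 - i0 e.1)
      omega)
  have hcount : ∑ j ∈ s, #(EdBd P k (Grp P i0 i1 j) I) ≤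
      2 * #{e ∈ Ed P k | sl e.1 e.2 ∈ I ∧ M e} := by
    have h2 := sum_card_bipartiteAbove_eq_sum_card_bipartiteBelow
      (s := s) (t := ({e ∈ Ed P k | sl e.1 e.2 ∈ I ∧ M e} : Finset (Pt × Pt)))
      (fun j e => (e.1 ∈ Grp P i0 i1 j ∧ e.2 ∉ Grp P i0 i1 j) ∨
        (e.1 ∉ Grp P i0 i1 j ∧ e.2 ∈ Grp P i0 i1 j))
    unfold bipartiteAbove bipartiteBelow at h2
    have h3 : ∀ j ∈ s, EdBd P k (Grp P i0 i1 j) I =
        ({e ∈ ({e ∈ Ed P k | sl e.1 e.2 ∈ I ∧ M e} : Finset (Pt × Pt)) |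
          (e.1 ∈ Grp P i0 i1 j ∧ e.2 ∉ Grp P i0 i1 j) ∨
          (e.1 ∉ Grp P i0 i1 j ∧ e.2 ∈ Grp P i0 i1 j)} : Finset (Pt × Pt)) := by
      intro j _
      ext e
      rw [mem_EdBd, mem_filter, mem_filter]
      constructor
      · rintro ⟨h4, h5, h6⟩
        exact ⟨⟨h4, h6, j, h5⟩, h5⟩
      · rintro ⟨⟨h4, h6, -⟩, h5⟩
        exact ⟨h4, h5, h6⟩
    rw [sum_congr rfl fun j hj => by rw [h3 j hj], h2]
    calc _ ≤ ∑ _e ∈ ({e ∈ Ed P k | sl e.1 e.2 ∈ I ∧ M e} : Finset (Pt × Pt)), 2 := by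
          refine sum_le_sum fun e _ => ?_
          refine (card_le_card (t := {i0 e.1, i0 e.2}) ?_).trans card_le_two
          intro j hj
          have h4 := (mem_filter.1 hj).2
          rw [mem_insert, mem_singleton]
          rcases h4 with h4 | h4
          · left; exact (mem_Grp.1 h4.1).2.2.symm
          · right; exact (mem_Grp.1 h4.2).2.2.symm
      _ = 2 * #{e ∈ Ed P k | sl e.1 e.2 ∈ I ∧ M e} := by
          rw [sum_const, smul_eq_mul, mul_comm]
  omega

/-- slow lines whose indices differ by at least three do not meet -/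
theorem Idx.far (h : Idx x0 x1 i0 i1) {u v : Pt} (hu : Slow i0 i1 u)
    (hv : Slow i0 i1 v) (huv : i0 u + 3 ≤ i0 v) {x : ℝ} (hx0 : x0 ≤ x) (hx1 : x ≤ x1) :
    ht x u < ht x v := by
  have h0 : ht x0 u < ht x0 v := by
    by_contra hc
    have := h.m0 v u (not_lt.1 hc)
    omega
  have h1 : ht x1 u < ht x1 v := by
    by_contra hc
    have := h.m1 v u (not_lt.1 hc)
    unfold Slow at hu hv
    omega
  unfold ht at *
  -- affine interpolation
  rcases hx0.eq_or_lt with rfl | hx0'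
  · exact h0
  · have h2 : 0 < x1 - x0 := by linarith
    have h3 : (x1 - x0) * ((v.2 - x * v.1) - (u.2 - x * u.1)) =
        (x1 - x) * ((v.2 - x0 * v.1) - (u.2 - x0 * u.1)) +
        (x - x0) * ((v.2 - x1 * v.1) - (u.2 - x1 * u.1)) := by ring
    have h4 : 0 < (x1 - x0) * ((v.2 - x * v.1) - (u.2 - x * u.1)) := by
      rw [h3]
      have h5 : 0 ≤ (x1 - x) * ((v.2 - x0 * v.1) - (u.2 - x0 * u.1)) :=
        mul_nonneg (by linarith) (by linarith)
      have h6 : 0 < (x - x0) * ((v.2 - x1 * v.1) - (u.2 - x1 * u.1)) :=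
        mul_pos (by linarith) (by linarith)
      linarith
    have h7 := (pos_iff_pos_of_mul_pos h4).1 h2
    linarith

open Classical in
/-- **sweeping**: if a window touches a group below and a group above the group `j`, then it has at
least `#(group j)` boundary edges of the group `j` -/
theorem sweep (hP : Good P) (h : Idx x0 x1 i0 i1) {I : Set ℝ} (hI : I.OrdConnected)
    (hx : ∀ x ∈ I, x0 < x ∧ x < x1) {m m' : ℝ} (hm : m ∈ I) (hm' : m' ∈ I) {v v' : Pt}
    (hv : EvE P k m v) (hv' : EvE P k m' v') (hs : Slow i0 i1 v) (hs' : Slow i0 i1 v') {j : ℕ}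
    (hj : i0 v + 3 ≤ j) (hj' : j + 3 ≤ i0 v') :
    #(Grp P i0 i1 j) ≤ #(EdBd P k (Grp P i0 i1 j) I) := by
  set J := Grp P i0 i1 j with hJ
  have hJP : J ⊆ P := Grp_subset P i0 i1 j
  have b1 := hx m hm
  have b2 := hx m' hm'
  have hlow : ∀ u ∈ J, ht m v < ht m u := fun u hu => by
    obtain ⟨-, h1, h2⟩ := mem_Grp.1 hu
    exact h.far hs h1 (by omega) b1.1.le b1.2.le
  have hhigh : ∀ u ∈ J, ht m' u < ht m' v' := fun u hu => by
    obtain ⟨-, h1, h2⟩ := mem_Grp.1 hu
    exact h.far h1 hs' (by omega) b2.1.le b2.2.le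
  obtain ⟨⟨p, q⟩, he, hsl, hpq⟩ := hv
  obtain ⟨⟨p', q'⟩, he', hsl', hpq'⟩ := hv'
  have hc := mem_Ed.1 he
  have hc' := mem_Ed.1 he'
  have e1 : ht m p = ht m q := (ht_eq_iff hc.2.2.1 m).2 hsl.symm
  have e1' : ht m' p' = ht m' q' := (ht_eq_iff hc'.2.2.1 m').2 hsl'.symm
  have ep : ht m p = ht m v := by rcases hpq with h3 | h3 <;> simp only at h3 <;> simp [← h3, e1]
  have ep' : ht m' p' = ht m' v' := by
    rcases hpq' with h3 | h3 <;> simp only at h3 <;> simp [← h3, e1']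
  simp only at hsl hsl'
  -- the numbers of points of `J` in the low sets
  have g1 : aft J (p, q) = 0 ∧ bef J (p, q) = 0 := by
    have t1 : cT J (p, q) = 0 := by
      unfold cT
      rw [card_eq_zero, eq_empty_iff_forall_notMem]
      intro u hu
      obtain ⟨h3, h4⟩ := mem_filter.1 hu
      simp only [hsl] at h4
      have := hlow u h3
      linarith
    have t2 : p ∉ J := fun h3 => by have := hlow p h3; linarith
    have t3 : q ∉ J := fun h3 => by have := hlow q h3; linarith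
    unfold aft bef
    simp [t1, t2, t3]
  have g2 : aft J (p', q') = #J ∧ bef J (p', q') = #J := by
    have t1 : cT J (p', q') = #J := by
      unfold cT
      congr 1
      rw [filter_eq_self]
      intro u hu
      simp only [hsl']
      have := hhigh u hu
      linarith
    have t2 : p' ∉ J := fun h3 => by have := hhigh p' h3; linarith
    have t3 : q' ∉ J := fun h3 => by have := hhigh q' h3; linarith
    unfold aft bef
    simp [t1, t2, t3]
  obtain ⟨L1, l1, l2, l3⟩ := aft_eq hP hJP he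
  obtain ⟨L2, k1, k2, k3⟩ := bef_eq hP hJP he
  obtain ⟨L1', l1', l2', l3'⟩ := aft_eq hP hJP he'
  obtain ⟨L2', k1', k2', k3'⟩ := bef_eq hP hJP he'
  simp only [hsl, hsl'] at l1 k1 l1' k1'
  have hmix : ∀ a b : ℝ, a ∈ I → b ∈ I → #(Mix P k J a b) ≤ #(EdBd P k J I) := by
    intro a b ha hb
    apply card_le_card
    intro f hf
    unfold Mix at hf
    obtain ⟨f1, f2, f3, f4⟩ := mem_filter.1 hf
    rw [mem_EdBd]
    exact ⟨f1, f2, hI.out ha hb ⟨f3.le, f4.le⟩⟩
  rcases lt_trichotomy m m' with hlt | heq | hgt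
  · have key := cursor hP J k1' k2' _ m L1 (Nat.lt_succ_self _) hlt l1 l2
    have := hmix m m' hm hm'
    omega
  · exfalso
    rw [← heq] at ep' e1' hhigh
    -- both vertices are on the level at the same time
    have t1 := EvE.touch (P := P) (k := k) (m := m) (v := v) ⟨(p, q), he, hsl, hpq⟩
    have t2 := EvE.touch (P := P) (k := k) (m := m) (v := v') ⟨(p', q'), he', by
      simp only [hsl', heq], hpq'⟩
    have t3 := touch_ht t1 t2
    have t4 := h.far hs hs' (by omega) b1.1.le b1.2.le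
    linarith
  · have key := cursor hP J k1 k2 _ m' L1' (Nat.lt_succ_self _) hgt l1' l2'
    have := hmix m' m hm' hm
    omega

end Vale.Agent.P065.H725
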