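import Vale.Agent.P065.H725.ContentG

/-!
# P065: the content lemma from the crossing property (helper725)

`CrossP ν ln x0 x1 γ Q` is the conclusion of the crossing lemma for a law `ν` on flags: for every
set `S` of lines whose mass is not too small (`16 R ≤ Q ν(S)`), if the pairs of lines of `S` which
change their order in `(x0, x1)` have mass at most `ν(S)² / (2 R)`, then
`(1 - γ) log (R / 2) ≤ 2 log (1 / ν(S)) + 12`.
-/

set_option autoImplicit false

namespace Vale.Agent.P065.H725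

open Finset Vale.Agent.P065.UB Vale.Agent.P065.UB.RankAux Vale.Agent.P065.H987
  Vale.Agent.P065.H859 Vale.Agent.P065.Ent

variable {Ω : Type*} [Fintype Ω]

/-- the crossing property of a law on flags in the window `(x0, x1)` -/
def CrossP (ν : Ω → ℝ) (ln : Ω → Pt) (x0 x1 γ Q : ℝ) : Prop :=
  ∀ S : Pt → Prop, 0 < ms ν (fun ω => S (ln ω)) → ∀ R : ℝ, 1 ≤ R →
    16 * R ≤ Q * ms ν (fun ω => S (ln ω)) →
    ∑ ω, ν ω * ms ν (fun ω' => S (ln ω') ∧ Cr x0 x1 (ln ω') (ln ω) ∧ S (ln ω)) ≤
      ms ν (fun ω => S (ln ω)) ^ 2 / (2 * R) →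
    (1 - γ) * Real.log (R / 2) ≤ 2 * Real.log (1 / ms ν (fun ω => S (ln ω))) + 12

variable {ν : Ω → ℝ} {ln : Ω → Pt} {x0 x1 γ Q : ℝ}

/-- the crossing property for a set of lines whose crossing pairs share small cells -/
theorem CrossP.small_bound (hν : IsProb ν) (hγ0 : 0 ≤ γ)
    (hcross : CrossP ν ln x0 x1 γ Q) (A : Pt → Prop)
    (hp : 0 < ms ν (fun ω => A (ln ω))) {α ζ : Type*} [Fintype α] [Nonempty α]
    (cel : α → ℤ → Pt → ζ) (K : Finset ℤ)
    (hnest : ∀ a, ∀ k ∈ K, ∀ k' ∈ K, k ≤ k' → ∀ u v, cel a k' u = cel a k' v →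
      cel a k u = cel a k v)
    (F : Pt → Prop) {η : ℝ} (hη : 0 < η) (hη1 : η ≤ 1 / 2)
    (hF : ∀ ω ω', 0 < ν ω → 0 < ν ω' → A (ln ω) → A (ln ω') → F (ln ω) →
      F (ln ω') → Cr x0 x1 (ln ω') (ln ω) →
      ∃ a, ∃ k ∈ K, cel a k (ln ω') = cel a k (ln ω) ∧
        ¬ η ≤ cm cel (cE ν (fun ω => A (ln ω))) ln a k ω)
    (hq0 : 0 < ms (cE ν (fun ω => A (ln ω))) (fun ω => F (ln ω)))
    (hQη : 8 ≤ Q * ms ν (fun ω => A (ln ω)) * η) :
    (1 - γ) * Real.log (1 / η) ≤ 2 * Real.log (1 / ms ν (fun ω => A (ln ω))) +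
      Real.log (4 * Fintype.card α) + 12 +
      4 * (- Real.log (ms (cE ν (fun ω => A (ln ω))) (fun ω => F (ln ω)))) := by
  classical
  set p := ms ν (fun ω => A (ln ω)) with hpd
  set ν' := cE ν (fun ω => A (ln ω)) with hν'
  have hν'p : IsProb ν' := cE_isProb hν hp
  have hms : ∀ Q : Ω → Prop, ms ν' Q = ms ν (fun ω => A (ln ω) ∧ Q ω) / p :=
    fun Q => ms_cE hν _ Q
  set q := ms ν' (fun ω => F (ln ω)) with hq
  have hq1 : q ≤ 1 := ms_le_one hν'p _
  have hlogq0 : 0 ≤ - Real.log q := by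
    have := Real.log_nonpos hq0.le hq1
    linarith
  have hp1 : p ≤ 1 := ms_le_one hν _
  have hlogp : 0 ≤ Real.log (1 / p) := by
    apply Real.log_nonneg
    rw [le_div_iff₀ hp]
    linarith
  have hn1 : (1 : ℝ) ≤ Fintype.card α := by
    have : 0 < Fintype.card α := Fintype.card_pos
    exact_mod_cast this
  set n : ℝ := ((Fintype.card α : ℕ) : ℝ) with hn
  have hn0 : 0 < n := by linarith
  have hlogη : 0 ≤ Real.log (1 / η) := by
    apply Real.log_nonneg
    rw [le_div_iff₀ hη]
    linarith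
  have hpq : ms ν (fun ω => A (ln ω) ∧ F (ln ω)) = p * q := by
    rw [hq, hms, mul_div_cancel₀ _ hp.ne']
  set R := q ^ 2 / (2 * n * η) with hR
  have hR0 : 0 < R := by positivity
  rcases lt_or_ge R 1 with hR1 | hR1
  · -- the selected mass is already small
    have h1 : q ^ 2 < 2 * n * η := by
      rw [hR, div_lt_one (by positivity)] at hR1
      exact hR1
    have h2 := Real.log_le_log (by positivity) h1.le
    rw [Real.log_pow, Real.log_mul (by positivity) hη.ne'] at h2
    have h3 : Real.log (2 * n) ≤ Real.log (4 * n) := by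
      apply Real.log_le_log (by positivity)
      linarith
    have h4 : Real.log (1 / η) = - Real.log η := by
      rw [one_div, Real.log_inv]
    have h5 : (1 - γ) * Real.log (1 / η) ≤ Real.log (1 / η) := by nlinarith
    push_cast at h2
    linarith
  · -- the crossing property for the selected lines
    have hcr : ∑ ω, ν ω * (ms ν (fun ω' => (A (ln ω') ∧ F (ln ω')) ∧
        Cr x0 x1 (ln ω') (ln ω) ∧ (A (ln ω) ∧ F (ln ω)))) ≤ p ^ 2 * (n * η) := by
      have h1 : ∀ ω, ν ω * (ms ν (fun ω' => (A (ln ω') ∧ F (ln ω')) ∧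
          Cr x0 x1 (ln ω') (ln ω) ∧ (A (ln ω) ∧ F (ln ω)))) ≤
          (if A (ln ω) then ν ω else 0) * (p * (n * η)) := by
        intro ω
        have h0 := hν.nonneg ω
        rcases h0.eq_or_lt with h0' | h0'
        · rw [← h0']
          simp
        by_cases hA : A (ln ω)
        · rw [if_pos hA]
          apply mul_le_mul_of_nonneg_left _ h0
          have h2 := small_cells hν'p ln cel K hη.le hnest ω
          rw [hms, div_le_iff₀ hp] at h2
          refine le_trans (ms_mono hν ?_) (h2.trans (le_of_eq (by rw [← hn]; ring)))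
          rintro ω' hω' ⟨⟨h3, h4⟩, h5, -, h6⟩
          exact ⟨h3, hF ω ω' h0' hω' hA h3 h6 h4 h5⟩
        · rw [if_neg hA, zero_mul]
          have : ms ν (fun ω' => (A (ln ω') ∧ F (ln ω')) ∧
              Cr x0 x1 (ln ω') (ln ω) ∧ (A (ln ω) ∧ F (ln ω))) ≤ 0 := by
            by_contra hcon
            obtain ⟨ω', -, h3⟩ := ms_pos_iff (not_le.1 hcon)
            exact hA h3.2.2.1
          nlinarith
      refine (sum_le_sum fun ω _ => h1 ω).trans (le_of_eq ?_)
      rw [← sum_mul]
      have h2 : (∑ ω, if A (ln ω) then ν ω else 0) = p := by rw [hpd, ms_eq]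
      rw [h2]
      ring
    have hp' : 0 < ms ν (fun ω => A (ln ω) ∧ F (ln ω)) := by
      rw [hpq]
      positivity
    have key := hcross (fun v => A v ∧ F v) hp' R hR1 (by
        show 16 * R ≤ Q * ms ν (fun ω => A (ln ω) ∧ F (ln ω))
        rw [hpq]
        have e1 : 16 * R = 8 * q * q / (n * η) := by
          rw [hR]
          field_simp
          ring
        rw [e1, div_le_iff₀ (by positivity)]
        have e2 : 8 * q * q ≤ 8 * q := by nlinarith
        have e3 : 8 * q ≤ Q * p * η * q := mul_le_mul_of_nonneg_right hQη hq0.le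
        have e4 : Q * p * η * q ≤ Q * p * η * q * n := by
          have : 0 ≤ Q * p * η * q := by
            have : 0 ≤ Q * p * η := by linarith
            positivity
          nlinarith
        calc 8 * q * q ≤ Q * p * η * q * n := by linarith
          _ = Q * (p * q) * (n * η) := by ring)
      (by
        refine hcr.trans (le_of_eq ?_)
        show _ = ms ν (fun ω => A (ln ω) ∧ F (ln ω)) ^ 2 / (2 * R)
        rw [hpq, hR]
        field_simp)
    have h1 : ms ν (fun ω => (fun v => A v ∧ F v) (ln ω)) = p * q := hpq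
    rw [h1] at key
    have h2 : Real.log (R / 2) = 2 * Real.log q + Real.log (1 / η) - Real.log (4 * n) := by
      have e1 : R / 2 = q ^ 2 * (1 / η) / (4 * n) := by
        rw [hR]
        field_simp
        ring
      rw [e1, Real.log_div (by positivity) (by positivity), Real.log_mul (by positivity)
        (by positivity), Real.log_pow]
      norm_num
    have h3 : Real.log (1 / (p * q)) = Real.log (1 / p) - Real.log q := by
      rw [one_div, Real.log_inv, Real.log_mul hp.ne' hq0.ne', one_div, Real.log_inv]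
      ring
    rw [h2, h3] at key
    have h4 : 0 ≤ Real.log (4 * n) := by
      apply Real.log_nonneg
      linarith
    nlinarith

/-- **the content lemma**, general form, from the crossing property -/
theorem CrossP.content_boundG (hν : IsProb ν) (hγ0 : 0 ≤ γ)
    (hcross : CrossP ν ln x0 x1 γ Q) (A : Pt → Prop)
    (hp : 0 < ms ν (fun ω => A (ln ω))) {α ζ : Type*} [Fintype α] [Nonempty α]
    (cel : α → ℤ → Pt → ζ) (near : α → ℤ → ζ → Pt → Pt → Prop)
    (hr : ∀ a k z v, near a k z v v) (K : Finset ℤ)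
    (hnest : ∀ a, ∀ k ∈ K, ∀ k' ∈ K, k ≤ k' → ∀ u v, cel a k' u = cel a k' v →
      cel a k u = cel a k v)
    (Gd : Pt → Prop)
    (hG : 0 < ms (cE ν (fun ω => A (ln ω))) (fun ω => Gd (ln ω)))
    (hsep : ∀ ω ω', 0 < ν ω → 0 < ν ω' → A (ln ω) → A (ln ω') → Gd (ln ω) →
      Gd (ln ω') → Cr x0 x1 (ln ω') (ln ω) →
      ∃ a, ∃ k ∈ K, cel a k (ln ω') = cel a k (ln ω) ∧
        ∀ c, ¬ (near a k (cel a k (ln ω)) (ln ω) c ∧
          near a k (cel a k (ln ω)) (ln ω') c))
    {η : ℝ} (hη : 0 < η) (hη1 : η ≤ 1 / 2)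
    (hQη : 8 ≤ Q * ms ν (fun ω => A (ln ω)) * η) :
    (1 - γ) * Real.log (1 / η) ≤ 2 * Real.log (1 / ms ν (fun ω => A (ln ω))) +
      Real.log (4 * Fintype.card α) + 12 +
      4 * (Real.log (1 / ms (cE ν (fun ω => A (ln ω))) (fun ω => Gd (ln ω))) +
        contentG cel near (cE ν (fun ω => A (ln ω))) ln Gd K η /
          ms (cE ν (fun ω => A (ln ω))) (fun ω => Gd (ln ω))) := by
  classical
  set ν' := cE ν (fun ω => A (ln ω)) with hν'
  have hν'p : IsProb ν' := cE_isProb hν hp
  obtain ⟨F, hF0, hF1, hF2⟩ := selectG cel near hν'p ln hr Gd hG K hη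
  set g0 := ms ν' (fun ω => Gd (ln ω)) with hg0
  set c := contentG cel near ν' ln Gd K η with hc
  set q := ms ν' (fun ω => F (ln ω)) with hq
  have hE : 0 < g0 * Real.exp (-(c / g0)) := mul_pos hG (Real.exp_pos _)
  have hq0 : 0 < q := hE.trans_le hF1
  have key := hcross.small_bound hν hγ0 A hp cel K hnest F hη hη1
    (by
      intro ω ω' hω hω' hA hA' hFω hFω' hcr
      obtain ⟨a, k, hk, h1, h2⟩ := hsep ω ω' hω hω' hA hA' (hF0 _ hFω) (hF0 _ hFω') hcr
      refine ⟨a, k, hk, h1, fun h3 => ?_⟩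
      obtain ⟨c', h4, h5⟩ := hF2 a k hk ω ω' hFω hFω' h1 h3
      exact h2 c' ⟨h4, h5⟩)
    hq0 hQη
  have h1 := Real.log_le_log hE hF1
  rw [Real.log_mul hG.ne' (Real.exp_pos _).ne', Real.log_exp] at h1
  have h2 : Real.log (1 / g0) = - Real.log g0 := by rw [one_div, Real.log_inv]
  rw [h2]
  linarith

end Vale.Agent.P065.H725
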