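import Vale.Agent.P065.H725.SplitPre
import Vale.Agent.P065.H725.SysI
import Vale.Agent.P065.H859.NGAsy

/-!
# P065: the plug of case (I) (helper725)
-/

set_option autoImplicit false

set_option linter.unusedSectionVars false

namespace Vale.Agent.P065.H725

open Finset Vale.Agent.P065.UB Vale.Agent.P065.UB.RankAux Vale.Agent.P065.H987
  Vale.Agent.P065.H859 Vale.Agent.P065.Ent Vale.Agent.P065.H154

/-- the growth constant of case (I) -/
noncomputable def LamI (c₁ e : ℝ) (C : ℕ) : ℕ :=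
  ⌈8 / c₁ + (e + |Real.log (32 / c₁)| + 2 * (C + 1))⌉₊

theorem thr_le {c₁ e : ℝ} (hc₁ : 0 < c₁) (C : ℕ) {g : ℕ} (hg : 1 ≤ g) :
    Real.exp (-(LamI c₁ e C * g)) ≤
      Real.exp (-(e * g)) * (c₁ / 32 * (1 / 2) ^ (2 * (C + 1) * g)) := by
  have hg1 : (1 : ℝ) ≤ g := by exact_mod_cast hg
  have e1 : c₁ / 32 = Real.exp (-Real.log (32 / c₁)) := by
    rw [Real.exp_neg, Real.exp_log (by positivity), inv_div]
  have e2 : (1 / 2 : ℝ) ^ (2 * (C + 1) * g) = Real.exp (-((2 * (C + 1) * g : ℕ) * Real.log 2)) := by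
    rw [Real.exp_neg, Real.exp_nat_mul, Real.exp_log (by norm_num), one_div, inv_pow]
  have h1 : 8 / c₁ + (e + |Real.log (32 / c₁)| + 2 * (C + 1)) ≤ LamI c₁ e C := Nat.le_ceil _
  have h2 : 0 < 8 / c₁ := by positivity
  have h3 : Real.log 2 ≤ 1 := by
    have := Real.log_two_lt_d9
    linarith
  have h4 : Real.log (32 / c₁) ≤ |Real.log (32 / c₁)| * g := by
    have h5 := le_abs_self (Real.log (32 / c₁))
    nlinarith [abs_nonneg (Real.log (32 / c₁))]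
  rw [e1, e2, ← Real.exp_add, ← Real.exp_add, Real.exp_le_exp]
  push_cast
  have h6 : (e + |Real.log (32 / c₁)| + 2 * (C + 1)) * g ≤ LamI c₁ e C * g := by
    apply mul_le_mul_of_nonneg_right _ (by positivity)
    linarith
  have h7 : 2 * ((C : ℝ) + 1) * g * Real.log 2 ≤ 2 * ((C : ℝ) + 1) * g * 1 := by
    apply mul_le_mul_of_nonneg_left h3 (by positivity)
  linarith

/-- **the plug of case (I)** -/
theorem plugI {B₀ C kt kN s₀ Γ : ℕ} {c₁ γ e : ℝ} (hB₀ : 1 ≤ B₀) (hC : (B₀ : ℝ) ≤ 2 ^ C)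
    (hc₁ : 0 < c₁) (hγ0 : 0 ≤ γ) (hγ : γ < 1) (he : 0 < e) :
    ∃ g₁ : ℕ, ∀ g : ℕ, g₁ ≤ g → ∀ {c₂ ρ ε₂ ε₃ b : ℝ} {K₁ n : ℕ}
      (L : Loc B₀ c₁ c₂ ρ γ ε₂ ε₃ b (Real.exp ((g : ℝ) ^ 2)) K₁ n g)
      (_ : c₁ / 8 ≤ PE L.ν (L.Zg (2 * (C + 1) * g) e)) (p : Prm) (_ : p.Γ = Γ)
      (_ : (L.fr (q := 2) le_rfl).P.T + s₀ = p.M)
      (_ : (p.nT / 64 : ℝ) < ∑ i : Fin p.nT, ms (L.mu (2 * (C + 1) * g) e)
        (fun ω => ∃ κ : p.Kap,
          Big (L.fr (q := 2) le_rfl) L.ln p L.lam (L.mu (2 * (C + 1) * g) e)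
            (c₁ / 32 * (1 / 2) ^ (2 * (C + 1) * g)) (Real.exp (-(e * g))) (κ, i) ω ∧
          Gnt (L.fr (q := 2) le_rfl) L.ln p L.lam (L.mu (2 * (C + 1) * g) e) 3
            ((1 / (g : ℝ)) ^ kt) (κ, i) ω)),
      Nonempty (SysI B₀ Γ s₀ 3 (LamI c₁ e C) kt kN c₂ n g) := by
  obtain ⟨g₀, hg₀, hng⟩ := Loc.ng_sys hγ0 hγ hc₁ C kN
  refine ⟨g₀, fun g hg c₂ ρ ε₂ ε₃ b K₁ n L hZ p hp1 hp2 hI => ?_⟩
  have hZ0 : 0 < PE L.ν (L.Zg (2 * (C + 1) * g) e) := lt_of_lt_of_le (by positivity) hZ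
  have hμ := Loc.mu_prob (L := L) hZ0
  have hne : Nonempty L.Ω := by
    by_contra hc
    rw [not_nonempty_iff] at hc
    have h1 := hμ.sum
    rw [Fintype.sum_empty] at h1
    exact zero_ne_one h1
  have hΛ : 8 / c₁ ≤ LamI c₁ e C := by
    have h1 : 8 / c₁ + (e + |Real.log (32 / c₁)| + 2 * (C + 1)) ≤ LamI c₁ e C := Nat.le_ceil _
    have h2 : 0 ≤ e + |Real.log (32 / c₁)| + 2 * (C + 1) := by positivity
    linarith
  exact ⟨{
    Ω := L.Ω
    fin := L.fin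
    ne := hne
    F := L.fr (q := 2) le_rfl
    ln := L.ln
    p := p
    Lab := L.Lab
    lam := L.lam
    μ := L.mu (2 * (C + 1) * g) e
    ν := L.ν
    hμ := hμ
    hν := L.prob
    ν_pos := L.pos
    μ_le := fun ω => by
      refine (Loc.mu_le ω).trans ?_
      rw [div_le_iff₀ hZ0]
      have h1 : 1 ≤ (LamI c₁ e C : ℝ) * PE L.ν (L.Zg (2 * (C + 1) * g) e) := by
        have h2 : 8 / c₁ * (c₁ / 8) = 1 := by
          field_simp
        rw [← h2]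
        exact mul_le_mul hΛ hZ (by positivity) (by positivity)
      have h3 := (L.pos ω).le
      nlinarith
    n_eq := rfl
    leaves := by
      rw [L.fr_n, L.fr_W]
      exact L.card_leaves hB₀
    Γ_le := hp1.ge
    M_ge := hp2.le
    θ := c₁ / 32 * (1 / 2) ^ (2 * (C + 1) * g)
    η := Real.exp (-(e * g))
    θ_pos := by positivity
    η_pos := Real.exp_pos _
    thr := thr_le hc₁ C (hg₀.trans hg)
    gi := hI
    sur := fun ω hω => L.mu_sur le_rfl hω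
    ng := fun u T => hng g hg L le_rfl hB₀ hC hZ u T }⟩

end Vale.Agent.P065.H725
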