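import Vale.Agent.P065.H725.Dyad
import Vale.Agent.P065.H725.Bridge
import Vale.Agent.P065.H725.ContentG

/-!
# P065: the content lemma with poles (helper725), following helper344

In every cell one may choose an option: compare the slopes, or compare the heights at a pole `t`
outside the window.
-/

set_option autoImplicit false

namespace Vale.Agent.P065.H725

open Finset Vale.Agent.P065.UB Vale.Agent.P065.UB.RankAux Vale.Agent.P065.H987
  Vale.Agent.P065.H859 Vale.Agent.P065.Ent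

/-- the distance of the pole `t` to the window `[x0, x1]` -/
noncomputable def pd (x0 x1 t : ℝ) : ℝ := max (x0 - t) (max (t - x1) 0)

theorem pd_nonneg (x0 x1 t : ℝ) : 0 ≤ pd x0 x1 t :=
  (le_max_right _ _).trans (le_max_right _ _)

theorem pd_pos {x0 x1 t : ℝ} (h : t < x0 ∨ x1 < t) : 0 < pd x0 x1 t := by
  unfold pd
  rcases h with h | h
  · exact lt_max_of_lt_left (by linarith)
  · exact lt_max_of_lt_right (lt_max_of_lt_left (by linarith))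

theorem Cr.mul_nonpos {x0 x1 : ℝ} {u v : Pt} (h : Cr x0 x1 u v) :
    (ht x0 u - ht x0 v) * (ht x1 u - ht x1 v) ≤ 0 := by
  unfold Cr at h
  by_contra hc
  push Not at hc
  apply h
  rcases pos_and_pos_or_neg_and_neg_of_mul_pos hc with ⟨h2, h3⟩ | ⟨h2, h3⟩
  · exact ⟨⟨fun h4 => by linarith, fun h4 => by linarith⟩,
      ⟨fun _ => by linarith, fun _ => by linarith⟩⟩
  · exact ⟨⟨fun _ => by linarith, fun _ => by linarith⟩,
      ⟨fun h4 => by linarith, fun h4 => by linarith⟩⟩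

/-- lines which change their order in the window are far apart at a pole -/
theorem Cr.far_pole {x0 x1 t : ℝ} (hx : x0 < x1) {u v : Pt} (h : Cr x0 x1 u v) :
    |u.1 - v.1| * pd x0 x1 t ≤ |ht t u - ht t v| := by
  have hs := h.mul_nonpos
  set d := u.1 - v.1 with hd
  have e1 : ht x1 u - ht x1 v = (ht x0 u - ht x0 v) - (x1 - x0) * d := by
    rw [hd]; unfold ht; ring
  have e2 : ht t u - ht t v = (ht x0 u - ht x0 v) + (x0 - t) * d := by
    rw [hd]; unfold ht; ring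
  have e3 : ht t u - ht t v = (ht x1 u - ht x1 v) - (t - x1) * d := by
    rw [hd]; unfold ht; ring
  have hx' : 0 < x1 - x0 := by linarith
  have f1 : 0 ≤ (ht x0 u - ht x0 v) * d := by
    rw [e1] at hs
    by_contra hc
    push Not at hc
    nlinarith [mul_pos_of_neg_of_neg hc (by linarith : -(x1 - x0) < 0),
      sq_nonneg (ht x0 u - ht x0 v)]
  have f2 : (ht x1 u - ht x1 v) * d ≤ 0 := by
    have e4 : ht x0 u - ht x0 v = (ht x1 u - ht x1 v) + (x1 - x0) * d := by linarith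
    rw [e4] at hs
    by_contra hc
    push Not at hc
    nlinarith [mul_pos hc hx', sq_nonneg (ht x1 u - ht x1 v)]
  have key : ∀ s : ℝ, 0 ≤ s → (s * d) ^ 2 ≤ (ht t u - ht t v) ^ 2 →
      |d| * s ≤ |ht t u - ht t v| := by
    intro s hs0 h1
    rw [sq_le_sq, abs_mul, abs_of_nonneg hs0] at h1
    linarith
  have hpd : pd x0 x1 t = 0 ∨ pd x0 x1 t = x0 - t ∧ 0 ≤ x0 - t ∨
      pd x0 x1 t = t - x1 ∧ 0 ≤ t - x1 := by
    unfold pd
    rcases le_total (x0 - t) (max (t - x1) 0) with h1 | h1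
    · rw [max_eq_right h1]
      rcases le_total (t - x1) 0 with h2 | h2
      · rw [max_eq_right h2]
        exact Or.inl rfl
      · rw [max_eq_left h2]
        exact Or.inr (Or.inr ⟨rfl, h2⟩)
    · rw [max_eq_left h1]
      exact Or.inr (Or.inl ⟨rfl, (le_max_right _ _).trans h1⟩)
  rcases hpd with h1 | ⟨h1, h2⟩ | ⟨h1, h2⟩
  · rw [h1, mul_zero]
    exact abs_nonneg _
  · rw [h1]
    apply key _ h2
    rw [e2]
    nlinarith [mul_nonneg h2 f1, sq_nonneg (ht x0 u - ht x0 v)]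
  · rw [h1]
    apply key _ h2
    rw [e3]
    nlinarith [mul_nonneg h2 (neg_nonneg.2 f2), sq_nonneg (ht x1 u - ht x1 v)]

section near

variable {α ζ : Type*}

/-- near the centre with respect to the chosen option -/
def nearO (x0 x1 : ℝ) (r : ℤ → ℝ) (o : α → ℤ → ζ → Option ℝ) (a : α) (k : ℤ) (z : ζ)
    (v c : Pt) : Prop :=
  (o a k z = none → |v.1 - c.1| ≤ r k) ∧
    ∀ t, o a k z = some t → |ht t v - ht t c| ≤ r k * pd x0 x1 t

theorem nearO_refl {x0 x1 : ℝ} {r : ℤ → ℝ} (hr : ∀ k, 0 ≤ r k) (o : α → ℤ → ζ → Option ℝ)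
    (a : α) (k : ℤ) (z : ζ) (v : Pt) : nearO x0 x1 r o a k z v v := by
  refine ⟨fun _ => ?_, fun t _ => ?_⟩
  · simpa using hr k
  · simpa using mul_nonneg (hr k) (pd_nonneg x0 x1 t)

/-- two lines which change their order are not both near one centre -/
theorem nearO_sep {x0 x1 : ℝ} (hx : x0 < x1) {r : ℤ → ℝ} {o : α → ℤ → ζ → Option ℝ}
    (ho : ∀ a k z t, o a k z = some t → t < x0 ∨ x1 < t) {a : α} {k : ℤ} {z : ζ} {u v : Pt}
    (h : Cr x0 x1 u v) (hk : 2 * r k < |u.1 - v.1|) (c : Pt) :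
    ¬ (nearO x0 x1 r o a k z v c ∧ nearO x0 x1 r o a k z u c) := by
  rintro ⟨h1, h2⟩
  rcases hoa : o a k z with _ | t
  · have h3 := h1.1 hoa
    have h4 := h2.1 hoa
    have h5 := abs_sub_le u.1 c.1 v.1
    rw [abs_sub_comm c.1 v.1] at h5
    linarith
  · have h3 := h1.2 t hoa
    have h4 := h2.2 t hoa
    have h5 := abs_sub_le (ht t u) (ht t c) (ht t v)
    rw [abs_sub_comm (ht t c) (ht t v)] at h5
    have h6 := h.far_pole (t := t) hx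
    have h7 := pd_pos (ho a k z t hoa)
    nlinarith [mul_lt_mul_of_pos_right hk h7]

end near

variable {p w : ℕ}

/-- **the content lemma for a greedy class**, general form: arbitrary nested cells, arbitrary
relation `near`, arbitrary set `Gd` -/
theorem content_clsG {U : UFlags p w} {ι ζ : Type*} {Wn : Fin p × Fin w → ι} {γ δ : ℝ}
    {L : Fin p × Fin w → ζ} (hγ0 : 0 ≤ γ) (hγ1 : γ ≤ 1) (hδ : δ ≤ 1)
    (hX : Det (Prod.fst : Fin p × Fin w → Fin p) Wn)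
    (h : Opt U Wn γ δ L) (ω₀ : Fin p × Fin w) {Q : ℝ} (hQ : 0 < Q)
    (hfl : Q * U.sz (fun ω => (Wn ω, L ω)) ω₀ ≤
      p * w * Pr U.μ (fun ω => (Wn ω, L ω)) (Wn ω₀, L ω₀))
    (hat : ∀ ω', (Wn ω', L ω') = (Wn ω₀, L ω₀) →
      Q * Pr U.μ (fun ω => ((Wn ω, L ω), U.ln ω)) ((Wn ω₀, L ω₀), U.ln ω') ≤
      Pr U.μ (fun ω => (Wn ω, L ω)) (Wn ω₀, L ω₀))
    {x0 x1 : ℝ} (hx : ∀ ω, (Wn ω, L ω) = (Wn ω₀, L ω₀) → x0 < U.tm ω ∧ U.tm ω < x1)
    (A : Pt → Prop)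
    (hp : 0 < ms (cnd U.μ (fun ω => (Wn ω, L ω)) (Wn ω₀, L ω₀)) (fun ω => A (U.ln ω)))
    {α κ : Type*} [Fintype α] [Nonempty α]
    (cel : α → ℤ → Pt → κ) (near : α → ℤ → κ → Pt → Pt → Prop)
    (hr : ∀ a k z v, near a k z v v) (K : Finset ℤ)
    (hnest : ∀ a, ∀ k ∈ K, ∀ k' ∈ K, k ≤ k' → ∀ u v, cel a k' u = cel a k' v →
      cel a k u = cel a k v)
    (Gd : Pt → Prop)
    (hG : 0 < ms (cE (cnd U.μ (fun ω => (Wn ω, L ω)) (Wn ω₀, L ω₀)) (fun ω => A (U.ln ω)))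
      (fun ω => Gd (U.ln ω)))
    (hsep : ∀ ω ω', (Wn ω, L ω) = (Wn ω₀, L ω₀) → (Wn ω', L ω') = (Wn ω₀, L ω₀) →
      A (U.ln ω) → A (U.ln ω') → Gd (U.ln ω) → Gd (U.ln ω') → (U.ln ω').1 ≠ (U.ln ω).1 →
      Cr x0 x1 (U.ln ω') (U.ln ω) → ∃ a, ∃ k ∈ K, cel a k (U.ln ω') = cel a k (U.ln ω) ∧
        ∀ c, ¬ (near a k (cel a k (U.ln ω)) (U.ln ω) c ∧
          near a k (cel a k (U.ln ω)) (U.ln ω') c))
    {η : ℝ} (hη : 0 < η) (hη1 : η ≤ 1 / 2)
    (hQη : 16 * Real.log (1 / η) ≤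
      Q * ms (cnd U.μ (fun ω => (Wn ω, L ω)) (Wn ω₀, L ω₀)) (fun ω => A (U.ln ω)) * η) :
    (1 - γ) * Real.log (1 / η) ≤ 2 * Real.log (1 /
        ms (cnd U.μ (fun ω => (Wn ω, L ω)) (Wn ω₀, L ω₀)) (fun ω => A (U.ln ω))) +
      Real.log (4 * Fintype.card α) + 12 +
      4 * (Real.log (1 / ms (cE (cnd U.μ (fun ω => (Wn ω, L ω)) (Wn ω₀, L ω₀))
          (fun ω => A (U.ln ω))) (fun ω => Gd (U.ln ω))) +
        contentG cel near (cE (cnd U.μ (fun ω => (Wn ω, L ω)) (Wn ω₀, L ω₀))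
          (fun ω => A (U.ln ω))) U.ln Gd K η /
        ms (cE (cnd U.μ (fun ω => (Wn ω, L ω)) (Wn ω₀, L ω₀))
          (fun ω => A (U.ln ω))) (fun ω => Gd (U.ln ω))) := by
  classical
  set D := clsDat U (fun ω => (Wn ω, L ω)) ω₀ with hD
  obtain ⟨P, k, hP, hPE⟩ := U.real
  obtain ⟨hp0, hw0⟩ := U.pos
  have hp' : (0 : ℝ) < p := by exact_mod_cast hp0
  have hw' : (0 : ℝ) < w := by exact_mod_cast hw0
  have hPr := Pr_pos U.prob (fun ω => (Wn ω, L ω)) (mu_pos U ω₀)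
  set P0 := ms (cnd U.μ (fun ω => (Wn ω, L ω)) (Wn ω₀, L ω₀)) (fun ω => A (U.ln ω)) with hP0
  have hlog : 1 / 2 ≤ Real.log (1 / η) := by
    have h2 : (2 : ℝ) ≤ 1 / η := by
      rw [le_div_iff₀ hη]
      linarith
    have h3 := Real.log_le_log (by norm_num) h2
    have h4 := Real.log_two_gt_d9
    linarith
  have hQ1 : 8 ≤ Q * P0 * η := by linarith
  have hsz : U.sz (fun ω => (Wn ω, L ω)) ω₀ = ((ne D.E : ℕ) : ℝ) := rfl
  have key := D.content_boundG hγ0 hγ1 hδ (clsDat_opt hX h ω₀) (x0 := x0) (x1 := x1)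
    (by
      intro e he
      obtain ⟨ω, h1, rfl⟩ := U.mem_cls.1 he
      exact hx ω h1)
    A hp cel near hr K hnest Gd hG
    (by
      intro ω ω' hω hω' hA hA' hg hg' hc
      refine hsep ω ω' (cnd_pos (Y := fun ω => (Wn ω, L ω)) hω)
        (cnd_pos (Y := fun ω => (Wn ω, L ω)) hω') hA hA' hg hg' (fun h2 => hc.ne ?_) hc
      exact hP.xinj _ (hPE ω').mem _ (hPE ω).mem h2)
    hη hη1 (κ := 1 / (p * w * Pr U.μ (fun ω => (Wn ω, L ω)) (Wn ω₀, L ω₀)))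
    (by
      intro v
      have h1 := clsDat_line U (fun ω => (Wn ω, L ω)) ω₀ hQ hat v
      refine h1.trans ?_
      show 1 / Q ≤ P0 * η / 2
      rw [div_le_div_iff₀ hQ (by norm_num)]
      nlinarith)
    (fun a v => clsDat_flag U (fun ω => (Wn ω, L ω)) ω₀ a v)
    (by
      show _ ≤ P0 * η
      rw [← hsz]
      have h1 : U.sz (fun ω => (Wn ω, L ω)) ω₀ *
          (1 / (p * w * Pr U.μ (fun ω => (Wn ω, L ω)) (Wn ω₀, L ω₀))) ≤ 1 / Q := by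
        rw [mul_one_div, div_le_div_iff₀ (by positivity) hQ]
        linarith
      have h2 : 0 ≤ 16 * Real.log (1 / η) := by linarith
      calc 16 * U.sz (fun ω => (Wn ω, L ω)) ω₀ *
            (1 / (p * w * Pr U.μ (fun ω => (Wn ω, L ω)) (Wn ω₀, L ω₀))) * Real.log (1 / η)
          = 16 * Real.log (1 / η) * (U.sz (fun ω => (Wn ω, L ω)) ω₀ *
            (1 / (p * w * Pr U.μ (fun ω => (Wn ω, L ω)) (Wn ω₀, L ω₀)))) := by ring
        _ ≤ 16 * Real.log (1 / η) * (1 / Q) := mul_le_mul_of_nonneg_left h1 h2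
        _ ≤ Q * P0 * η * (1 / Q) := mul_le_mul_of_nonneg_right hQη (by positivity)
        _ = P0 * η := by field_simp)
  exact key

/-- **the content lemma with squares and poles for a greedy class** -/
theorem content_cls_poles {U : UFlags p w} {ι ζ : Type*} {Wn : Fin p × Fin w → ι} {γ δ : ℝ}
    {L : Fin p × Fin w → ζ} (hγ0 : 0 ≤ γ) (hγ1 : γ ≤ 1) (hδ : δ ≤ 1)
    (hX : Det (Prod.fst : Fin p × Fin w → Fin p) Wn)
    (h : Opt U Wn γ δ L) (ω₀ : Fin p × Fin w) {Q : ℝ} (hQ : 0 < Q)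
    (hfl : Q * U.sz (fun ω => (Wn ω, L ω)) ω₀ ≤
      p * w * Pr U.μ (fun ω => (Wn ω, L ω)) (Wn ω₀, L ω₀))
    (hat : ∀ ω', (Wn ω', L ω') = (Wn ω₀, L ω₀) →
      Q * Pr U.μ (fun ω => ((Wn ω, L ω), U.ln ω)) ((Wn ω₀, L ω₀), U.ln ω') ≤
      Pr U.μ (fun ω => (Wn ω, L ω)) (Wn ω₀, L ω₀))
    {x0 x1 : ℝ} (hx : ∀ ω, (Wn ω, L ω) = (Wn ω₀, L ω₀) → x0 < U.tm ω ∧ U.tm ω < x1)
    (A : Pt → Prop)
    (hp : 0 < ms (cnd U.μ (fun ω => (Wn ω, L ω)) (Wn ω₀, L ω₀)) (fun ω => A (U.ln ω)))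
    {xr τ : ℝ} (hτ : 0 < τ) (h0 : |xr - x0| ≤ τ) (h1 : |xr - x1| ≤ τ)
    (θs θh : ℝ) (k₀ k₁ : ℤ)
    (htop : ∀ ω ω', (Wn ω, L ω) = (Wn ω₀, L ω₀) → (Wn ω', L ω') = (Wn ω₀, L ω₀) →
      |(U.ln ω').1 - (U.ln ω).1| ≤ 2 ^ (-k₀) / 3)
    (hbot : ∀ ω ω', (Wn ω, L ω) = (Wn ω₀, L ω₀) → (Wn ω', L ω') = (Wn ω₀, L ω₀) →
      (U.ln ω').1 ≠ (U.ln ω).1 → (2 : ℝ) ^ (-k₁) / 6 < |(U.ln ω').1 - (U.ln ω).1|)
    (o : Bool × Bool → ℤ → ℤ × ℤ → Option ℝ)
    (ho : ∀ a k z t, o a k z = some t → t < x0 ∨ x1 < t)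
    (Gd : Pt → Prop)
    (hG : 0 < ms (cE (cnd U.μ (fun ω => (Wn ω, L ω)) (Wn ω₀, L ω₀)) (fun ω => A (U.ln ω)))
      (fun ω => Gd (U.ln ω)))
    {η : ℝ} (hη : 0 < η) (hη1 : η ≤ 1 / 2)
    (hQη : 16 * Real.log (1 / η) ≤
      Q * ms (cnd U.μ (fun ω => (Wn ω, L ω)) (Wn ω₀, L ω₀)) (fun ω => A (U.ln ω)) * η) :
    (1 - γ) * Real.log (1 / η) ≤ 2 * Real.log (1 /
        ms (cnd U.μ (fun ω => (Wn ω, L ω)) (Wn ω₀, L ω₀)) (fun ω => A (U.ln ω))) + 15 +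
      4 * (Real.log (1 / ms (cE (cnd U.μ (fun ω => (Wn ω, L ω)) (Wn ω₀, L ω₀))
          (fun ω => A (U.ln ω))) (fun ω => Gd (U.ln ω))) +
        contentG (sq4 θs θh k₀ xr τ) (nearO x0 x1 (fun k => 2 ^ (-k) / 12) o)
          (cE (cnd U.μ (fun ω => (Wn ω, L ω)) (Wn ω₀, L ω₀))
          (fun ω => A (U.ln ω))) U.ln Gd (Finset.Icc k₀ k₁) η /
        ms (cE (cnd U.μ (fun ω => (Wn ω, L ω)) (Wn ω₀, L ω₀))
          (fun ω => A (U.ln ω))) (fun ω => Gd (U.ln ω))) := by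
  have hx01 : x0 < x1 := (hx ω₀ rfl).1.trans (hx ω₀ rfl).2
  have key := content_clsG hγ0 hγ1 hδ hX h ω₀ hQ hfl hat hx A hp (sq4 θs θh k₀ xr τ)
    (nearO x0 x1 (fun k => 2 ^ (-k) / 12) o)
    (fun a k z v => nearO_refl (fun k => by positivity) o a k z v) (Finset.Icc k₀ k₁)
    (fun a k _ k' _ hkk u v huv => sq4_nest θs θh k₀ xr τ a hkk huv) Gd hG
    (by
      intro ω ω' hω hω' _ _ _ _ hne hcr
      obtain ⟨a, k, hk, h2, h3, h4⟩ := sq4_sep θs θh k₀ hτ h0 h1 hcr hne (htop ω ω' hω hω')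
      refine ⟨a, k, Finset.mem_Icc.2 ⟨hk, ?_⟩, h2, fun c => nearO_sep hx01 ho hcr ?_ c⟩
      · by_contra hc
        push Not at hc
        have h5 := hbot ω ω' hω hω' hne
        have h6 : (2 : ℝ) ^ (-k) / 3 ≤ 2 ^ (-k₁) / 6 := by
          have h7 : (2 : ℝ) ^ (-k) ≤ 2 ^ (-k₁ - 1) := zpow_le_zpow_right₀ (by norm_num) (by omega)
          rw [zpow_sub₀ (by norm_num), zpow_one] at h7
          linarith
        linarith
      · show 2 * (2 ^ (-k) / 12) < _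
        linarith)
    hη hη1 hQη
  have h2 : Real.log (4 * Fintype.card (Bool × Bool)) ≤ 3 := by
    have e : (4 * (Fintype.card (Bool × Bool) : ℝ)) = 16 := by
      simp
      norm_num
    rw [e, Real.log_le_iff_le_exp (by norm_num)]
    have h3 := Real.exp_one_gt_d9
    have h4 : Real.exp 3 = Real.exp 1 ^ 3 := by
      rw [← Real.exp_nat_mul]; norm_num
    rw [h4]
    calc (16 : ℝ) ≤ 2.7 ^ 3 := by norm_num
      _ ≤ Real.exp 1 ^ 3 := pow_le_pow_left₀ (by norm_num) (by linarith) 3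
  linarith

end Vale.Agent.P065.H725
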