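import Vale.Agent.P065.H725.PlugI
import Vale.Agent.P065.H859.Top
import Vale.Agent.P065.H860.SplitII

/-!
# P065: the splitting of a window into the two cases (helper725)
-/

set_option autoImplicit false

namespace Vale.Agent.P065.H725

open Finset Vale.Agent.P065.UB Vale.Agent.P065.Ent Vale.Agent.P065.H154 Vale.Agent.P065.H859

theorem Gnt_mono {Ω : Type*} {F : Fr Ω} {ln : Ω → Pt} {p : Prm} {Lab : Type*} {lam : Ω → Lab}
    [Fintype Ω] {μ : Ω → ℝ} (hμ : IsProb μ) {q : ℕ} {τ τ' : ℝ} (h : τ ≤ τ') {c : p.Col} {ω : Ω}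
    (hG : Gnt F ln p lam μ q τ c ω) : Gnt F ln p lam μ q τ' c ω :=
  lt_of_lt_of_le hG (mul_le_mul_of_nonneg_right h (Pr_nonneg hμ _ _))

/-- a smaller exponent of the giants -/
def SysI.mono {B₀ Γ s₀ q Λ kt kt' kN : ℕ} {c₂ : ℝ} {n g : ℕ} (h : kt ≤ kt') (hg : 1 ≤ g)
    (S : SysI B₀ Γ s₀ q Λ kt' kN c₂ n g) : SysI B₀ Γ s₀ q Λ kt kN c₂ n g where
  Ω := S.Ω
  fin := S.fin
  ne := S.ne
  F := S.F
  ln := S.ln
  p := S.p
  Lab := S.Lab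
  lam := S.lam
  μ := S.μ
  ν := S.ν
  hμ := S.hμ
  hν := S.hν
  ν_pos := S.ν_pos
  μ_le := S.μ_le
  n_eq := S.n_eq
  leaves := S.leaves
  Γ_le := S.Γ_le
  M_ge := S.M_ge
  θ := S.θ
  η := S.η
  θ_pos := S.θ_pos
  η_pos := S.η_pos
  thr := S.thr
  gi := by
    refine lt_of_lt_of_le S.gi (sum_le_sum fun i _ => ms_mono S.hμ fun ω _ => ?_)
    rintro ⟨κ, h1, h2⟩
    refine ⟨κ, h1, Gnt_mono S.hμ ?_ h2⟩
    have hg1 : (1 : ℝ) ≤ g := by exact_mod_cast hg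
    apply pow_le_pow_of_le_one (by positivity) _ h
    rw [div_le_one (by linarith)]
    exact hg1
  sur := S.sur
  ng := S.ng

/-- **the splitting** -/
theorem hsplit : H859.HSplit := by
  intro B₀ c₁ c₂ ρ γ hB hc₁ hc₂ _ _ hγ hγ1
  refine ⟨12, 0, 0, fun ε₂ K₁ _ _ PP hPP Γ _ s₀ _ => ?_⟩
  have he : 0 < c₂ / 40 := by positivity
  have hC : (B₀ : ℝ) ≤ 2 ^ B₀ := by exact_mod_cast (Nat.lt_two_pow_self (n := B₀)).le
  refine ⟨LamI c₁ (c₂ / 40) B₀, fun kt => ?_⟩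
  obtain ⟨Λ, hΛ⟩ := H860.split_II (kt := max kt 1) hB hC hc₁ hγ hγ1 he (le_max_right _ _) hPP
  refine ⟨Λ, fun kN => ?_⟩
  obtain ⟨g₁, hg₁, h1⟩ := hΛ kN
  obtain ⟨g₂, h2⟩ := plugI (C := B₀) (kt := max kt 1) (kN := kN) (s₀ := s₀) (Γ := Γ)
    (by omega : 1 ≤ B₀) hC hc₁ hγ hγ1 he
  have hw : 0 < 2 + 1 / (c₂ / 40) := by positivity
  refine ⟨c₁ / 32 / (2 + 1 / (c₂ / 40)), by positivity, c₁ / 32, by positivity, max g₁ g₂,
    fun g hg L => ?_⟩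
  have hg' : g₁ ≤ g := (le_max_left _ _).trans hg
  obtain ⟨hZ, -, p, -, hp2, hp3, h⟩ := h1 g hg' Γ s₀ le_rfl (div_mul_cancel₀ _ hw.ne').le L
  rcases h with h | h
  · obtain ⟨S⟩ := h2 g ((le_max_right _ _).trans hg) L hZ p hp2 hp3 h
    exact Or.inl ⟨SysI.mono (le_max_left _ _) (by omega) S⟩
  · exact Or.inr h

end Vale.Agent.P065.H725
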