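import Vale.Agent.P065.H725.ColSel

/-!
# P065: the choice of the numbers in `colsel` (helper725)
-/

set_option autoImplicit false

set_option linter.unusedSectionVars false

namespace Vale.Agent.P065.H725

open Finset Vale.Agent.P065.UB Vale.Agent.P065.UB.RankAux Vale.Agent.P065.H987
  Vale.Agent.P065.H859 Vale.Agent.P065.Ent Vale.Agent.P065.H154

/-! ## numbers -/

/-- the inequalities between the numbers which hold for large `g` -/
theorem split_num {c₁ γ e : ℝ} (hc₁ : 0 < c₁) (hγ : γ < 1) (he : 0 < e) (kt : ℕ) (hkt : 1 ≤ kt) :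
    ∃ g₀ : ℕ, 2 ≤ g₀ ∧ ∀ g : ℕ, g₀ ≤ g →
      (1 / 2 : ℝ) ^ g ≤ c₁ / 32 ∧ Real.exp (-(e * g)) ≤ 1 / 2 ∧ (1 / (g : ℝ)) ^ kt ≤ 1 / 2 ∧
      16 * (e * g) ≤ Real.exp ((g : ℝ) ^ 2) * (c₁ / 32) * Real.exp (-(e * g)) ∧
      (1 - γ) * e * g / 16 ≤ ((1 - γ) * (e * g) - 2 * Real.log (1 / (c₁ / 32)) - 15) / 8 - 1 -
        8 * ((6 + 3 : ℕ) * (e * g / (kt * Real.log g) + 1)) := by
  have hg : 0 < 1 - γ := by linarith
  have t1 : Filter.Tendsto (fun g : ℕ => (g : ℝ)) Filter.atTop Filter.atTop :=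
    tendsto_natCast_atTop_atTop
  have t2 : Filter.Tendsto (fun g : ℕ => Real.log (g : ℝ)) Filter.atTop Filter.atTop :=
    Real.tendsto_log_atTop.comp t1
  have t3 : Filter.Tendsto (fun g : ℕ => (1 / 2 : ℝ) ^ g) Filter.atTop (nhds 0) :=
    tendsto_pow_atTop_nhds_zero_of_lt_one (by norm_num) (by norm_num)
  set K₁ : ℝ := 2 * Real.log (1 / (c₁ / 32)) + 15 with hK₁
  have h1 := (t1.eventually_ge_atTop 2).and ((t1.eventually_ge_atTop (Real.log 2 / e)).and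
    ((t1.eventually_ge_atTop (e + 1)).and ((t1.eventually_ge_atTop (1024 * e / c₁)).and
    ((t1.eventually_ge_atTop (32 * (K₁ / 8 + 73) / ((1 - γ) * e))).and
    ((t2.eventually_ge_atTop (2304 / (1 - γ))).and
      (t3.eventually_le_const (u := c₁ / 32) (by positivity)))))))
  obtain ⟨g₀, h⟩ := Filter.eventually_atTop.1 h1
  refine ⟨max g₀ 2, le_max_right _ _, fun g hgg => ?_⟩
  obtain ⟨a1, a2, a3, a4, a5, a6, a7⟩ := h g ((le_max_left _ _).trans hgg)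
  have hg0 : (0 : ℝ) < g := by linarith
  refine ⟨a7, ?_, ?_, ?_, ?_⟩
  · rw [div_le_iff₀ he] at a2
    have e1 : (1 / 2 : ℝ) = Real.exp (-Real.log 2) := by
      rw [Real.exp_neg, Real.exp_log (by norm_num)]
      norm_num
    rw [e1, Real.exp_le_exp]
    linarith
  · have h2 : 1 / (g : ℝ) ≤ 1 / 2 := one_div_le_one_div_of_le (by norm_num) a1
    calc (1 / (g : ℝ)) ^ kt ≤ (1 / (g : ℝ)) ^ 1 := by
          apply pow_le_pow_of_le_one (by positivity) (by linarith) hkt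
      _ ≤ 1 / 2 := by rwa [pow_one]
  · have h2 : (g : ℝ) ≤ (g : ℝ) ^ 2 - e * g := by nlinarith
    have h3 : Real.exp (g : ℝ) ≤ Real.exp ((g : ℝ) ^ 2) * Real.exp (-(e * g)) := by
      rw [← Real.exp_add, Real.exp_le_exp]
      linarith
    have h4 : (g : ℝ) ^ 2 / 2 ≤ Real.exp (g : ℝ) := by
      have := Real.quadratic_le_exp_of_nonneg hg0.le
      linarith
    rw [div_le_iff₀ hc₁] at a4
    have h5 : 16 * (e * g) ≤ c₁ / 32 * ((g : ℝ) ^ 2 / 2) := by nlinarith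
    calc 16 * (e * g) ≤ c₁ / 32 * ((g : ℝ) ^ 2 / 2) := h5
      _ ≤ c₁ / 32 * (Real.exp ((g : ℝ) ^ 2) * Real.exp (-(e * g))) :=
          mul_le_mul_of_nonneg_left (h4.trans h3) (by positivity)
      _ = _ := by ring
  · have hl : 0 < Real.log (g : ℝ) := lt_of_lt_of_le (by positivity) a6
    have hk : (1 : ℝ) ≤ kt := by exact_mod_cast hkt
    have h2 : 72 * (e * g / (kt * Real.log g)) ≤ (1 - γ) * e * g / 32 := by
      have h3 : e * g / (kt * Real.log g) ≤ e * g / Real.log g := by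
        apply div_le_div_of_nonneg_left (by positivity) hl
        nlinarith
      have h4 : e * g / Real.log g ≤ e * g / (2304 / (1 - γ)) :=
        div_le_div_of_nonneg_left (by positivity) (by positivity) a6
      have h5 : e * g / (2304 / (1 - γ)) = (1 - γ) * e * g / 2304 := by
        field_simp
      rw [h5] at h4
      linarith
    have h3 : K₁ / 8 + 73 ≤ (1 - γ) * e * g / 32 := by
      rw [div_le_iff₀ (by positivity)] at a5
      linarith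
    push_cast
    rw [hK₁] at h3
    linarith

/-! ## parameters of the frame -/

variable {B₀ : ℕ} {c₁ c₂ ρ γ ε₂ ε₃ b A : ℝ} {K₁ n g : ℕ}

/-- **parameters of the frame** -/
theorem exists_prm (L : Loc B₀ c₁ c₂ ρ γ ε₂ ε₃ b A K₁ n g) {q₀ : ℕ} (hq₀ : 2 ≤ q₀)
    (PP Γ s₀ : ℕ) :
    ∃ p : Prm, p.PP = PP ∧ p.Γ = Γ ∧ (L.fr hq₀).P.T + s₀ = p.M ∧ (L.fr hq₀).Tm ≤ p.K + p.M ∧
      (∀ ω ω' : L.Ω, |(L.ln ω').1 - (L.ln ω).1| ≤ 2 ^ (-(p.k₀ + ((q₀ + 1 : ℕ) : ℤ))) / 3) ∧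
      (∀ ω ω' : L.Ω, (L.ln ω').1 ≠ (L.ln ω).1 →
        (2 : ℝ) ^ (-(p.k₀ + p.K + ((q₀ + 1 : ℕ) : ℤ))) / 6 < |(L.ln ω').1 - (L.ln ω).1|) := by
  obtain ⟨k₀, k₁, h⟩ := L.exists_scales
  refine ⟨⟨k₀ - ((q₀ + 1 : ℕ) : ℤ), (k₁ - k₀).toNat, (L.fr hq₀).P.T + s₀, Γ, PP⟩, rfl, rfl, rfl,
    ?_, ?_, ?_⟩
  · have := (L.fr hq₀).Tm_le
    show (L.fr hq₀).Tm ≤ (k₁ - k₀).toNat + ((L.fr hq₀).P.T + s₀)
    omega
  · intro ω ω'
    show _ ≤ (2 : ℝ) ^ (-((k₀ - ((q₀ + 1 : ℕ) : ℤ)) + ((q₀ + 1 : ℕ) : ℤ))) / 3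
    rw [sub_add_cancel]
    exact (h ω ω').1
  · intro ω ω' hne
    refine lt_of_le_of_lt ?_ ((h ω ω').2 hne)
    apply div_le_div_of_nonneg_right _ (by norm_num)
    apply zpow_le_zpow_right₀ (by norm_num)
    show -((k₀ - ((q₀ + 1 : ℕ) : ℤ)) + ((k₁ - k₀).toNat : ℤ) + ((q₀ + 1 : ℕ) : ℤ)) ≤ -k₁
    omega

/-- the growth constant of case (II) -/
noncomputable def LamII (γ e : ℝ) (PP kt : ℕ) : ℕ :=
  ⌈64 * (4 * ((2 : ℝ) ^ PP) ^ 3 + 4) * (1 + kt + Real.log (4 * ((2 : ℝ) ^ PP) ^ 2)) /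
    ((1 - γ) * e)⌉₊

/-- **the dichotomy with explicit numbers** -/
theorem split_pre {B₀ C PP kt : ℕ} {c₁ γ e : ℝ} (hB₀ : 1 ≤ B₀) (hC : (B₀ : ℝ) ≤ 2 ^ C)
    (hc₁ : 0 < c₁) (hγ : γ < 1) (he : 0 < e) (hkt : 1 ≤ kt) (hPP : 12 ≤ PP) :
    ∃ g₀ : ℕ, 2 ≤ g₀ ∧ ∀ g : ℕ, g₀ ≤ g → ∀ (Γ s₀ : ℕ) {c₂ ρ ε₂ ε₃ b : ℝ} {K₁ n : ℕ},
      b ≤ c₁ / 32 → ε₃ * (2 + 1 / e) ≤ c₁ / 32 →
      ∀ L : Loc B₀ c₁ c₂ ρ γ ε₂ ε₃ b (Real.exp ((g : ℝ) ^ 2)) K₁ n g,
      c₁ / 8 ≤ PE L.ν (L.Zg (2 * (C + 1) * g) e) ∧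
      ∃ (hμ : IsProb (L.mu (2 * (C + 1) * g) e)) (p : Prm), p.PP = PP ∧ p.Γ = Γ ∧
        (L.fr (q := 2) le_rfl).P.T + s₀ = p.M ∧
        ((p.nT / 64 : ℝ) < ∑ i : Fin p.nT, ms (L.mu (2 * (C + 1) * g) e) (fun ω => ∃ κ : p.Kap,
          Big (L.fr (q := 2) le_rfl) L.ln p L.lam (L.mu (2 * (C + 1) * g) e)
            (c₁ / 32 * (1 / 2) ^ (2 * (C + 1) * g)) (Real.exp (-(e * g))) (κ, i) ω ∧
          Gnt (L.fr (q := 2) le_rfl) L.ln p L.lam (L.mu (2 * (C + 1) * g) e) 3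
            ((1 / (g : ℝ)) ^ kt) (κ, i) ω) ∨
        ∃ (ε : ℝ) (hε0 : 0 < ε) (hε1 : ε ≤ 1),
          p.nT * (g / (LamII γ e PP kt * (1 + Real.log g))) ≤
          (colF (L.fr (q := 2) le_rfl) L.ln p L.lam hμ (c₁ / 32 * (1 / 2) ^ (2 * (C + 1) * g)) 3
            (Real.exp (-(e * g))) hε0 hε1).J (L.mu (2 * (C + 1) * g) e)) := by
  obtain ⟨g₀, hg₀, hnum⟩ := split_num hc₁ hγ he kt hkt
  refine ⟨g₀, hg₀, fun g hg Γ s₀ c₂ ρ ε₂ ε₃ b K₁ n hb hε₃ L => ?_⟩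
  obtain ⟨n1, n2, n3, n4, n5⟩ := hnum g hg
  have hg2 : (2 : ℝ) ≤ g := by exact_mod_cast hg₀.trans hg
  have hg0 : (0 : ℝ) < g := by linarith
  have hZ : c₁ / 8 ≤ PE L.ν (L.Zg (2 * (C + 1) * g) e) := by
    have h1 := L.Zg_mass (C := C) hB₀ hC (by exact_mod_cast (by linarith : (1 : ℝ) ≤ g)) he
    have h2 : ε₃ * (2 + 1 / e) = 2 * ε₃ + ε₃ / e := by ring
    rw [h2] at hε₃
    linarith
  refine ⟨hZ, ?_⟩
  have hZ0 : 0 < PE L.ν (L.Zg (2 * (C + 1) * g) e) := by linarith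
  have hμ := Loc.mu_prob (L := L) hZ0
  refine ⟨hμ, ?_⟩
  obtain ⟨p, hp1, hp2, hp3, hp4, hp5, hp6⟩ := exists_prm L (q₀ := 2) le_rfl PP Γ s₀
  refine ⟨p, hp1, hp2, hp3, ?_⟩
  set τ : ℝ := (1 / (g : ℝ)) ^ kt with hτ
  have hτ0 : 0 < τ := by positivity
  set D : ℝ := 4 * ((2 : ℝ) ^ PP) ^ 2 with hD
  have hD1 : 1 ≤ D := by
    have : (1 : ℝ) ≤ (2 : ℝ) ^ PP := one_le_pow₀ (by norm_num)
    rw [hD]
    nlinarith
  set ε : ℝ := τ / D with hε
  have hε0 : 0 < ε := by positivity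
  have hε1 : ε ≤ 1 := by
    rw [hε, div_le_one (by linarith)]
    linarith
  have hlogη : Real.log (1 / Real.exp (-(e * g))) = e * g := by
    rw [one_div, ← Real.exp_neg, neg_neg, Real.log_exp]
  have hlogτ : Real.log (1 / τ) = kt * Real.log g := by
    rw [hτ, one_div, one_div, inv_pow, inv_inv, Real.log_pow]
  have key := colsel L (q₀ := 2) le_rfl (B := 2 * (C + 1) * g) (s := e) hμ (δ := c₁ / 32)
    (by positivity) (by
      rw [div_le_iff₀ hZ0]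
      linarith) p hp4 hp5 hp6 (Real.exp_pos _) n2 hτ0 n3 (by omega) (by
        rw [hp1, hε, ← hD]
        rw [mul_div_assoc', mul_comm, mul_div_assoc, div_self (by linarith), mul_one]) hε0 hε1
      (by rw [hlogη]; exact n4) (Real.exp_pos _)
  rcases key with h | h
  · exact Or.inl h
  · refine Or.inr ⟨ε, hε0, hε1, ?_⟩
    set J := (colF (L.fr (q := 2) le_rfl) L.ln p L.lam hμ (c₁ / 32 * (1 / 2) ^ (2 * (C + 1) * g)) 3
            (Real.exp (-(e * g))) hε0 hε1).J (L.mu (2 * (C + 1) * g) e) with hJ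
    have hclow : (1 - γ) * e * g / 16 ≤ clow γ (Real.exp (-(e * g))) τ (c₁ / 32) 3 := by
      unfold clow
      rw [hlogη, hlogτ]
      exact n5
    have hn : (0 : ℝ) < p.nT := by exact_mod_cast p.nT_pos
    have h1 : (1 - γ) * e * g / 16 * p.nT / 4 ≤
        (4 * ((2 : ℝ) ^ PP) ^ 3 + 4) * ((1 + Real.log (1 / ε)) * J) := by
      rw [← hp1]
      refine le_trans ?_ h
      have := mul_le_mul_of_nonneg_right hclow hn.le
      linarith
    have hlg : 0 ≤ Real.log (g : ℝ) := Real.log_nonneg (by linarith)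
    have hlogD : 0 ≤ Real.log D := Real.log_nonneg hD1
    have hlogε : 1 + Real.log (1 / ε) ≤ (1 + kt + Real.log D) * (1 + Real.log g) := by
      have e1 : 1 / ε = 1 / τ * D := by
        rw [hε]
        field_simp
      rw [e1, Real.log_mul (by positivity) (by linarith), hlogτ]
      have hk0 : (0 : ℝ) ≤ kt := by positivity
      nlinarith [mul_nonneg hk0 hlg, mul_nonneg hlogD hlg]
    have hJ0 : 0 ≤ J := H700.Cols.J_nonneg (C := colF (L.fr (q := 2) le_rfl) L.ln p L.lam hμ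
      (c₁ / 32 * (1 / 2) ^ (2 * (C + 1) * g)) 3 (Real.exp (-(e * g))) hε0 hε1) hμ
    have hγe : 0 < (1 - γ) * e := mul_pos (by linarith) he
    have h2 : (1 - γ) * e * g * p.nT ≤
        64 * (4 * ((2 : ℝ) ^ PP) ^ 3 + 4) * (1 + kt + Real.log D) * ((1 + Real.log g) * J) := by
      have h3 : (4 * ((2 : ℝ) ^ PP) ^ 3 + 4) * ((1 + Real.log (1 / ε)) * J) ≤
          (4 * ((2 : ℝ) ^ PP) ^ 3 + 4) * (((1 + kt + Real.log D) * (1 + Real.log g)) * J) :=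
        mul_le_mul_of_nonneg_left (mul_le_mul_of_nonneg_right hlogε hJ0) (by positivity)
      have h4 := h1.trans h3
      have e1 : (4 * ((2 : ℝ) ^ PP) ^ 3 + 4) * (((1 + kt + Real.log D) * (1 + Real.log g)) * J) =
        (64 * (4 * ((2 : ℝ) ^ PP) ^ 3 + 4) * (1 + kt + Real.log D) * ((1 + Real.log g) * J)) / 64 := by
        ring
      rw [e1] at h4
      linarith
    have hΛ : 64 * (4 * ((2 : ℝ) ^ PP) ^ 3 + 4) * (1 + kt + Real.log D) ≤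
        LamII γ e PP kt * ((1 - γ) * e) := by
      have h3 := Nat.le_ceil (64 * (4 * ((2 : ℝ) ^ PP) ^ 3 + 4) * (1 + kt + Real.log D) /
        ((1 - γ) * e))
      rw [div_le_iff₀ hγe] at h3
      exact h3
    have hΛ0 : 0 < (LamII γ e PP kt : ℝ) := by
      by_contra hc
      have h3 : (LamII γ e PP kt : ℝ) * ((1 - γ) * e) ≤ 0 :=
        mul_nonpos_of_nonpos_of_nonneg (not_lt.1 hc) hγe.le
      have h4 : 0 < 64 * (4 * ((2 : ℝ) ^ PP) ^ 3 + 4) * (1 + kt + Real.log D) := by positivity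
      linarith
    have h3 : (1 - γ) * e * g * p.nT ≤
        LamII γ e PP kt * ((1 - γ) * e) * ((1 + Real.log g) * J) :=
      h2.trans (mul_le_mul_of_nonneg_right hΛ (by positivity))
    have h4 : g * p.nT ≤ LamII γ e PP kt * ((1 + Real.log g) * J) := by
      have h5 : (1 - γ) * e * (g * p.nT) ≤
          (1 - γ) * e * (LamII γ e PP kt * ((1 + Real.log g) * J)) := by linarith
      exact le_of_mul_le_mul_left h5 hγe
    rw [mul_div_assoc', div_le_iff₀ (by positivity)]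
    linarith

end Vale.Agent.P065.H725
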